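import Vale.Agent.P111.FinRank

/-!
From the a priori estimate to the identity operator, using only the approximation property.

`wb_eval_of_AP`. Let `T = X ⊗[ℝ] X*` (algebraic). For a bounded bilinear `b` write `b♯ : T →ₗ ℝ`
(`TensorProduct.lift`). Let `p t = sup {|b♯ t| : WB b β 1}` (finite since `WB b β 1` gives
`|b x φ| ≤ ‖x‖ ‖φ‖`, take `V = W = PUnit`, `χ = 1`; `b = 0` is allowed) and
`π t = inf {∑ ‖x_k‖ ‖φ_k‖ : t = ∑ x_k ⊗ φ_k}`; both are seminorms, `WB b β Ψ → |b♯ t| ≤ Ψ * p t`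
for `Ψ > 0` (scale `b`), and an atom
`t₀ = avg x, avg y, χ x y • f x ⊗ g y` has `p t₀ ≤ bias χ ^ β * l2 f * l2 g`.
Step 1: for `λ > 0` the function `q t = inf_{t'} (π t' + λ * p (t - t'))` is sublinear, so
Hahn-Banach (`exists_extension_of_le_sublinear` from the line through `t₀`) gives a linear
`L ≤ q` with `L t₀ = q t₀`. `L ≤ π` makes `L` a bilinear form `b` with `|b x φ| ≤ ‖x‖ ‖φ‖`
(`LinearMap.mkContinuous₂`), `L ≤ λ p` gives `WB b β λ`, so `hcore` gives `WB b β C` and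
`q t₀ = L t₀ ≤ C * p t₀`. Taking `λ = 2 (C + 1)`: whenever `p t ≤ r` (`r > 0`) there is `t'` with
`π t' < (C + 1) r` and `p (t - t') ≤ r / 2`.
Step 2: iterate: `t₀ = t'_0 + … + t'_{N-1} + r_N`, `p r_N ≤ r 2^(-N)`,
`t'_n = ∑ k, x_{nk} ⊗ φ_{nk}`, `∑ k, ‖x_{nk}‖ ‖φ_{nk}‖ ≤ (C + 1) r 2^(-n)`; rescale so that
`‖x_{nk}‖ ≤ (3/4)^n` and `∑ k, ‖φ_{nk}‖ ≤ (C + 1) r (2/3)^n`. The set
`M = {0} ∪ {x_{nk}} ∪ range f` is compact (totally bounded and complete/closed, or: any open set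
containing `0` contains all but finitely many points). For `u` from `HasAP` with `‖u x - x‖ < δ`
on `M`: `|b₀♯ t₀| ≤ |(b₀ - b_u)♯ t₀| + ∑ n < N, (π-bound of t'_n + δ ∑ k ‖φ_{nk}‖) + Ψ_u p r_N`;
let `N → ∞` and then `δ → 0` to get `|b₀♯ t₀| ≤ 2 (C + 1) r`.
-/

namespace Vale.Agent.P111

open Finset

variable {X : Type*} [NormedAddCommGroup X] [NormedSpace ℝ X]

/-- linearisation of a bilinear form -/
noncomputable def apSh (b : X →L[ℝ] StrongDual ℝ X →L[ℝ] ℝ) :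
    TensorProduct ℝ X (StrongDual ℝ X) →ₗ[ℝ] ℝ :=
  TensorProduct.lift (LinearMap.mk₂ ℝ (fun x φ => b x φ) (by simp) (by simp) (by simp) (by simp))

@[simp] theorem apSh_tmul (b : X →L[ℝ] StrongDual ℝ X →L[ℝ] ℝ) (x : X) (φ : StrongDual ℝ X) :
    apSh b (x ⊗ₜ φ) = b x φ := by simp [apSh]

theorem apSh_smul (c : ℝ) (b : X →L[ℝ] StrongDual ℝ X →L[ℝ] ℝ)
    (t : TensorProduct ℝ X (StrongDual ℝ X)) : apSh (c • b) t = c * apSh b t := by
  induction t using TensorProduct.induction_on with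
  | zero => simp
  | tmul x φ => simp
  | add s t hs ht => simp [hs, ht, mul_add]

/-- the tensor of a list -/
noncomputable def apEv (l : List (X × StrongDual ℝ X)) : TensorProduct ℝ X (StrongDual ℝ X) :=
  (l.map fun p => p.1 ⊗ₜ p.2).sum

/-- the weight of a list -/
noncomputable def apWt (l : List (X × StrongDual ℝ X)) : ℝ := (l.map fun p => ‖p.1‖ * ‖p.2‖).sum

/-- the second weight of a list -/
noncomputable def apW2 (l : List (X × StrongDual ℝ X)) : ℝ := (l.map fun p => ‖p.2‖).sum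

theorem apWt_nonneg (l : List (X × StrongDual ℝ X)) : 0 ≤ apWt l := by
  induction l with
  | nil => simp [apWt]
  | cons p l ih => simp only [apWt, List.map_cons, List.sum_cons] at *; positivity

theorem apW2_nonneg (l : List (X × StrongDual ℝ X)) : 0 ≤ apW2 l := by
  induction l with
  | nil => simp [apW2]
  | cons p l ih => simp only [apW2, List.map_cons, List.sum_cons] at *; positivity

theorem ap_exists_list (t : TensorProduct ℝ X (StrongDual ℝ X)) : ∃ l, apEv l = t := by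
  induction t using TensorProduct.induction_on with
  | zero => exact ⟨[], by simp [apEv]⟩
  | tmul x φ => exact ⟨[(x, φ)], by simp [apEv]⟩
  | add s t hs ht =>
    obtain ⟨l, rfl⟩ := hs
    obtain ⟨l', rfl⟩ := ht
    exact ⟨l ++ l', by simp [apEv]⟩

theorem ap_scale (c : ℝ) (hc : 0 ≤ c) (l : List (X × StrongDual ℝ X)) :
    ∃ l', apEv l' = c • apEv l ∧ apWt l' = c * apWt l := by
  induction l with
  | nil => exact ⟨[], by simp [apEv], by simp [apWt]⟩
  | cons p l ih =>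
    obtain ⟨l', h1, h2⟩ := ih
    refine ⟨(c • p.1, p.2) :: l', ?_, ?_⟩
    · simp only [apEv, List.map_cons, List.sum_cons] at *
      rw [h1, smul_add, TensorProduct.smul_tmul']
    · simp only [apWt, List.map_cons, List.sum_cons] at *
      rw [h2, norm_smul, Real.norm_of_nonneg hc]; ring

theorem ap_rescale {s : ℝ} (hs : 0 < s) (l : List (X × StrongDual ℝ X)) :
    ∃ l', apEv l' = apEv l ∧ apWt l' ≤ apWt l ∧ apW2 l' = apWt l / s ∧ ∀ p ∈ l', ‖p.1‖ ≤ s := by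
  induction l with
  | nil => exact ⟨[], rfl, le_rfl, by simp [apWt, apW2], by simp⟩
  | cons p l ih =>
    obtain ⟨l', h1, h2, h3, h4⟩ := ih
    by_cases hp : p.1 = 0
    · refine ⟨l', ?_, ?_, ?_, h4⟩
      · simp only [apEv, List.map_cons, List.sum_cons] at *
        rw [h1, hp]; simp
      · simp only [apWt, List.map_cons, List.sum_cons] at *
        rw [hp]; simpa using h2
      · simp only [apWt, apW2, List.map_cons, List.sum_cons] at *
        rw [hp]; simpa using h3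
    have hn : 0 < ‖p.1‖ := norm_pos_iff.2 hp
    have e1 : ‖(s / ‖p.1‖) • p.1‖ = s := by
      rw [norm_smul, Real.norm_of_nonneg (by positivity)]; field_simp
    have e2 : ‖(‖p.1‖ / s) • p.2‖ = ‖p.1‖ * ‖p.2‖ / s := by
      rw [norm_smul, Real.norm_of_nonneg (by positivity)]; field_simp
    refine ⟨((s / ‖p.1‖) • p.1, (‖p.1‖ / s) • p.2) :: l', ?_, ?_, ?_, ?_⟩
    · simp only [apEv, List.map_cons, List.sum_cons] at *
      rw [h1, TensorProduct.smul_tmul_smul]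
      have : s / ‖p.1‖ * (‖p.1‖ / s) = 1 := by field_simp
      rw [this, one_smul]
    · simp only [apWt, List.map_cons, List.sum_cons] at *
      rw [e1, e2]
      have : s * (‖p.1‖ * ‖p.2‖ / s) = ‖p.1‖ * ‖p.2‖ := by field_simp
      linarith
    · simp only [apWt, apW2, List.map_cons, List.sum_cons] at *
      rw [e2, h3, add_div]
    · intro q hq
      rcases List.mem_cons.1 hq with rfl | hq
      · exact e1.le
      · exact h4 q hq

theorem ap_list_bound (b : X →L[ℝ] StrongDual ℝ X →L[ℝ] ℝ) (a δ : ℝ)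
    (l : List (X × StrongDual ℝ X)) (h : ∀ p ∈ l, |b p.1 p.2| ≤ (a * ‖p.1‖ + δ) * ‖p.2‖) :
    |apSh b (apEv l)| ≤ a * apWt l + δ * apW2 l := by
  induction l with
  | nil => simp [apEv, apWt, apW2]
  | cons p l ih =>
    have h1 := ih fun q hq => h q (List.mem_cons_of_mem _ hq)
    have h2 := h p List.mem_cons_self
    simp only [apEv, apWt, apW2, List.map_cons, List.sum_cons, map_add, apSh_tmul] at *
    refine (abs_add_le _ _).trans ?_
    linarith

/-- `r` bounds the dual Walsh seminorm of `t` -/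
def apP (β : ℝ) (t : TensorProduct ℝ X (StrongDual ℝ X)) (r : ℝ) : Prop :=
  0 ≤ r ∧ ∀ b, WB b β 1 → |apSh b t| ≤ r

theorem apP_zero (β : ℝ) : apP β (0 : TensorProduct ℝ X (StrongDual ℝ X)) 0 :=
  ⟨le_rfl, fun _ _ => by simp⟩

theorem apP.mono {β r r' : ℝ} {t : TensorProduct ℝ X (StrongDual ℝ X)} (h : apP β t r)
    (hr : r ≤ r') : apP β t r' := ⟨h.1.trans hr, fun b hb => (h.2 b hb).trans hr⟩

theorem apP.neg {β r : ℝ} {t : TensorProduct ℝ X (StrongDual ℝ X)} (h : apP β t r) :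
    apP β (-t) r := ⟨h.1, fun b hb => by simpa using h.2 b hb⟩

theorem apP.bound {β r Ψ : ℝ} {t : TensorProduct ℝ X (StrongDual ℝ X)} (h : apP β t r)
    {b : X →L[ℝ] StrongDual ℝ X →L[ℝ] ℝ} (hb : WB b β Ψ) (hΨ : 0 < Ψ) : |apSh b t| ≤ Ψ * r := by
  have h1 : WB (Ψ⁻¹ • b) β 1 := by
    intro V W _ _ _ _ χ hχ f g
    have h2 := hb V W χ hχ f g
    have e : (avg fun x => avg fun y => χ x y * (Ψ⁻¹ • b) (f x) (g y)) =
        Ψ⁻¹ * avg fun x => avg fun y => χ x y * b (f x) (g y) := by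
      simp only [← avg_const_mul]
      refine avg_congr fun x => avg_congr fun y => ?_
      simp only [smul_apply, smul_eq_mul]; ring
    rw [e, abs_mul, abs_of_pos (inv_pos.2 hΨ), inv_mul_le_iff₀ hΨ]
    exact h2.trans (le_of_eq (by ring))
  have h2 := h.2 _ h1
  rwa [apSh_smul, abs_mul, abs_of_pos (inv_pos.2 hΨ), inv_mul_le_iff₀ hΨ] at h2

/-- the atoms -/
noncomputable def apAtom {V W : Type} [Fintype V] [Fintype W] (χ : V → W → ℝ) (f : V → X)
    (g : W → StrongDual ℝ X) : TensorProduct ℝ X (StrongDual ℝ X) :=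
  avg fun x => avg fun y => χ x y • f x ⊗ₜ g y

theorem apSh_atom {V W : Type} [Fintype V] [Fintype W] (χ : V → W → ℝ) (f : V → X)
    (g : W → StrongDual ℝ X) (b : X →L[ℝ] StrongDual ℝ X →L[ℝ] ℝ) :
    apSh b (apAtom χ f g) = avg fun x => avg fun y => χ x y * b (f x) (g y) := by
  simp only [apAtom, map_avg, map_smul, apSh_tmul, smul_eq_mul]

theorem apP_atom (β : ℝ) {V W : Type} [AddCommGroup V] [Fintype V] [AddCommGroup W] [Fintype W]
    {χ : V → W → ℝ} (hχ : IsBi χ) (f : V → X) (g : W → StrongDual ℝ X) :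
    apP β (apAtom χ f g) (bias χ ^ β * l2 f * l2 g) := by
  refine ⟨mul_nonneg (mul_nonneg (Real.rpow_nonneg hχ.bias_pos.le _) (l2_nonneg _)) (l2_nonneg _),
    fun b hb => ?_⟩
  rw [apSh_atom]
  simpa using hb V W χ hχ f g

/-- the set defining the inf-convolution -/
def apS (β lam : ℝ) (t : TensorProduct ℝ X (StrongDual ℝ X)) : Set ℝ :=
  {c | ∃ l r, apP β (t - apEv l) r ∧ c = apWt l + lam * r}

theorem apS_ne (β lam : ℝ) (t : TensorProduct ℝ X (StrongDual ℝ X)) : (apS β lam t).Nonempty := by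
  obtain ⟨l, rfl⟩ := ap_exists_list t
  exact ⟨_, l, 0, by simpa using apP_zero β, rfl⟩

theorem apS_nonneg {β lam : ℝ} (hl : 0 ≤ lam) (t : TensorProduct ℝ X (StrongDual ℝ X)) :
    ∀ c ∈ apS β lam t, 0 ≤ c := by
  rintro c ⟨l, r, h, rfl⟩
  exact add_nonneg (apWt_nonneg l) (mul_nonneg hl h.1)

theorem apq_le {β lam : ℝ} (hl : 0 ≤ lam) {t : TensorProduct ℝ X (StrongDual ℝ X)} {c : ℝ}
    (hc : c ∈ apS β lam t) : sInf (apS β lam t) ≤ c := csInf_le ⟨0, apS_nonneg hl t⟩ hc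

theorem apq_add {β lam : ℝ} (hl : 0 ≤ lam) (s t : TensorProduct ℝ X (StrongDual ℝ X)) :
    sInf (apS β lam (s + t)) ≤ sInf (apS β lam s) + sInf (apS β lam t) := by
  rw [← sub_le_iff_le_add]
  refine le_csInf (apS_ne β lam s) fun c hc => ?_
  rw [sub_le_comm]
  refine le_csInf (apS_ne β lam t) fun d hd => ?_
  obtain ⟨l, r, h, rfl⟩ := hc
  obtain ⟨l', r', h', rfl⟩ := hd
  have : apWt l + lam * r + (apWt l' + lam * r') ∈ apS β lam (s + t) := by
    refine ⟨l ++ l', r + r', ⟨add_nonneg h.1 h'.1, fun b hb => ?_⟩, by simp [apWt]; ring⟩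
    have e : s + t - apEv (l ++ l') = (s - apEv l) + (t - apEv l') := by simp [apEv]; abel
    rw [e, map_add]
    exact (abs_add_le _ _).trans (add_le_add (h.2 b hb) (h'.2 b hb))
  linarith [apq_le hl this]

theorem apq_smul_le {β lam : ℝ} (hl : 0 ≤ lam) {c : ℝ} (hc : 0 < c)
    (t : TensorProduct ℝ X (StrongDual ℝ X)) :
    sInf (apS β lam (c • t)) ≤ c * sInf (apS β lam t) := by
  rw [← inv_mul_le_iff₀ hc]
  refine le_csInf (apS_ne β lam t) ?_
  rintro d ⟨l, r, h, rfl⟩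
  rw [inv_mul_le_iff₀ hc]
  obtain ⟨l', h1, h2⟩ := ap_scale c hc.le l
  refine apq_le hl ⟨l', c * r, ⟨mul_nonneg hc.le h.1, fun b hb => ?_⟩, by rw [h2]; ring⟩
  rw [h1, ← smul_sub, map_smul, smul_eq_mul, abs_mul, abs_of_pos hc]
  exact mul_le_mul_of_nonneg_left (h.2 b hb) hc.le

theorem apq_smul {β lam : ℝ} (hl : 0 ≤ lam) {c : ℝ} (hc : 0 < c)
    (t : TensorProduct ℝ X (StrongDual ℝ X)) :
    sInf (apS β lam (c • t)) = c * sInf (apS β lam t) := by
  refine le_antisymm (apq_smul_le hl hc t) ?_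
  have := apq_smul_le (β := β) hl (inv_pos.2 hc) (c • t)
  rwa [inv_smul_smul₀ hc.ne', le_inv_mul_iff₀ hc] at this

theorem ap_step {β C : ℝ} (hC : 0 < C)
    (hcore : ∀ b : X →L[ℝ] StrongDual ℝ X →L[ℝ] ℝ, (∀ x φ, |b x φ| ≤ ‖x‖ * ‖φ‖) →
      (∃ Ψ : ℝ, WB b β Ψ) → WB b β C) {t : TensorProduct ℝ X (StrongDual ℝ X)} {r : ℝ}
    (hr : 0 < r) (h : apP β t r) : ∃ l, apWt l ≤ (C + 1) * r ∧ apP β (t - apEv l) (r / 2) := by
  by_cases ht : t = 0
  · exact ⟨[], by simp [apWt]; positivity, by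
      simpa [apEv, ht] using (apP_zero β).mono (half_pos hr).le⟩
  have hl : 0 ≤ 2 * (C + 1) := by positivity
  set q : TensorProduct ℝ X (StrongDual ℝ X) → ℝ := fun s => sInf (apS β (2 * (C + 1)) s) with hq
  have hq0 : ∀ s, 0 ≤ q s := fun s => le_csInf (apS_ne _ _ s) (apS_nonneg hl s)
  obtain ⟨L, hL1, hL2⟩ := exists_extension_of_le_sublinear (LinearPMap.mkSpanSingleton t (q t) ht) q
    (fun c hc s => apq_smul hl hc s) (apq_add hl) (by
      rintro ⟨s, hs⟩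
      obtain ⟨c, rfl⟩ := Submodule.mem_span_singleton.1 hs
      rw [LinearPMap.mkSpanSingleton'_apply, smul_eq_mul]
      rcases lt_or_ge 0 c with hc | hc
      · exact (apq_smul hl hc t).ge
      · exact (mul_nonpos_of_nonpos_of_nonneg hc (hq0 t)).trans (hq0 _))
  have hLt : L t = q t := by
    have := hL1 ⟨t, Submodule.mem_span_singleton_self t⟩
    rwa [LinearPMap.mkSpanSingleton_apply] at this
  have hb1 : ∀ x φ, L (x ⊗ₜ φ) ≤ ‖x‖ * ‖φ‖ := fun x φ =>
    (hL2 _).trans (apq_le hl ⟨[(x, φ)], 0, by simpa [apEv] using apP_zero β, by simp [apWt]⟩)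
  have hb2 : ∀ x φ, |L (x ⊗ₜ φ)| ≤ ‖x‖ * ‖φ‖ := fun x φ => by
    refine abs_le.2 ⟨?_, hb1 x φ⟩
    have := hb1 (-x) φ
    rw [TensorProduct.neg_tmul, map_neg, norm_neg] at this
    linarith
  set b : X →L[ℝ] StrongDual ℝ X →L[ℝ] ℝ :=
    LinearMap.mkContinuous₂ ((TensorProduct.mk ℝ X (StrongDual ℝ X)).compr₂ L) 1
      (fun x φ => by simpa using hb2 x φ) with hb
  have hbL : apSh b = L := TensorProduct.ext' fun x φ => by simp [hb]
  have hP : ∀ s ρ, apP β s ρ → L s ≤ 2 * (C + 1) * ρ := fun s ρ hs =>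
    (hL2 _).trans (apq_le hl ⟨[], ρ, by simpa [apEv] using hs, by simp [apWt]⟩)
  have hW : WB b β (2 * (C + 1)) := by
    intro V W _ _ _ _ χ hχ f g
    rw [← apSh_atom, hbL]
    have h1 := hP _ _ (apP_atom β hχ f g)
    have h2 := hP _ _ (apP_atom β hχ f g).neg
    rw [map_neg] at h2
    rw [abs_le]; constructor <;> linarith
  have hWC := hcore b (fun x φ => by rw [← apSh_tmul, hbL]; exact hb2 x φ) ⟨_, hW⟩
  have h3 := h.bound hWC hC
  rw [hbL, hLt] at h3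
  have h4 : q t < (C + 1) * r := by linarith [le_abs_self (q t)]
  obtain ⟨c, ⟨l, ρ, h5, rfl⟩, h6⟩ := exists_lt_of_csInf_lt (apS_ne _ _ t) h4
  have h7 := mul_nonneg hl h5.1
  refine ⟨l, by linarith, h5.mono ?_⟩
  have h8 : (C + 1) * (2 * ρ) < (C + 1) * r := by linarith [apWt_nonneg l]
  have := lt_of_mul_lt_mul_left h8 (by positivity)
  linarith

theorem ap_iter {β C : ℝ} (hC : 0 < C)
    (hcore : ∀ b : X →L[ℝ] StrongDual ℝ X →L[ℝ] ℝ, (∀ x φ, |b x φ| ≤ ‖x‖ * ‖φ‖) →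
      (∃ Ψ : ℝ, WB b β Ψ) → WB b β C) {t : TensorProduct ℝ X (StrongDual ℝ X)} {r : ℝ}
    (hr : 0 < r) (h : apP β t r) : ∃ l : ℕ → List (X × StrongDual ℝ X), ∀ n,
      apP β (t - ∑ k ∈ range n, apEv (l k)) (r * (1 / 2) ^ n) ∧
      apWt (l n) ≤ (C + 1) * r * (1 / 2) ^ n ∧ apW2 (l n) ≤ (C + 1) * r * (2 / 3) ^ n ∧
      ∀ p ∈ l n, ‖p.1‖ ≤ (3 / 4) ^ n := by
  have key : ∀ (n : ℕ) (s : TensorProduct ℝ X (StrongDual ℝ X)), ∃ l,
      apP β s (r * (1 / 2) ^ n) → apP β (s - apEv l) (r * (1 / 2) ^ (n + 1)) ∧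
      apWt l ≤ (C + 1) * r * (1 / 2) ^ n ∧ apW2 l ≤ (C + 1) * r * (2 / 3) ^ n ∧
      ∀ p ∈ l, ‖p.1‖ ≤ (3 / 4) ^ n := by
    intro n s
    by_cases hs : apP β s (r * (1 / 2) ^ n)
    swap
    · exact ⟨[], fun h => absurd h hs⟩
    obtain ⟨l, h1, h2⟩ := ap_step hC hcore (by positivity) hs
    obtain ⟨l', h3, h4, h5, h6⟩ := ap_rescale (s := (3 / 4) ^ n) (by positivity) l
    refine ⟨l', fun _ => ⟨?_, by linarith, ?_, h6⟩⟩
    · rw [h3]; exact h2.mono (le_of_eq (by ring))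
    · rw [h5, div_le_iff₀ (by positivity), mul_assoc, ← mul_pow]
      norm_num at h1 ⊢
      linarith
  choose F hF using key
  let s : ℕ → TensorProduct ℝ X (StrongDual ℝ X) := fun n =>
    Nat.rec t (fun n s => s - apEv (F n s)) n
  have hs : ∀ n, apP β (s n) (r * (1 / 2) ^ n) := by
    intro n
    induction n with
    | zero => simpa [s] using h
    | succ n ih => exact (hF n _ ih).1
  have hs2 : ∀ n, t - ∑ k ∈ range n, apEv (F k (s k)) = s n := by
    intro n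
    induction n with
    | zero => simp [s]
    | succ n ih => rw [sum_range_succ, ← sub_sub, ih]
  exact ⟨fun n => F n (s n), fun n => ⟨by rw [hs2]; exact hs n, (hF n _ (hs n)).2⟩⟩

theorem ap_compact (l : ℕ → List (X × StrongDual ℝ X)) (h : ∀ n, ∀ p ∈ l n, ‖p.1‖ ≤ (3 / 4) ^ n)
    (l₀ : List (X × StrongDual ℝ X)) :
    ∃ M : Set X, IsCompact M ∧ (∀ p ∈ l₀, p.1 ∈ M) ∧ ∀ n, ∀ p ∈ l n, p.1 ∈ M := by
  let S : Set X := {x | ∃ n, ∃ p ∈ l n, p.1 = x}
  have hf : ∀ l' : List (X × StrongDual ℝ X), (Prod.fst '' {p | p ∈ l'}).Finite := fun l' =>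
    (List.finite_toSet l').image _
  have ht : Filter.Tendsto (Subtype.val : S → X) Filter.cofinite (nhds 0) := by
    rw [Metric.tendsto_nhds]
    intro ε hε
    obtain ⟨N, hN⟩ := exists_pow_lt_of_lt_one hε (by norm_num : (3 / 4 : ℝ) < 1)
    rw [Filter.eventually_cofinite]
    refine (((Set.finite_lt_nat N).biUnion fun n _ => hf (l n)).preimage
      Subtype.val_injective.injOn).subset ?_
    rintro ⟨x, n, p, hp, rfl⟩ hx
    simp only [dist_zero_right, not_lt, Set.mem_ofPred_eq] at hx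
    refine Set.mem_biUnion (x := n) ?_ ⟨p, hp, rfl⟩
    by_contra hn
    have : (3 / 4 : ℝ) ^ n ≤ (3 / 4) ^ N :=
      pow_le_pow_of_le_one (by norm_num) (by norm_num) (not_lt.1 hn)
    linarith [h n p hp]
  refine ⟨_, ht.isCompact_insert_range_of_cofinite.union (hf l₀).isCompact,
    fun p hp => Or.inr ⟨p, hp, rfl⟩, fun n p hp => Or.inl (Or.inr ⟨⟨p.1, n, p, hp, rfl⟩, rfl⟩)⟩

theorem ap_main (hAP : HasAP X) {β C : ℝ} (hβ : β ≤ 1 / 2) (hC : 0 < C)
    (hcore : ∀ b : X →L[ℝ] StrongDual ℝ X →L[ℝ] ℝ, (∀ x φ, |b x φ| ≤ ‖x‖ * ‖φ‖) →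
      (∃ Ψ : ℝ, WB b β Ψ) → WB b β C) {t : TensorProduct ℝ X (StrongDual ℝ X)} {r : ℝ}
    (hr : 0 < r) (h : apP β t r) :
    |apSh (evalForm (ContinuousLinearMap.id ℝ X)) t| ≤ 2 * (C + 1) * r := by
  obtain ⟨l, hl⟩ := ap_iter hC hcore hr h
  obtain ⟨l₀, rfl⟩ := ap_exists_list t
  obtain ⟨M, hM, hM0, hM1⟩ := ap_compact l (fun n => (hl n).2.2.2) l₀
  set K := apW2 l₀ + 3 * ((C + 1) * r) with hK
  have hK0 : 0 < K := by have := apW2_nonneg l₀; positivity
  refine le_of_forall_pos_le_add fun ε hε => ?_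
  obtain ⟨u, hu, hu'⟩ := hAP M hM (ε / 2 / K) (by positivity)
  set δ := ε / 2 / K with hδ
  have hδ0 : 0 < δ := by positivity
  obtain ⟨Ψ, hΨ⟩ := wb_finite_rank hβ u hu
  have hΨ' : WB (evalForm u) β (|Ψ| + 1) := by
    intro V W _ _ _ _ χ hχ f g
    refine (hΨ V W χ hχ f g).trans ?_
    have := hχ.bias_pos
    have := l2_nonneg f
    have := l2_nonneg g
    gcongr
    linarith [le_abs_self Ψ]
  obtain ⟨N, hN⟩ := exists_pow_lt_of_lt_one (x := ε / 2 / ((|Ψ| + 1) * r)) (by positivity)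
    (by norm_num : (1 / 2 : ℝ) < 1)
  have e1 := (hl N).1.bound hΨ' (by positivity)
  have e1' : (|Ψ| + 1) * (r * (1 / 2) ^ N) ≤ ε / 2 := by
    rw [lt_div_iff₀ (by positivity)] at hN; linarith
  have e2 : ∀ n, |apSh (evalForm u) (apEv (l n))| ≤
      (C + 1) * r * (1 / 2) ^ n + δ * ((C + 1) * r) * (2 / 3) ^ n := fun n => by
    have := ap_list_bound (evalForm u) 1 δ (l n) fun p hp => by
      rw [evalForm_apply, mul_comm]
      refine (p.2.le_opNorm _).trans (mul_le_mul_of_nonneg_left ?_ (norm_nonneg _))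
      have := norm_sub_norm_le (u p.1) p.1
      linarith [hu' _ (hM1 n p hp)]
    have h2 := mul_le_mul_of_nonneg_left (hl n).2.2.1 hδ0.le
    linarith [(hl n).2.1]
  have e3 : |apSh (evalForm (ContinuousLinearMap.id ℝ X - u)) (apEv l₀)| ≤ δ * apW2 l₀ := by
    have := ap_list_bound (evalForm (ContinuousLinearMap.id ℝ X - u)) 0 δ l₀ fun p hp => by
      rw [evalForm_apply, mul_comm]
      refine (p.2.le_opNorm _).trans (mul_le_mul_of_nonneg_left ?_ (norm_nonneg _))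
      have := hu' _ (hM0 p hp)
      rw [norm_sub_rev] at this
      simpa using this.le
    simpa using this
  have e4 : apSh (evalForm (ContinuousLinearMap.id ℝ X)) =
      apSh (evalForm (ContinuousLinearMap.id ℝ X - u)) + apSh (evalForm u) :=
    TensorProduct.ext' fun x φ => by simp
  have e5 : apSh (evalForm u) (apEv l₀) =
      apSh (evalForm u) (apEv l₀ - ∑ k ∈ range N, apEv (l k)) +
        ∑ k ∈ range N, apSh (evalForm u) (apEv (l k)) := by simp
  have e6 : |∑ k ∈ range N, apSh (evalForm u) (apEv (l k))| ≤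
      (C + 1) * r * 2 + δ * ((C + 1) * r) * 3 := by
    refine (abs_sum_le_sum_abs _ _).trans ((sum_le_sum fun n _ => e2 n).trans ?_)
    rw [sum_add_distrib, ← mul_sum, ← mul_sum]
    have g1 : ∑ n ∈ range N, (1 / 2 : ℝ) ^ n ≤ 2 := sum_geometric_two_le N
    have g2 : ∑ n ∈ range N, (2 / 3 : ℝ) ^ n ≤ 3 := by
      rw [geom_sum_eq (by norm_num)]
      have : 0 < (2 / 3 : ℝ) ^ N := by positivity
      rw [div_le_iff_of_neg (by norm_num)]
      linarith
    gcongr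
  have e7 : δ * K = ε / 2 := by rw [hδ]; field_simp
  rw [e4, LinearMap.add_apply, e5]
  refine (abs_add_le _ _).trans ?_
  have e8 := abs_add_le (apSh (evalForm u) (apEv l₀ - ∑ k ∈ range N, apEv (l k)))
    (∑ k ∈ range N, apSh (evalForm u) (apEv (l k)))
  rw [hK] at e7
  linarith

theorem wb_eval_of_AP (hAP : HasAP X) {β C : ℝ} (hβ : β ≤ 1 / 2) (hC : 0 < C)
    (hcore : ∀ b : X →L[ℝ] StrongDual ℝ X →L[ℝ] ℝ, (∀ x φ, |b x φ| ≤ ‖x‖ * ‖φ‖) →
      (∃ Ψ : ℝ, WB b β Ψ) → WB b β C) :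
    WB (evalForm (ContinuousLinearMap.id ℝ X)) β (2 * (C + 1)) := by
  intro V W _ _ _ _ χ hχ f g
  rw [← apSh_atom]
  have hP := apP_atom β hχ f g
  refine le_of_forall_pos_le_add fun ε hε => ?_
  have h1 := ap_main hAP hβ hC hcore (r := bias χ ^ β * l2 f * l2 g + ε / (2 * (C + 1)))
    (add_pos_of_nonneg_of_pos hP.1 (by positivity))
    (hP.mono (le_add_of_nonneg_right (by positivity)))
  refine h1.trans (le_of_eq ?_)
  field_simp

end Vale.Agent.P111
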