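import Mathlib

/-!
Functional calculus for orthogonal idempotents in a normed algebra.
-/

namespace Vale.Agent.P111

open Finset

variable {𝔸 : Type*} [NormedRing 𝔸] [NormedAlgebra ℝ 𝔸]

/-- `∑ k ≤ s, m k • P k`. -/
def fc (P : ℕ → 𝔸) (s : ℕ) (m : ℕ → ℝ) : 𝔸 := ∑ k ∈ range (s + 1), m k • P k

/-- Orthogonal idempotents. -/
def Idem (P : ℕ → 𝔸) : Prop := ∀ j k, P j * P k = if j = k then P k else 0

variable {P : ℕ → 𝔸} {s : ℕ}

theorem fc_mul (hP : Idem P) (m m' : ℕ → ℝ) :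
    fc P s (fun k => m k * m' k) = fc P s m * fc P s m' := by
  simp only [fc, sum_mul_sum, smul_mul_smul_comm, hP _ _, smul_ite, smul_zero]
  refine sum_congr rfl fun j hj => ?_
  rw [sum_ite_eq, if_pos hj]

theorem fc_add (m m' : ℕ → ℝ) : fc P s (fun k => m k + m' k) = fc P s m + fc P s m' := by
  simp only [fc, add_smul, sum_add_distrib]

theorem fc_sub (m m' : ℕ → ℝ) : fc P s (fun k => m k - m' k) = fc P s m - fc P s m' := by
  simp only [fc, sub_smul, sum_sub_distrib]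

theorem fc_smul (c : ℝ) (m : ℕ → ℝ) : fc P s (fun k => c * m k) = c • fc P s m := by
  simp only [fc, smul_sum, smul_smul]

theorem fc_neg (m : ℕ → ℝ) : fc P s (fun k => -m k) = -fc P s m := by
  simp only [fc, neg_smul, sum_neg_distrib]

theorem norm_fc_mul_le (hP : Idem P) (m m' : ℕ → ℝ) :
    ‖fc P s (fun k => m k * m' k)‖ ≤ ‖fc P s m‖ * ‖fc P s m'‖ := by
  rw [fc_mul hP]; exact norm_mul_le _ _

/-- The norm of a complex symbol: real part plus imaginary part. -/
noncomputable def cN (P : ℕ → 𝔸) (s : ℕ) (m : ℕ → ℂ) : ℝ :=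
  ‖fc P s fun k => (m k).re‖ + ‖fc P s fun k => (m k).im‖

theorem cN_nonneg (m : ℕ → ℂ) : 0 ≤ cN P s m := by unfold cN; positivity

theorem cN_add_le (m m' : ℕ → ℂ) : cN P s (fun k => m k + m' k) ≤ cN P s m + cN P s m' := by
  simp only [cN, Complex.add_re, Complex.add_im, fc_add]
  have h1 := norm_add_le (fc P s fun k => (m k).re) (fc P s fun k => (m' k).re)
  have h2 := norm_add_le (fc P s fun k => (m k).im) (fc P s fun k => (m' k).im)
  linarith

theorem cN_mul_le (hP : Idem P) (m m' : ℕ → ℂ) :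
    cN P s (fun k => m k * m' k) ≤ cN P s m * cN P s m' := by
  simp only [cN, Complex.mul_re, Complex.mul_im, fc_add, fc_sub]
  have h1 := norm_sub_le (fc P s fun k => (m k).re * (m' k).re)
    (fc P s fun k => (m k).im * (m' k).im)
  have h2 := norm_add_le (fc P s fun k => (m k).re * (m' k).im)
    (fc P s fun k => (m k).im * (m' k).re)
  have h3 := norm_fc_mul_le (s := s) hP (fun k => (m k).re) (fun k => (m' k).re)
  have h4 := norm_fc_mul_le (s := s) hP (fun k => (m k).im) (fun k => (m' k).im)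
  have h5 := norm_fc_mul_le (s := s) hP (fun k => (m k).re) (fun k => (m' k).im)
  have h6 := norm_fc_mul_le (s := s) hP (fun k => (m k).im) (fun k => (m' k).re)
  nlinarith

theorem cN_ofReal (m : ℕ → ℝ) : cN P s (fun k => (m k : ℂ)) = ‖fc P s m‖ := by
  simp [cN, fc]

theorem cN_const_mul_le (z : ℂ) (m : ℕ → ℂ) :
    cN P s (fun k => z * m k) ≤ (|z.re| + |z.im|) * cN P s m := by
  simp only [cN, Complex.mul_re, Complex.mul_im, fc_add, fc_sub, fc_smul]
  have h1 := norm_sub_le (z.re • fc P s fun k => (m k).re) (z.im • fc P s fun k => (m k).im)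
  have h2 := norm_add_le (z.re • fc P s fun k => (m k).im) (z.im • fc P s fun k => (m k).re)
  simp only [norm_smul, Real.norm_eq_abs] at h1 h2
  nlinarith

/-- The two hypotheses coming from the noise semigroup. -/
structure Semi (P : ℕ → 𝔸) (s : ℕ) (C₀ : ℝ) : Prop where
  idem : Idem P
  contr : ∀ θ : ℝ, 0 ≤ θ → θ ≤ 1 → ‖fc P s fun k => θ ^ k‖ ≤ 1
  inv : ∀ θ μ : ℝ, 0 ≤ θ → θ ≤ 1 → 0 ≤ μ → μ ≤ 1 → ‖fc P s fun k => (1 + μ * θ ^ k)⁻¹‖ ≤ C₀

end Vale.Agent.P111
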