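import Vale.Agent.P111.Defs

/-!
Basic tools for P111: averages, `l2`, Walsh functions, bicharacters, the Walsh bound `WB`,
and the lifting properties.
-/

namespace Vale.Agent.P111

open Finset

section Avg

variable {ι κ M N : Type*} [Fintype ι] [Fintype κ]

section Mod
variable [AddCommMonoid M] [Module ℝ M] [AddCommMonoid N] [Module ℝ N]

theorem avg_def (f : ι → M) : avg f = (Fintype.card ι : ℝ)⁻¹ • ∑ i, f i := rfl

theorem avg_congr {f g : ι → M} (h : ∀ i, f i = g i) : avg f = avg g := by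
  rw [show f = g from funext h]

@[simp] theorem avg_zero : avg (fun _ : ι => (0 : M)) = 0 := by simp [avg]

theorem avg_add (f g : ι → M) : avg (fun i => f i + g i) = avg f + avg g := by
  simp [avg, sum_add_distrib]

theorem avg_smul (c : ℝ) (f : ι → M) : avg (fun i => c • f i) = c • avg f := by
  simp only [avg, ← smul_sum, smul_smul, mul_comm]

@[simp] theorem avg_const [Nonempty ι] (c : M) : avg (fun _ : ι => c) = c := by
  have h : (Fintype.card ι : ℝ) ≠ 0 := by exact_mod_cast Fintype.card_ne_zero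
  simp only [avg, sum_const, card_univ]
  rw [← Nat.cast_smul_eq_nsmul ℝ, smul_smul, inv_mul_cancel₀ h, one_smul]

theorem avg_sum {α : Type*} (s : Finset α) (f : α → ι → M) :
    avg (fun i => ∑ a ∈ s, f a i) = ∑ a ∈ s, avg (f a) := by
  simp only [avg, ← smul_sum]
  rw [sum_comm]

theorem avg_comm (f : ι → κ → M) :
    avg (fun i => avg (fun k => f i k)) = avg (fun k => avg (fun i => f i k)) := by
  simp only [avg, ← smul_sum, smul_smul]
  rw [sum_comm, mul_comm]

theorem avg_prod (f : ι × κ → M) : avg f = avg (fun i => avg (fun k => f (i, k))) := by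
  simp only [avg, ← smul_sum, smul_smul, Fintype.card_prod, Nat.cast_mul, mul_inv,
    Fintype.sum_prod_type]

theorem avg_equiv (e : ι ≃ κ) (f : κ → M) : avg (fun i => f (e i)) = avg f := by
  simp only [avg, Fintype.card_congr e, Equiv.sum_comp e f]

theorem map_avg {F : Type*} [FunLike F M N] [LinearMapClass F ℝ M N] (L : F) (f : ι → M) :
    L (avg f) = avg (fun i => L (f i)) := by
  simp only [avg, map_smul, map_sum]

theorem avg_add_left [AddGroup ι] (a : ι) (f : ι → M) : avg (fun i => f (a + i)) = avg f :=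
  avg_equiv (Equiv.addLeft a) f

theorem avg_add_right [AddGroup ι] (a : ι) (f : ι → M) : avg (fun i => f (i + a)) = avg f :=
  avg_equiv (Equiv.addRight a) f

theorem avg_mul_left [Group ι] (a : ι) (f : ι → M) : avg (fun i => f (a * i)) = avg f :=
  avg_equiv (Equiv.mulLeft a) f

theorem avg_mul_right [Group ι] (a : ι) (f : ι → M) : avg (fun i => f (i * a)) = avg f :=
  avg_equiv (Equiv.mulRight a) f

theorem avg_neg_arg [InvolutiveNeg ι] (f : ι → M) : avg (fun i => f (-i)) = avg f :=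
  avg_equiv (Equiv.neg ι) f

end Mod

section Grp
variable [AddCommGroup M] [Module ℝ M]

theorem avg_neg (f : ι → M) : avg (fun i => -f i) = -avg f := by
  simp [avg]

theorem avg_sub (f g : ι → M) : avg (fun i => f i - g i) = avg f - avg g := by
  simp [avg, smul_sub]

end Grp

theorem avg_mul_const (f : ι → ℝ) (c : ℝ) : avg (fun i => f i * c) = avg f * c := by
  simp only [avg, smul_eq_mul, ← sum_mul, mul_assoc]

theorem avg_const_mul (c : ℝ) (f : ι → ℝ) : avg (fun i => c * f i) = c * avg f :=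
  avg_smul c f

theorem avg_smul_const [AddCommMonoid M] [Module ℝ M] (f : ι → ℝ) (x : M) :
    avg (fun i => f i • x) = avg f • x := by
  simp only [avg, ← sum_smul, smul_smul, smul_eq_mul]

theorem avg_mono {f g : ι → ℝ} (h : ∀ i, f i ≤ g i) : avg f ≤ avg g := by
  simp only [avg, smul_eq_mul]
  exact mul_le_mul_of_nonneg_left (sum_le_sum fun i _ => h i) (by positivity)

theorem avg_nonneg {f : ι → ℝ} (h : ∀ i, 0 ≤ f i) : 0 ≤ avg f := by
  simpa using avg_mono (f := fun _ : ι => (0 : ℝ)) h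

theorem avg_le_const [Nonempty ι] {f : ι → ℝ} {c : ℝ} (h : ∀ i, f i ≤ c) : avg f ≤ c := by
  simpa using avg_mono (g := fun _ : ι => c) h

theorem exists_le_avg [Nonempty ι] (f : ι → ℝ) : ∃ i, f i ≤ avg f := by
  obtain ⟨i, hi⟩ := Finite.exists_min f
  refine ⟨i, ?_⟩
  simpa using avg_mono (f := fun _ : ι => f i) hi

theorem norm_avg_le [SeminormedAddCommGroup M] [NormedSpace ℝ M] (f : ι → M) :
    ‖avg f‖ ≤ avg (fun i => ‖f i‖) := by
  simp only [avg, norm_smul, smul_eq_mul, norm_inv, Real.norm_natCast]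
  exact mul_le_mul_of_nonneg_left (norm_sum_le _ _) (by positivity)

theorem abs_avg_le (f : ι → ℝ) : |avg f| ≤ avg (fun i => |f i|) := norm_avg_le f

/-- Cauchy-Schwarz for averages. -/
theorem avg_mul_le_sqrt (f g : ι → ℝ) :
    avg (fun i => f i * g i) ≤ √(avg fun i => f i ^ 2) * √(avg fun i => g i ^ 2) := by
  have hc : (0 : ℝ) ≤ (Fintype.card ι : ℝ)⁻¹ := by positivity
  simp only [avg, smul_eq_mul]
  rw [Real.sqrt_mul hc, Real.sqrt_mul hc]
  have h := Real.sum_mul_le_sqrt_mul_sqrt univ f g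
  calc _ ≤ (Fintype.card ι : ℝ)⁻¹ * (√(∑ i, f i ^ 2) * √(∑ i, g i ^ 2)) :=
        mul_le_mul_of_nonneg_left h hc
    _ = (√(Fintype.card ι : ℝ)⁻¹ * √(Fintype.card ι : ℝ)⁻¹) *
          (√(∑ i, f i ^ 2) * √(∑ i, g i ^ 2)) := by rw [Real.mul_self_sqrt hc]
    _ = _ := by ring

/-- Jensen for squares. -/
theorem sq_avg_le [Nonempty ι] (f : ι → ℝ) : avg f ^ 2 ≤ avg fun i => f i ^ 2 := by
  have h := avg_mul_le_sqrt (fun i => |f i|) (fun _ : ι => (1 : ℝ))
  simp only [mul_one, one_pow, avg_const, Real.sqrt_one, sq_abs] at h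
  have h2 := (abs_avg_le f).trans h
  have h0 : 0 ≤ avg fun i => f i ^ 2 := avg_nonneg fun i => sq_nonneg _
  calc avg f ^ 2 = |avg f| ^ 2 := (sq_abs _).symm
    _ ≤ √(avg fun i => f i ^ 2) ^ 2 := pow_le_pow_left₀ (abs_nonneg _) h2 2
    _ = _ := Real.sq_sqrt h0

/-- The average of a product over a product space is the product of the averages. -/
theorem avg_pi_prod {α : Type*} [Fintype α] [DecidableEq α] (f : α → ι → ℝ) :
    avg (fun x : α → ι => ∏ a, f a (x a)) = ∏ a, avg (f a) := by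
  simp only [avg, smul_eq_mul, prod_mul_distrib, prod_const, card_univ, Fintype.card_pi,
    Nat.cast_pow, inv_pow, prod_univ_sum, Fintype.piFinset_univ]

/-- Averaging a function of one coordinate. -/
theorem avg_pi_eval {α : Type*} [Fintype α] [DecidableEq α] [Nonempty ι] [AddCommMonoid M]
    [Module ℝ M] (a : α) (f : ι → M) : avg (fun x : α → ι => f (x a)) = avg f := by
  rw [← avg_equiv (Equiv.funSplitAt a ι).symm, avg_prod]
  simp

end Avg

section L2

variable {ι κ X : Type*} [Fintype ι] [Fintype κ] [NormedAddCommGroup X]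

theorem l2_nonneg (f : ι → X) : 0 ≤ l2 f := Real.sqrt_nonneg _

theorem l2_sq (f : ι → X) : l2 f ^ 2 = avg fun i => ‖f i‖ ^ 2 :=
  Real.sq_sqrt (avg_nonneg fun _ => sq_nonneg _)

theorem l2_le_of_sq {f : ι → X} {A : ℝ} (hA : 0 ≤ A) (h : (avg fun i => ‖f i‖ ^ 2) ≤ A ^ 2) :
    l2 f ≤ A := Real.sqrt_le_iff.2 ⟨hA, h⟩

theorem avg_sq_le_of_l2 {f : ι → X} {A : ℝ} (h : l2 f ≤ A) :
    (avg fun i => ‖f i‖ ^ 2) ≤ A ^ 2 := by
  rw [← l2_sq]; exact pow_le_pow_left₀ (l2_nonneg f) h 2

theorem l2_mono {Y : Type*} [NormedAddCommGroup Y] {f : ι → X} {g : ι → Y}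
    (h : ∀ i, ‖f i‖ ≤ ‖g i‖) : l2 f ≤ l2 g :=
  Real.sqrt_le_sqrt (avg_mono fun i => pow_le_pow_left₀ (norm_nonneg _) (h i) 2)

theorem avg_norm_mul_le {Y : Type*} [NormedAddCommGroup Y] (f : ι → X) (g : ι → Y) :
    (avg fun i => ‖f i‖ * ‖g i‖) ≤ l2 f * l2 g := avg_mul_le_sqrt _ _

theorem avg_norm_le_l2 [Nonempty ι] (f : ι → X) : (avg fun i => ‖f i‖) ≤ l2 f := by
  have h := avg_mul_le_sqrt (fun i => ‖f i‖) (fun _ : ι => (1 : ℝ))
  simpa [l2] using h

theorem l2_smul [NormedSpace ℝ X] (c : ℝ) (f : ι → X) : l2 (fun i => c • f i) = |c| * l2 f := by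
  simp only [l2, norm_smul, mul_pow, avg_const_mul, Real.norm_eq_abs]
  rw [Real.sqrt_mul (sq_nonneg _), Real.sqrt_sq (abs_nonneg _)]

theorem l2_add_le (f g : ι → X) : l2 (fun i => f i + g i) ≤ l2 f + l2 g := by
  refine l2_le_of_sq (add_nonneg (l2_nonneg f) (l2_nonneg g)) ?_
  have h1 : (avg fun i => ‖f i + g i‖ ^ 2) ≤
      avg fun i => ‖f i‖ ^ 2 + 2 * (‖f i‖ * ‖g i‖) + ‖g i‖ ^ 2 := avg_mono fun i => by
    have := pow_le_pow_left₀ (norm_nonneg _) (norm_add_le (f i) (g i)) 2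
    nlinarith
  rw [avg_add, avg_add, avg_const_mul, ← l2_sq f, ← l2_sq g] at h1
  have := avg_norm_mul_le f g
  nlinarith

theorem l2_zero : l2 (fun _ : ι => (0 : X)) = 0 := by simp [l2]

theorem l2_sum_le {α : Type*} (s : Finset α) (f : α → ι → X) :
    l2 (fun i => ∑ a ∈ s, f a i) ≤ ∑ a ∈ s, l2 (f a) := by
  classical
  induction s using Finset.induction_on with
  | empty => simp [l2]
  | insert a s ha ih =>
    simp only [sum_insert ha]
    exact (l2_add_le _ _).trans (by linarith)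

theorem l2_avg_le [NormedSpace ℝ X] (f : κ → ι → X) :
    l2 (fun i => avg fun k => f k i) ≤ avg fun k => l2 (f k) := by
  simp only [avg_def (M := X), avg_def (M := ℝ) (fun k => l2 (f k)), smul_eq_mul]
  rw [l2_smul, abs_of_nonneg (by positivity)]
  exact mul_le_mul_of_nonneg_left (l2_sum_le _ _) (by positivity)

theorem eq_zero_of_l2_eq_zero {f : ι → X} (h : l2 f = 0) (i : ι) : f i = 0 := by
  have h2 : (avg fun i => ‖f i‖ ^ 2) = 0 := by rw [← l2_sq, h]; ring
  have hc : (Fintype.card ι : ℝ) ≠ 0 := by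
    have : Nonempty ι := ⟨i⟩
    exact_mod_cast Fintype.card_ne_zero
  simp only [avg, smul_eq_mul, mul_eq_zero, inv_eq_zero, hc, false_or] at h2
  have := (sum_eq_zero_iff_of_nonneg fun j _ => sq_nonneg ‖f j‖).1 h2 i (mem_univ _)
  simpa using this

end L2

section Walsh

@[simp] theorem sg_one : sg 1 = 1 := by simp [sg]
@[simp] theorem sg_mul (u v : ℤˣ) : sg (u * v) = sg u * sg v := by simp [sg]
@[simp] theorem sg_neg (u : ℤˣ) : sg (-u) = -sg u := by simp [sg]
theorem sg_cases (u : ℤˣ) : sg u = 1 ∨ sg u = -1 := by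
  rcases Int.units_eq_one_or u with h | h <;> simp [h]
@[simp] theorem sg_mul_self (u : ℤˣ) : sg u * sg u = 1 := by
  rcases sg_cases u with h | h <;> simp [h]
@[simp] theorem sg_sq (u : ℤˣ) : sg u ^ 2 = 1 := by rw [sq, sg_mul_self]
@[simp] theorem abs_sg (u : ℤˣ) : |sg u| = 1 := by
  rcases sg_cases u with h | h <;> simp [h]
@[simp] theorem avg_sg : avg sg = 0 := by
  have h := avg_neg_arg sg
  simp only [sg_neg] at h
  rw [avg_neg] at h
  linarith

/-- The Walsh function `ε^a = ∏ i ∈ a, ε_i`. -/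
def wal {s : ℕ} (a : Finset (Fin s)) (ε : Cube s) : ℝ := ∏ i ∈ a, sg (ε i)

variable {s : ℕ}

@[simp] theorem wal_empty (ε : Cube s) : wal ∅ ε = 1 := by simp [wal]
@[simp] theorem wal_singleton (i : Fin s) (ε : Cube s) : wal {i} ε = sg (ε i) := by simp [wal]
theorem wal_mul (a : Finset (Fin s)) (ε η : Cube s) : wal a (ε * η) = wal a ε * wal a η := by
  simp [wal, prod_mul_distrib]
@[simp] theorem wal_mul_self (a : Finset (Fin s)) (ε : Cube s) : wal a ε * wal a ε = 1 := by
  simp [wal, ← prod_mul_distrib]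
@[simp] theorem abs_wal (a : Finset (Fin s)) (ε : Cube s) : |wal a ε| = 1 := by
  simp [wal, abs_prod]
theorem wal_neg (a : Finset (Fin s)) (ε : Cube s) : wal a (-ε) = (-1) ^ a.card * wal a ε := by
  simp only [wal, Pi.neg_apply, sg_neg]
  rw [prod_neg]

theorem wal_eq_prod_ite (a : Finset (Fin s)) (ε : Cube s) :
    wal a ε = ∏ i, if i ∈ a then sg (ε i) else 1 := by
  rw [prod_ite_mem, univ_inter, wal]

/-- Orthogonality of the Walsh functions. -/
theorem avg_wal_mul_wal (a b : Finset (Fin s)) :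
    avg (fun ε : Cube s => wal a ε * wal b ε) = if a = b then 1 else 0 := by
  simp only [wal_eq_prod_ite, ← prod_mul_distrib]
  rw [avg_pi_prod (fun i u => (if i ∈ a then sg u else 1) * (if i ∈ b then sg u else 1))]
  split_ifs with h
  · subst h
    refine prod_eq_one fun i _ => ?_
    by_cases hi : i ∈ a <;> simp [hi]
  · obtain ⟨i, hi⟩ : ∃ i, ¬(i ∈ a ↔ i ∈ b) := by
      by_contra hc
      push Not at hc
      exact h (Finset.ext hc)
    refine prod_eq_zero (mem_univ i) ?_
    by_cases ha : i ∈ a <;> by_cases hb : i ∈ b <;> simp_all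

theorem avg_wal (a : Finset (Fin s)) : avg (wal a) = if a = ∅ then 1 else 0 := by
  simpa using avg_wal_mul_wal a ∅

/-- The Walsh coefficient `E [ε^a F(ε)]`. -/
noncomputable def coef {E : Type*} [AddCommGroup E] [Module ℝ E] (F : Cube s → E)
    (a : Finset (Fin s)) : E := avg fun ε => wal a ε • F ε

theorem norm_coef_le {E : Type*} [NormedAddCommGroup E] [NormedSpace ℝ E] (F : Cube s → E)
    (a : Finset (Fin s)) : ‖coef F a‖ ≤ l2 F := by
  refine (norm_avg_le _).trans (le_trans (le_of_eq ?_) (avg_norm_le_l2 F))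
  simp [norm_smul]

end Walsh

/-- A `{-1,1}`-valued bicharacter of two abelian groups. -/
structure IsBi {V W : Type*} [AddCommGroup V] [AddCommGroup W] (χ : V → W → ℝ) : Prop where
  add_left : ∀ x x' y, χ (x + x') y = χ x y * χ x' y
  add_right : ∀ x y y', χ x (y + y') = χ x y * χ x y'
  mul_self : ∀ x y, χ x y * χ x y = 1

/-- The bias `E_{x,y} χ(x,y)`, i.e. `2^(-rank)`. -/
noncomputable def bias {V W : Type*} [Fintype V] [Fintype W] (χ : V → W → ℝ) : ℝ :=
  avg fun x => avg fun y => χ x y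

/-- The Walsh bound with exponent `β` and constant `Ψ` for a bilinear form `b`. -/
def WB {E E' : Type*} [NormedAddCommGroup E] [NormedSpace ℝ E] [NormedAddCommGroup E']
    [NormedSpace ℝ E'] (b : E →L[ℝ] E' →L[ℝ] ℝ) (β Ψ : ℝ) : Prop :=
  ∀ (V W : Type) [AddCommGroup V] [Fintype V] [AddCommGroup W] [Fintype W] (χ : V → W → ℝ),
    IsBi χ → ∀ (f : V → E) (g : W → E'),
      |avg fun x => avg fun y => χ x y * b (f x) (g y)| ≤ Ψ * bias χ ^ β * l2 f * l2 g

/-- Every `S`-tuple is the linear part of a function on the cube of norm at most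
`A * (mean square of the tuple)`. -/
def Lift (E : Type*) [NormedAddCommGroup E] [NormedSpace ℝ E] (S : ℕ) (A : ℝ) : Prop :=
  ∀ x : Fin S → E, ∃ F : Cube S → E, (∀ i, coef F {i} = x i) ∧ l2 F ≤ A * l2 x

/-- Same, with an odd function whose Walsh spectrum lies in degrees `1` and `≥ J`. -/
def LiftJ (E : Type*) [NormedAddCommGroup E] [NormedSpace ℝ E] (S J : ℕ) (A : ℝ) : Prop :=
  ∀ x : Fin S → E, ∃ F : Cube S → E, (∀ i, coef F {i} = x i) ∧
    (∀ a : Finset (Fin S), a.card ≠ 1 → a.card < J → coef F a = 0) ∧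
    (∀ ε, F (-ε) = -F ε) ∧ l2 F ≤ A * l2 x

end Vale.Agent.P111
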