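import Vale.Agent.P111.Basic

/-!
Bicharacters: elementary facts, patterns, restriction to annihilators, the scalar Walsh bound.

Plan.
* `avg_right_cases`: if `χ x y0 = -1` then translating `y` by `y0` flips the sign of `avg (χ x)`.
* `bias_pos`: all `avg (χ x) ≥ 0` and the term `x = 0` is `1`.
* `avg y, pat χ c x y = ∏ l, avg (χ (∑ p ∈ c with p.2 = l, x p.1))` (`avg_pi_prod`); each factor
  lies in `{0,1}`. For a nonempty column keep one factor, and average first over one `x i` with
  `i` in the column (translation invariance; `Equiv.funSplitAt` or shift by `Pi.single i v`).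
  If `c` is not a product set, it has two different nonempty columns `a ≠ a'`; w.l.o.g.
  `i ∈ a \ a'`, `i' ∈ a'`; keep these two factors, average over `x i` and then over `x i'`.
-/

namespace Vale.Agent.P111

open Finset

variable {V W : Type*} [AddCommGroup V] [AddCommGroup W] {χ : V → W → ℝ}

theorem IsBi.swap (h : IsBi χ) : IsBi (fun y x => χ x y) :=
  ⟨fun y y' x => h.add_right x y y', fun y x x' => h.add_left x x' y, fun y x => h.mul_self x y⟩

theorem IsBi.cases (h : IsBi χ) (x : V) (y : W) : χ x y = 1 ∨ χ x y = -1 :=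
  mul_self_eq_one_iff.1 (h.mul_self x y)

theorem IsBi.abs_eq (h : IsBi χ) (x : V) (y : W) : |χ x y| = 1 := by
  rcases h.cases x y with h' | h' <;> simp [h']

theorem IsBi.zero_left (h : IsBi χ) (y : W) : χ 0 y = 1 := by
  have := h.add_left 0 0 y
  rw [add_zero, h.mul_self] at this
  exact this

theorem IsBi.zero_right (h : IsBi χ) (x : V) : χ x 0 = 1 := h.swap.zero_left x

theorem IsBi.neg_left (h : IsBi χ) (x : V) (y : W) : χ (-x) y = χ x y := by
  have h1 := h.add_left (-x) x y
  rw [neg_add_cancel, h.zero_left] at h1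
  calc χ (-x) y = χ (-x) y * (χ x y * χ x y) := by rw [h.mul_self, mul_one]
    _ = (χ (-x) y * χ x y) * χ x y := by ring
    _ = χ x y := by rw [← h1, one_mul]

theorem IsBi.neg_right (h : IsBi χ) (x : V) (y : W) : χ x (-y) = χ x y := h.swap.neg_left y x

theorem IsBi.sum_left (h : IsBi χ) {α : Type*} (t : Finset α) (x : α → V) (y : W) :
    χ (∑ a ∈ t, x a) y = ∏ a ∈ t, χ (x a) y := by
  classical
  induction t using Finset.induction_on with
  | empty => simp [h.zero_left]
  | insert a t ha ih => rw [sum_insert ha, prod_insert ha, h.add_left, ih]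

theorem IsBi.sum_right (h : IsBi χ) {α : Type*} (t : Finset α) (x : V) (y : α → W) :
    χ x (∑ a ∈ t, y a) = ∏ a ∈ t, χ x (y a) := h.swap.sum_left t y x

/-- The bicharacter of `V^S × W^S` attached to a pattern `c`. -/
def pat {S : ℕ} (χ : V → W → ℝ) (c : Finset (Fin S × Fin S)) (x : Fin S → V) (y : Fin S → W) :
    ℝ := ∏ p ∈ c, χ (x p.1) (y p.2)

theorem IsBi.pat (h : IsBi χ) {S : ℕ} (c : Finset (Fin S × Fin S)) : IsBi (pat χ c) where
  add_left x x' y := by simp [P111.pat, h.add_left, prod_mul_distrib]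
  add_right x y y' := by simp [P111.pat, h.add_right, prod_mul_distrib]
  mul_self x y := by simp [P111.pat, ← prod_mul_distrib, h.mul_self]

/-- The elements of `V` orthogonal to all `b l`. -/
def kerL (h : IsBi χ) {S : ℕ} (b : Fin S → W) : AddSubgroup V where
  carrier := {X | ∀ l, χ X (b l) = 1}
  add_mem' := by
    intro X X' hX hX' l
    rw [h.add_left, hX l, hX' l, mul_one]
  zero_mem' := fun l => h.zero_left _
  neg_mem' := by
    intro X hX l
    rw [h.neg_left, hX l]

/-- The elements of `W` orthogonal to all `a i`. -/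
def kerR (h : IsBi χ) {S : ℕ} (a : Fin S → V) : AddSubgroup W := kerL h.swap a

theorem mem_kerL (h : IsBi χ) {S : ℕ} (b : Fin S → W) (X : V) :
    X ∈ kerL h b ↔ ∀ l, χ X (b l) = 1 := Iff.rfl

theorem mem_kerR (h : IsBi χ) {S : ℕ} (a : Fin S → V) (Y : W) :
    Y ∈ kerR h a ↔ ∀ i, χ (a i) Y = 1 := Iff.rfl

theorem IsBi.restrict (h : IsBi χ) (V₁ : AddSubgroup V) (W₁ : AddSubgroup W) :
    IsBi (fun (X : V₁) (Y : W₁) => χ X Y) :=
  ⟨fun _ _ _ => h.add_left _ _ _, fun _ _ _ => h.add_right _ _ _, fun _ _ => h.mul_self _ _⟩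

variable [Fintype V] [Fintype W]

omit [AddCommGroup V] [AddCommGroup W] in
theorem bias_swap (χ : V → W → ℝ) : bias (fun y x => χ x y) = bias χ := avg_comm _

omit [Fintype V] in
theorem IsBi.avg_right_cases (h : IsBi χ) (x : V) : avg (χ x) = 0 ∨ avg (χ x) = 1 := by
  by_cases h1 : ∀ y, χ x y = 1
  · right
    rw [avg_congr h1, avg_const]
  · left
    obtain ⟨y0, hy⟩ := not_forall.1 h1
    have h2 := (h.cases x y0).resolve_left hy
    have h3 := avg_add_left y0 (χ x)
    simp only [h.add_right, h2] at h3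
    rw [avg_const_mul] at h3
    linarith

omit [Fintype V] in
theorem IsBi.avg_right_nonneg (h : IsBi χ) (x : V) : 0 ≤ avg (χ x) := by
  rcases h.avg_right_cases x with h' | h' <;> simp [h']

omit [Fintype V] in
theorem IsBi.char_avg_le_one (h : IsBi χ) (x : V) : avg (χ x) ≤ 1 := by
  rcases h.avg_right_cases x with h' | h' <;> simp [h']

theorem IsBi.bias_pos (h : IsBi χ) : 0 < bias χ := by
  unfold bias
  rw [avg_def, smul_eq_mul]
  refine mul_pos (inv_pos.2 (by exact_mod_cast Fintype.card_pos))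
    (sum_pos' (fun x _ => h.avg_right_nonneg x) ⟨0, mem_univ _, ?_⟩)
  rw [avg_congr h.zero_left, avg_const]
  exact one_pos

theorem IsBi.bias_le_one (h : IsBi χ) : bias χ ≤ 1 := avg_le_const fun x => h.char_avg_le_one x

/-- the sum of the `x i` over the column `l` of the pattern -/
def charCol {S : ℕ} (c : Finset (Fin S × Fin S)) (l : Fin S) (x : Fin S → V) : V :=
  ∑ i ∈ univ.filter fun i => (i, l) ∈ c, x i

omit [Fintype V] in
theorem charCol_shift {S : ℕ} (c : Finset (Fin S × Fin S)) (l i : Fin S) (x : Fin S → V) (v : V) :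
    charCol c l (x + Pi.single i v) = charCol c l x + if (i, l) ∈ c then v else 0 := by
  simp only [charCol, Pi.add_apply, sum_add_distrib, sum_pi_single', mem_filter, mem_univ,
    true_and]

theorem char_shift {S : ℕ} (F : (Fin S → V) → ℝ) (i : Fin S) :
    avg F = avg fun x : Fin S → V => avg fun v : V => F (x + Pi.single i v) := by
  rw [avg_comm, avg_congr fun v : V => avg_add_right (Pi.single i v) F, avg_const]

omit [Fintype V] in
theorem IsBi.char_avg_pat (h : IsBi χ) {S : ℕ} (c : Finset (Fin S × Fin S)) (x : Fin S → V) :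
    avg (P111.pat χ c x) = ∏ l, avg (χ (charCol c l x)) := by
  rw [← avg_pi_prod]
  refine avg_congr fun y => ?_
  simp only [P111.pat, charCol, h.sum_left, prod_filter]
  rw [prod_comm, ← Fintype.prod_prod_type' (f := fun i l =>
    if (i, l) ∈ c then χ (x i) (y l) else 1), ← prod_filter]
  congr 1
  ext p
  simp

theorem IsBi.char_pat_le (h : IsBi χ) {S : ℕ} (c : Finset (Fin S × Fin S)) (t : Finset (Fin S)) :
    bias (P111.pat χ c) ≤ avg fun x : Fin S → V => ∏ l ∈ t, avg (χ (charCol c l x)) := by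
  refine avg_mono fun x => ?_
  change avg (P111.pat χ c x) ≤ _
  rw [h.char_avg_pat]
  exact prod_le_prod_of_subset_of_le_one (subset_univ t) (fun l _ => h.avg_right_nonneg _)
    fun l _ _ => h.char_avg_le_one _

theorem char_avg_col {S : ℕ} {c : Finset (Fin S × Fin S)} {i l : Fin S} (hc : (i, l) ∈ c) :
    (avg fun x : Fin S → V => avg (χ (charCol c l x))) = bias χ := by
  rw [char_shift _ i]
  simp only [charCol_shift, hc, if_true]
  rw [avg_congr fun x => avg_add_left (charCol c l x) fun v => avg (χ v), avg_const]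
  rfl

theorem IsBi.bias_pat_le (h : IsBi χ) {S : ℕ} {c : Finset (Fin S × Fin S)} (hc : c.Nonempty) :
    bias (P111.pat χ c) ≤ bias χ := by
  obtain ⟨⟨i, l⟩, hp⟩ := hc
  have := h.char_pat_le c {l}
  simp only [prod_singleton] at this
  rwa [char_avg_col hp] at this

theorem IsBi.bias_pat_le_sq (h : IsBi χ) {S : ℕ} {c : Finset (Fin S × Fin S)}
    (hc : ¬∃ a b : Finset (Fin S), c = a ×ˢ b) : bias (P111.pat χ c) ≤ bias χ ^ 2 := by
  have key : ∃ i l i' l', (i, l) ∈ c ∧ (i', l') ∈ c ∧ (i, l') ∉ c := by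
    by_contra hn
    push Not at hn
    refine hc ⟨c.image Prod.fst, c.image Prod.snd, ?_⟩
    ext ⟨i, l'⟩
    simp only [mem_product, mem_image, Prod.exists, exists_and_right, exists_eq_right]
    exact ⟨fun hp => ⟨⟨_, hp⟩, ⟨_, hp⟩⟩, fun ⟨⟨l, h1⟩, ⟨i', h2⟩⟩ => hn i l i' l' h1 h2⟩
  obtain ⟨i, l, i', l', h1, h2, h3⟩ := key
  have hne : l ≠ l' := fun h0 => h3 (h0 ▸ h1)
  have := h.char_pat_le c {l, l'}
  simp only [prod_pair hne] at this
  refine this.trans (le_of_eq ?_)
  rw [char_shift _ i]
  simp only [charCol_shift, h1, h3, if_true, if_false, add_zero, avg_mul_const]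
  rw [avg_congr fun x => congrArg (· * avg (χ (charCol c l' x)))
    (avg_add_left (charCol c l x) fun v => avg (χ v)), avg_const_mul, char_avg_col h2, sq]
  rfl

end Vale.Agent.P111
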