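import Vale.Agent.P111.Char

/-!
Bicharacters: restriction to annihilators and the scalar Walsh bound.

Plan.
* `bias_restrict`: the indicator of `kerL` is `∏ l, (1 + χ X (b l)) / 2
  = 2^(-S) ∑ t : Finset, χ X (∑ l ∈ t, b l)`. Hence its average is `≥ 2^(-S)` (all terms are `≥ 0`,
  the empty one is `1`), and `avg X Y, 1_L X * 1_R Y * χ X Y
  = 4^(-S) ∑ t t', χ a_t b_t' * avg χ (X + a_t) (Y + b_t') ≤ bias χ`.
* `scalar_bound`: Cauchy-Schwarz in `y`, expand the square,
  `u x * u x' ≤ (u x ^ 2 + u x' ^ 2) / 2`, `avg y, χ (x + x') y ≥ 0`, translation invariance.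
-/

namespace Vale.Agent.P111

open Finset

variable {V W : Type*} [AddCommGroup V] [AddCommGroup W] {χ : V → W → ℝ} [Fintype V] [Fintype W]

omit [Fintype W] in
theorem cb_card (h : IsBi χ) {S : ℕ} (b : Fin S → W) [Fintype (kerL h b)] :
    (Fintype.card V : ℝ) ≤ 2 ^ S * Fintype.card (kerL h b) := by
  classical
  have h1 : ∀ X, ∏ l, (1 + χ X (b l)) = if X ∈ kerL h b then (2 : ℝ) ^ S else 0 := fun X => by
    split_ifs with hX
    · rw [prod_congr rfl fun l _ => by rw [hX l]]
      norm_num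
    · obtain ⟨l, hl⟩ := not_forall.1 hX
      exact prod_eq_zero (mem_univ l) (by rw [(h.cases _ _).resolve_left hl]; ring)
  have h2 : 1 ≤ avg fun X => ∏ l, (1 + χ X (b l)) := by
    simp only [prod_one_add, ← h.sum_right]
    rw [avg_sum]
    refine le_trans (le_of_eq ?_) (single_le_sum (f := fun t : Finset (Fin S) =>
      avg fun X => χ X (∑ l ∈ t, b l)) (fun t _ => h.swap.avg_right_nonneg _)
      (empty_mem_powerset _))
    simp [h.zero_right]
  have hV : (0 : ℝ) < Fintype.card V := Nat.cast_pos.2 Fintype.card_pos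
  simp only [h1, avg_def, smul_eq_mul] at h2
  rw [← sum_filter, sum_const, nsmul_eq_mul, ← Fintype.card_subtype, le_inv_mul_iff₀ hV, mul_one,
    mul_comm] at h2
  convert h2

theorem cb_sub (h : IsBi χ) (L : AddSubgroup V) [Fintype L] {k : ℝ}
    (hk : (Fintype.card V : ℝ) ≤ k * Fintype.card L) :
    bias (fun (X : L) (y : W) => χ X y) ≤ k * bias χ := by
  have hV : (0 : ℝ) < Fintype.card V := Nat.cast_pos.2 Fintype.card_pos
  have hL : (0 : ℝ) < Fintype.card L := Nat.cast_pos.2 Fintype.card_pos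
  have h1 : ∑ X : L, avg (χ X) ≤ ∑ X, avg (χ X) := by
    exact (sum_map univ (Function.Embedding.subtype (· ∈ L)) fun X => avg (χ X)).symm.trans_le
      (sum_le_univ_sum_of_nonneg h.avg_right_nonneg)
  have h2 : 0 ≤ ∑ X, avg (χ X) := sum_nonneg fun X _ => h.avg_right_nonneg X
  change (Fintype.card L : ℝ)⁻¹ * ∑ X : L, avg (χ X) ≤
    k * ((Fintype.card V : ℝ)⁻¹ * ∑ X, avg (χ X))
  rw [← mul_assoc]
  refine mul_le_mul ?_ h1 (sum_nonneg fun X _ => h.avg_right_nonneg _) ?_
  · rw [← div_eq_mul_inv, le_div_iff₀ hV, inv_mul_le_iff₀ hL, mul_comm]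
    exact hk
  · exact mul_nonneg (nonneg_of_mul_nonneg_left (hV.le.trans hk) hL) (by positivity)

theorem IsBi.bias_restrict (h : IsBi χ) {S : ℕ} (a : Fin S → V) (b : Fin S → W)
    [Fintype (kerL h b)] [Fintype (kerR h a)] :
    bias (fun (X : kerL h b) (Y : kerR h a) => χ X Y) ≤ 4 ^ S * bias χ := by
  have hL : IsBi fun (X : kerL h b) (y : W) => χ X y :=
    ⟨fun _ _ _ => h.add_left _ _ _, fun _ _ _ => h.add_right _ _ _, fun _ _ => h.mul_self _ _⟩
  let _ : Fintype (kerL h.swap a) := ‹Fintype (kerR h a)›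
  have h1 := cb_sub h (kerL h b) (cb_card h b)
  have h2 := cb_sub hL.swap (kerL h.swap a) (cb_card h.swap a)
  rw [bias_swap fun (X : kerL h b) (y : W) => χ X y] at h2
  rw [← bias_swap, show (4 : ℝ) ^ S = 2 ^ S * 2 ^ S by rw [← mul_pow]; norm_num, mul_assoc]
  exact h2.trans (mul_le_mul_of_nonneg_left h1 (by positivity))

theorem IsBi.scalar_bound (h : IsBi χ) (u : V → ℝ) (v : W → ℝ) :
    |avg fun x => avg fun y => χ x y * (u x * v y)| ≤ √(bias χ) * l2 u * l2 v := by
  have h0 : (avg fun x => avg fun y => χ x y * (u x * v y)) =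
      avg fun y => (avg fun x => χ x y * u x) * v y := by
    rw [avg_comm]
    exact avg_congr fun y => by rw [← avg_mul_const]; exact avg_congr fun x => by ring
  have h1 : (avg fun y => |avg fun x => χ x y * u x| ^ 2) =
      avg fun x => avg fun x' => u x * u x' * avg (χ (x + x')) := by
    have e : ∀ y, |avg fun x => χ x y * u x| ^ 2 =
        avg fun x => avg fun x' => u x * u x' * χ (x + x') y := fun y => by
      rw [sq_abs, sq, ← avg_mul_const]
      refine avg_congr fun x => ?_
      rw [← avg_const_mul]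
      exact avg_congr fun x' => by rw [h.add_left]; ring
    rw [avg_congr e, avg_comm]
    refine avg_congr fun x => ?_
    rw [avg_comm]
    exact avg_congr fun x' => avg_const_mul _ _
  have h2 : (avg fun x => avg fun x' => u x ^ 2 * avg (χ (x + x'))) =
      bias χ * avg fun x => ‖u x‖ ^ 2 := by
    rw [← avg_const_mul]
    refine avg_congr fun x => ?_
    rw [avg_const_mul, avg_add_left x fun x' => avg (χ x'), Real.norm_eq_abs, sq_abs, mul_comm]
    rfl
  have h3 : (avg fun x => avg fun x' => u x * u x' * avg (χ (x + x'))) ≤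
      bias χ * avg fun x => ‖u x‖ ^ 2 := by
    have h4 : (avg fun x => avg fun x' => u x' ^ 2 * avg (χ (x + x'))) =
        bias χ * avg fun x => ‖u x‖ ^ 2 := by
      rw [avg_comm, ← h2]
      simp only [add_comm]
    have h5 : (avg fun x => avg fun x' => u x * u x' * avg (χ (x + x'))) ≤
        avg fun x => avg fun x' => 1 / 2 * (u x ^ 2 * avg (χ (x + x')) +
          u x' ^ 2 * avg (χ (x + x'))) := avg_mono fun x => avg_mono fun x' => by
      nlinarith [mul_nonneg (h.avg_right_nonneg (x + x')) (sq_nonneg (u x - u x'))]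
    simp only [avg_const_mul (1 / 2), avg_add] at h5
    rw [h2, h4] at h5
    linarith
  rw [h0]
  refine (abs_avg_le _).trans ?_
  simp only [abs_mul]
  refine (avg_mul_le_sqrt _ _).trans (mul_le_mul_of_nonneg_right ?_ (l2_nonneg v))
  rw [h1, l2, ← Real.sqrt_mul h.bias_pos.le]
  exact Real.sqrt_le_sqrt h3

end Vale.Agent.P111
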