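import Mathlib

/-!
The combinatorial inclusion-exclusion over patterns.

Plan. Write `t c = τ^c.card * κ c`. Let `R i c := ∀ p ∈ c, p.1 = i`, `C l c := ∀ p ∈ c, p.2 = l`.
For nonempty `c` at most one `i` has `R i c` and at most one `l` has `C l c`, and both exist iff
`c` is a singleton. Since `t ∅ = 0`, for every `c`:
`t c = (∑ i, if R i c then t c else 0) + (∑ l, if C l c then t c else 0)
        - (if c.card = 1 then t c else 0) + (if rest c then t c else 0)`,
`rest c := c ≠ ∅ ∧ (∀ i, ¬ R i c) ∧ (∀ l, ¬ C l c)`. Singletons contribute `S^2 τ α`.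
For `rest c`: either `c` is not a product set (`|t c| ≤ B₂`, at most `2^(S*S)` such `c`), or
`c = a ×ˢ b` with `2 ≤ a.card`, `2 ≤ b.card`; then `|t c| ≤ B₁ * ρ^a.card * ρ^b.card` with
`ρ = τ^j` when `2j ≤ a.card, b.card` (as `|a||b| ≥ j (|a| + |b|)`), and `t c = 0` otherwise;
`∑ a b, ρ^|a| ρ^|b| = (1+ρ)^(2S) ≤ exp 2 ≤ 8` (`Finset.prod_one_add`, `S ρ ≤ 1`,
`Real.add_one_le_exp`, `Real.exp_one_lt_d9`). Bound the sum over product sets by the sum over
pairs `(a, b)` (`Finset.sum_le_sum_of_ne_zero`, `sum_image_le`-type lemma or pick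
`a = c.image Prod.fst`, `b = c.image Prod.snd`, which is injective on product sets).
-/

namespace Vale.Agent.P111

open Finset

theorem comb_row {P ι : Type} [Fintype ι] [DecidableEq ι] (f : P → ι) (c : Finset P) {x : ℝ}
    (h : c = ∅ → x = 0) [∀ i, Decidable (∀ p ∈ c, f p = i)] :
    ∑ i, (if ∀ p ∈ c, f p = i then x else 0) = if (c.image f).card = 1 then x else 0 := by
  rcases c.eq_empty_or_nonempty with hc | ⟨p0, hp0⟩
  · simp [h hc]
  · rw [sum_eq_single (f p0) (fun i _ hi => if_neg fun h1 => hi (h1 p0 hp0).symm) (by simp)]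
    refine if_congr ⟨fun h1 => card_eq_one.2 ⟨f p0, ?_⟩, fun h1 p hp => ?_⟩ rfl rfl
    · refine eq_singleton_iff_unique_mem.2 ⟨mem_image_of_mem f hp0, fun y hy => ?_⟩
      obtain ⟨p, hp, rfl⟩ := mem_image.1 hy
      exact h1 p hp
    · exact card_le_one.1 h1.le _ (mem_image_of_mem f hp) _ (mem_image_of_mem f hp0)

theorem comb_single {ι : Type} [Fintype ι] [DecidableEq ι] (t : Finset (ι × ι) → ℝ) :
    ∑ c : Finset (ι × ι), (if (c.image Prod.fst).card = 1 ∧ (c.image Prod.snd).card = 1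
      then t c else 0) = ∑ p, t {p} := by
  rw [← sum_filter, ← sum_image (s := univ) (g := fun p : ι × ι => ({p} : Finset (ι × ι)))
    (f := t) fun _ _ _ _ h => singleton_injective h]
  refine sum_congr ?_ fun _ _ => rfl
  ext c
  simp only [mem_filter, mem_univ, true_and, mem_image]
  constructor
  · rintro ⟨h1, h2⟩
    obtain ⟨p, hp⟩ : c.Nonempty := by
      rw [← image_nonempty (f := Prod.fst), ← card_pos, h1]
      exact one_pos
    refine ⟨p, (eq_singleton_iff_unique_mem.2 ⟨hp, fun q hq => Prod.ext ?_ ?_⟩).symm⟩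
    · exact card_le_one.1 h1.le _ (mem_image_of_mem _ hq) _ (mem_image_of_mem _ hp)
    · exact card_le_one.1 h2.le _ (mem_image_of_mem _ hq) _ (mem_image_of_mem _ hp)
  · rintro ⟨p, rfl⟩
    simp

theorem comb_prod_le {ι : Type} [Fintype ι] [DecidableEq ι] {ρ : ℝ} (hρ : 0 ≤ ρ) :
    ∑ c : Finset (ι × ι), (if c = c.image Prod.fst ×ˢ c.image Prod.snd
      then ρ ^ (c.image Prod.fst).card * ρ ^ (c.image Prod.snd).card else 0)
        ≤ ((ρ + 1) ^ Fintype.card ι) ^ 2 := by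
  rw [← sum_filter, ← sum_image (g := fun c : Finset (ι × ι) =>
    (c.image Prod.fst, c.image Prod.snd)) (f := fun x => ρ ^ x.1.card * ρ ^ x.2.card)]
  · refine (sum_le_sum_of_subset_of_nonneg (subset_univ _) fun x _ _ => by positivity).trans ?_
    rw [Fintype.sum_prod_type, ← Fintype.sum_pow_mul_eq_add_pow ι ρ 1, sq, sum_mul_sum]
    simp
  · intro c hc c' hc' h
    rw [coe_filter] at hc hc'
    obtain ⟨h1, h2⟩ := Prod.mk.inj h
    rw [hc.2, hc'.2, h1, h2]

theorem comb_exp (S : ℕ) {ρ : ℝ} (hρ : 0 ≤ ρ) (h : S * ρ ≤ 1) : ((ρ + 1) ^ S) ^ 2 ≤ 8 := by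
  have h1 : (ρ + 1) ^ S ≤ Real.exp 1 := by
    refine (pow_le_pow_left₀ (by positivity) (Real.add_one_le_exp ρ) S).trans ?_
    rw [← Real.exp_nat_mul]
    exact Real.exp_le_exp.2 h
  have h2 := Real.exp_one_lt_d9
  have h3 : 0 ≤ (ρ + 1) ^ S := by positivity
  nlinarith

theorem comb_ineq (S j : ℕ) {τ : ℝ} (hτ0 : 0 ≤ τ) (hτ1 : τ ≤ 1) (hτ : S * τ ^ j ≤ 1)
    (κ : Finset (Fin S × Fin S) → ℝ) (h0 : κ ∅ = 0) {α B₁ B₂ : ℝ} (hα : ∀ p, κ {p} = α)
    (hB₁ : 0 ≤ B₁) (hB₂ : 0 ≤ B₂)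
    (h₂ : ∀ c, (¬∃ a b : Finset (Fin S), c = a ×ˢ b) → |κ c| ≤ B₂)
    (h₁ : ∀ a b : Finset (Fin S), 2 ≤ a.card → 2 ≤ b.card → |κ (a ×ˢ b)| ≤ B₁)
    (hz : ∀ a b : Finset (Fin S), 2 ≤ a.card → 2 ≤ b.card → (a.card < 2 * j ∨ b.card < 2 * j) →
      κ (a ×ˢ b) = 0) :
    (S : ℝ) ^ 2 * τ * |α| ≤ |∑ c : Finset (Fin S × Fin S), τ ^ c.card * κ c|
      + ∑ i : Fin S, |∑ c : Finset (Fin S × Fin S) with (∀ p ∈ c, p.1 = i), τ ^ c.card * κ c|
      + ∑ l : Fin S, |∑ c : Finset (Fin S × Fin S) with (∀ p ∈ c, p.2 = l), τ ^ c.card * κ c|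
      + 2 ^ (S * S) * B₂ + 8 * B₁ := by
  set t : Finset (Fin S × Fin S) → ℝ := fun c => τ ^ c.card * κ c with ht
  have ht0 : ∀ c, c = ∅ → t c = 0 := fun c hc => by simp [ht, hc, h0]
  set r : Finset (Fin S × Fin S) → ℝ := fun c =>
    if (c.image Prod.fst).card ≠ 1 ∧ (c.image Prod.snd).card ≠ 1 then t c else 0 with hr
  have e1 : ∑ i : Fin S, ∑ c : Finset (Fin S × Fin S) with (∀ p ∈ c, p.1 = i), t c
      = ∑ c : Finset (Fin S × Fin S), if (c.image Prod.fst).card = 1 then t c else 0 := by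
    simp only [sum_filter]
    rw [sum_comm]
    exact sum_congr rfl fun c _ => comb_row Prod.fst c (ht0 c)
  have e2 : ∑ l : Fin S, ∑ c : Finset (Fin S × Fin S) with (∀ p ∈ c, p.2 = l), t c
      = ∑ c : Finset (Fin S × Fin S), if (c.image Prod.snd).card = 1 then t c else 0 := by
    simp only [sum_filter]
    rw [sum_comm]
    exact sum_congr rfl fun c _ => comb_row Prod.snd c (ht0 c)
  have e3 : ∑ p : Fin S × Fin S, t {p} = (S : ℝ) ^ 2 * τ * α := by
    simp only [ht, hα, card_singleton, pow_one, sum_const, card_univ, Fintype.card_prod,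
      Fintype.card_fin, nsmul_eq_mul]
    push_cast
    ring
  have e4 : (S : ℝ) ^ 2 * τ * α = -∑ c, t c
      + ∑ i : Fin S, ∑ c : Finset (Fin S × Fin S) with (∀ p ∈ c, p.1 = i), t c
      + ∑ l : Fin S, ∑ c : Finset (Fin S × Fin S) with (∀ p ∈ c, p.2 = l), t c + ∑ c, r c := by
    rw [e1, e2, ← e3, ← comb_single, ← sum_neg_distrib, ← sum_add_distrib, ← sum_add_distrib,
      ← sum_add_distrib]
    refine sum_congr rfl fun c _ => ?_
    by_cases h1 : (c.image Prod.fst).card = 1 <;> by_cases h2 : (c.image Prod.snd).card = 1 <;>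
      simp [hr, h1, h2]
  have hρ : 0 ≤ τ ^ j := pow_nonneg hτ0 j
  have e5 : ∀ c, |r c| ≤ B₂ + B₁ * if c = c.image Prod.fst ×ˢ c.image Prod.snd
      then (τ ^ j) ^ (c.image Prod.fst).card * (τ ^ j) ^ (c.image Prod.snd).card else 0 := by
    intro c
    have hn : 0 ≤ B₁ * if c = c.image Prod.fst ×ˢ c.image Prod.snd
        then (τ ^ j) ^ (c.image Prod.fst).card * (τ ^ j) ^ (c.image Prod.snd).card else 0 := by
      split_ifs <;> positivity
    by_cases h1 : r c = 0
    · rw [h1, abs_zero]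
      positivity
    have h3 : (c.image Prod.fst).card ≠ 1 ∧ (c.image Prod.snd).card ≠ 1 := by
      by_contra h4
      exact h1 (if_neg h4)
    have h4 : r c = τ ^ c.card * κ c := if_pos h3
    have h5 : c.Nonempty := nonempty_iff_ne_empty.2 fun h6 => h1 ((if_pos h3).trans (ht0 c h6))
    have h6 : 2 ≤ (c.image Prod.fst).card := by
      have := card_pos.2 (h5.image Prod.fst)
      omega
    have h7 : 2 ≤ (c.image Prod.snd).card := by
      have := card_pos.2 (h5.image Prod.snd)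
      omega
    rw [h4, abs_mul, abs_of_nonneg (pow_nonneg hτ0 _)]
    by_cases h8 : c = c.image Prod.fst ×ˢ c.image Prod.snd
    · rw [if_pos h8]
      generalize c.image Prod.fst = a at h6 h8
      generalize c.image Prod.snd = b at h7 h8
      subst h8
      have h9 : ¬(a.card < 2 * j ∨ b.card < 2 * j) := fun h10 =>
        h1 (by rw [h4, hz a b h6 h7 h10, mul_zero])
      have h10 : τ ^ (a ×ˢ b).card ≤ (τ ^ j) ^ a.card * (τ ^ j) ^ b.card := by
        rw [← pow_add, ← pow_mul, card_product]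
        refine pow_le_pow_of_le_one hτ0 hτ1 ?_
        push Not at h9
        nlinarith [h9.1, h9.2]
      rw [mul_comm B₁]
      exact (mul_le_mul h10 (h₁ a b h6 h7) (abs_nonneg _) (by positivity)).trans
        (le_add_of_nonneg_left hB₂)
    · have h9 : ¬∃ a b : Finset (Fin S), c = a ×ˢ b := by
        rintro ⟨a, b, rfl⟩
        apply h8
        ext ⟨i, l⟩
        simp only [mem_product, mem_image, Prod.exists, exists_and_right, exists_eq_right]
        tauto
      exact ((mul_le_of_le_one_left (abs_nonneg _) (pow_le_one₀ hτ0 hτ1)).trans (h₂ c h9)).trans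
        (le_add_of_nonneg_right hn)
  have e6 : |∑ c, r c| ≤ 2 ^ (S * S) * B₂ + 8 * B₁ := by
    refine (abs_sum_le_sum_abs _ _).trans ((sum_le_sum fun c _ => e5 c).trans ?_)
    rw [sum_add_distrib, ← mul_sum, sum_const, card_univ, Fintype.card_finset, Fintype.card_prod,
      Fintype.card_fin, nsmul_eq_mul, mul_comm 8 B₁]
    push_cast
    refine add_le_add le_rfl (mul_le_mul_of_nonneg_left ((comb_prod_le hρ).trans ?_) hB₁)
    rw [Fintype.card_fin]
    exact comb_exp S hρ hτ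
  have e7 : (S : ℝ) ^ 2 * τ * |α| = |(S : ℝ) ^ 2 * τ * α| := by
    rw [abs_mul, abs_of_nonneg (by positivity : 0 ≤ (S : ℝ) ^ 2 * τ)]
  rw [e7, e4, add_assoc _ (2 ^ (S * S) * B₂)]
  refine (abs_add_le _ _).trans (add_le_add ((abs_add_le _ _).trans (add_le_add
    ((abs_add_le _ _).trans (add_le_add (abs_neg _).le ?_)) ?_)) e6)
  · exact abs_sum_le_sum_abs _ _
  · exact abs_sum_le_sum_abs _ _

end Vale.Agent.P111
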