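import Vale.Agent.P111.FinRank

/-!
A Walsh transform which is a strict contraction on `L_2(X)`.

Plan. `V = W = Fin m → ZMod 2`, `χ x y = ∏ i, if x i = 1 ∧ y i = 1 then -1 else 1`
(`IsBi` coordinatewise by `decide`-style case analysis on `ZMod 2`), `bias χ = (1/2)^m`
(`avg_pi_prod` twice). Choose `m` with `C * ((1/2)^m)^β ≤ 1/2`. For `h y = avg x, χ x y • f x`
take norming functionals `g y = ‖h y‖ • φ y` (`exists_dual_vector''`), so that
`l2 h ^ 2 = avg x, avg y, χ x y * g y (f x) ≤ (1/2) * l2 f * l2 h`.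
-/

namespace Vale.Agent.P111

open Finset

/-- Some Walsh transform has norm at most `1/2` on `L_2(X)`. -/
def WalshContr (X : Type*) [NormedAddCommGroup X] [NormedSpace ℝ X] : Prop :=
  ∃ (n m : ℕ) (χ : Fin n → Fin m → ℝ), 0 < n ∧ 0 < m ∧ (∀ x y, χ x y = 1 ∨ χ x y = -1) ∧
    ∀ f : Fin n → X, l2 (fun y => avg fun x => χ x y • f x) ≤ 1 / 2 * l2 f

/-- The sign `(-1)^(u v)` on `ZMod 2`. -/
def contrSign (u v : ZMod 2) : ℤ := if u = 1 ∧ v = 1 then -1 else 1

/-- The standard bicharacter of `(ZMod 2)^k`. -/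
def contrChi (k : ℕ) (x y : Fin k → ZMod 2) : ℝ := ∏ i, (contrSign (x i) (y i) : ℝ)

theorem contrChi_isBi (k : ℕ) : IsBi (contrChi k) where
  add_left x x' y := by
    have h : ∀ u u' v, contrSign (u + u') v = contrSign u v * contrSign u' v := by decide
    simp only [contrChi, Pi.add_apply, h, Int.cast_mul, prod_mul_distrib]
  add_right x y y' := by
    have h : ∀ u v v', contrSign u (v + v') = contrSign u v * contrSign u v' := by decide
    simp only [contrChi, Pi.add_apply, h, Int.cast_mul, prod_mul_distrib]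
  mul_self x y := by
    have h : ∀ u v, contrSign u v * contrSign u v = 1 := by decide
    simp only [contrChi, ← prod_mul_distrib, ← Int.cast_mul, h, Int.cast_one, prod_const_one]

theorem contrChi_bias (k : ℕ) : bias (contrChi k) = (1 / 2) ^ k := by
  have h1 : (avg fun u : ZMod 2 => avg fun v : ZMod 2 => (contrSign u v : ℝ)) = 1 / 2 := by
    have h : ∑ u : ZMod 2, ∑ v : ZMod 2, contrSign u v = 2 := by decide
    have h2 : ∑ u : ZMod 2, ∑ v : ZMod 2, (contrSign u v : ℝ) = 2 := by exact_mod_cast h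
    simp only [avg_def, smul_eq_mul, ← mul_sum, h2, ZMod.card]
    norm_num
  unfold bias contrChi
  rw [avg_congr fun x : Fin k → ZMod 2 => avg_pi_prod fun i v => (contrSign (x i) v : ℝ),
    avg_pi_prod fun _ u => avg fun v => (contrSign u v : ℝ)]
  simp only [h1, prod_const, card_univ, Fintype.card_fin]

theorem contr_of_bound {X : Type*} [NormedAddCommGroup X] [NormedSpace ℝ X] {V W : Type}
    [Fintype V] [Fintype W] (χ : V → W → ℝ) {K : ℝ} (hK : 0 ≤ K)
    (h : ∀ (f : V → X) (g : W → StrongDual ℝ X),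
      |avg fun x => avg fun y => χ x y * g y (f x)| ≤ K * l2 f * l2 g) (f : V → X) :
    l2 (fun y => avg fun x => χ x y • f x) ≤ K * l2 f := by
  set H : W → X := fun y => avg fun x => χ x y • f x with hH
  choose φ hφ1 hφ2 using fun y => exists_dual_vector'' ℝ (H y)
  have h1 := h f fun y => ‖H y‖ • φ y
  have h2 : (avg fun x => avg fun y => χ x y * (‖H y‖ • φ y) (f x)) = l2 H ^ 2 := by
    rw [avg_comm, l2_sq]
    refine avg_congr fun y => ?_
    have h3 : φ y (H y) = avg fun x => φ y (χ x y • f x) := map_avg (φ y) _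
    have h4 : φ y (H y) = ‖H y‖ := hφ2 y
    rw [show ‖H y‖ ^ 2 = ‖H y‖ * φ y (H y) by rw [h4, sq], h3, ← avg_const_mul]
    refine avg_congr fun x => ?_
    simp only [ContinuousLinearMap.smul_apply, map_smul, smul_eq_mul]
    ring
  have h5 : l2 (fun y => ‖H y‖ • φ y) ≤ l2 H := l2_mono fun y => by
    rw [norm_smul, norm_norm]
    exact mul_le_of_le_one_right (norm_nonneg _) (hφ1 y)
  rw [h2, abs_of_nonneg (sq_nonneg _)] at h1
  have h6 : 0 ≤ K * l2 f := mul_nonneg hK (l2_nonneg _)
  have h7 : l2 H ^ 2 ≤ K * l2 f * l2 H := h1.trans (mul_le_mul_of_nonneg_left h5 h6)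
  rcases (l2_nonneg H).eq_or_lt with h8 | h8
  · rw [← h8]; exact h6
  · rw [sq] at h7
    exact le_of_mul_le_mul_right h7 h8

theorem walshContr_of_wb {X : Type*} [NormedAddCommGroup X] [NormedSpace ℝ X] {β C : ℝ}
    (hβ : 0 < β) (h : WB (evalForm (ContinuousLinearMap.id ℝ X)) β C) : WalshContr X := by
  have hq : ((1 : ℝ) / 2) ^ β < 1 := Real.rpow_lt_one (by norm_num) (by norm_num) hβ
  have hC : 0 < |C| + 1 := by positivity
  obtain ⟨k, hk⟩ := exists_pow_lt_of_lt_one (show (0 : ℝ) < 1 / 2 / (|C| + 1) by positivity) hq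
  have hb : C * bias (contrChi k) ^ β ≤ 1 / 2 := by
    rw [contrChi_bias, ← Real.rpow_pow_comm (by norm_num)]
    have h0 : 0 ≤ (((1 : ℝ) / 2) ^ β) ^ k := by positivity
    rw [lt_div_iff₀ hC] at hk
    nlinarith [le_abs_self C]
  have hc := contr_of_bound (X := X) (contrChi k) (K := 1 / 2) (by norm_num) fun f g =>
    (h _ _ (contrChi k) (contrChi_isBi k) f g).trans
      (mul_le_mul_of_nonneg_right (mul_le_mul_of_nonneg_right hb (l2_nonneg _)) (l2_nonneg _))
  let e := Fintype.equivFin (Fin k → ZMod 2)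
  refine ⟨_, _, fun i j => contrChi k (e.symm i) (e.symm j), Fintype.card_pos, Fintype.card_pos,
    fun i j => (contrChi_isBi k).cases _ _, fun f => ?_⟩
  have h1 := hc fun x => f (e x)
  have h2 : l2 (fun x => f (e x)) = l2 f := by
    unfold l2
    rw [avg_equiv e fun i => ‖f i‖ ^ 2]
  have h3 : l2 (fun y => avg fun x => contrChi k x y • f (e x)) =
      l2 (fun j => avg fun i => contrChi k (e.symm i) (e.symm j) • f i) := by
    unfold l2
    rw [← avg_equiv e.symm]
    refine congrArg _ (avg_congr fun j => ?_)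
    beta_reduce
    rw [← avg_equiv e.symm]
    simp only [Equiv.apply_symm_apply]
  rw [← h2, ← h3]
  exact h1

end Vale.Agent.P111
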