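import Vale.Agent.P111.Basic

/-!
Walsh multipliers on `Cube s → X`.
-/

namespace Vale.Agent.P111

open Finset

variable {X : Type*} [NormedAddCommGroup X] [NormedSpace ℝ X] {s : ℕ}

/-- The multiplier operator with symbol `m`. -/
noncomputable def smult (m : Finset (Fin s) → ℝ) (f : Cube s → X) : Cube s → X :=
  fun ε => ∑ a, (m a * wal a ε) • coef f a

/-- The multiplier operator whose symbol depends only on the degree. -/
noncomputable def mult (m : ℕ → ℝ) (f : Cube s → X) : Cube s → X :=
  smult (fun a => m a.card) f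

theorem coef_add (f g : Cube s → X) (a : Finset (Fin s)) :
    coef (fun ε => f ε + g ε) a = coef f a + coef g a := by
  simp only [coef, smul_add, avg_add]

theorem coef_smul (c : ℝ) (f : Cube s → X) (a : Finset (Fin s)) :
    coef (fun ε => c • f ε) a = c • coef f a := by
  simp only [coef, ← avg_smul, smul_comm c]

theorem coef_sum {α : Type*} (t : Finset α) (f : α → Cube s → X) (a : Finset (Fin s)) :
    coef (fun ε => ∑ i ∈ t, f i ε) a = ∑ i ∈ t, coef (f i) a := by
  simp only [coef, smul_sum, avg_sum]

theorem coef_wal_smul (b : Finset (Fin s)) (x : X) (a : Finset (Fin s)) :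
    coef (fun ε => wal b ε • x) a = if a = b then x else 0 := by
  simp only [coef, smul_smul]
  rw [avg_smul_const, avg_wal_mul_wal]
  split_ifs <;> simp

theorem coef_smult (m : Finset (Fin s) → ℝ) (f : Cube s → X) (a : Finset (Fin s)) :
    coef (smult m f) a = m a • coef f a := by
  unfold smult
  rw [coef_sum]
  simp only [mul_comm (m _), mul_smul, coef_wal_smul]
  simp

theorem sum_wal_mul_wal (ε η : Cube s) :
    ∑ a, wal a ε * wal a η = if ε = η then (Fintype.card (Cube s) : ℝ) else 0 := by
  have h : ∑ a, wal a ε * wal a η = ∏ i, (1 + sg (ε i) * sg (η i)) := by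
    rw [prod_one_add]
    simp [wal, prod_mul_distrib]
  rw [h]
  split_ifs with he
  · subst he
    simp only [sg_mul_self, prod_const, card_univ, Fintype.card_fin, Fintype.card_pi,
      Fintype.card_units_int]
    norm_num
  · obtain ⟨i, hi⟩ := Function.ne_iff.1 he
    refine prod_eq_zero (mem_univ i) ?_
    rcases Int.units_eq_one_or (ε i) with h1 | h1 <;>
      rcases Int.units_eq_one_or (η i) with h2 | h2 <;> simp_all

/-- Walsh inversion. -/
theorem smult_one (f : Cube s → X) : smult (fun _ => 1) f = f := by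
  funext ε
  have hc : (Fintype.card (Cube s) : ℝ) ≠ 0 := by exact_mod_cast Fintype.card_ne_zero
  simp only [smult, one_mul, coef, ← avg_smul, smul_smul]
  rw [← avg_sum]
  simp only [← sum_smul, sum_wal_mul_wal, avg_def, ite_smul, zero_smul, sum_ite_eq, mem_univ,
    if_true, smul_smul, inv_mul_cancel₀ hc, one_smul]

theorem eq_of_coef_eq {f g : Cube s → X} (h : ∀ a, coef f a = coef g a) : f = g := by
  rw [← smult_one f, ← smult_one g]
  funext ε
  simp only [smult, h]

theorem smult_smult (m m' : Finset (Fin s) → ℝ) (f : Cube s → X) :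
    smult m (smult m' f) = smult (fun a => m a * m' a) f :=
  eq_of_coef_eq fun a => by simp only [coef_smult, smul_smul]

theorem smult_add_symb (m m' : Finset (Fin s) → ℝ) (f : Cube s → X) (ε : Cube s) :
    smult (fun a => m a + m' a) f ε = smult m f ε + smult m' f ε := by
  simp only [smult, add_mul, add_smul, sum_add_distrib]

theorem smult_smul_symb (c : ℝ) (m : Finset (Fin s) → ℝ) (f : Cube s → X) (ε : Cube s) :
    smult (fun a => c * m a) f ε = c • smult m f ε := by
  simp only [smult, smul_sum, smul_smul, mul_assoc]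

theorem smult_sum_symb {α : Type*} (t : Finset α) (m : α → Finset (Fin s) → ℝ) (f : Cube s → X)
    (ε : Cube s) : smult (fun a => ∑ i ∈ t, m i a) f ε = ∑ i ∈ t, smult (m i) f ε := by
  simp only [smult, sum_mul, sum_smul]
  rw [sum_comm]

theorem rad_eq_mult (f : Cube s → X) : rad f = mult (fun k => if k = 1 then 1 else 0) f := by
  refine eq_of_coef_eq fun a => ?_
  have h1 : rad f = fun ε => ∑ i, wal {i} ε • coef f {i} := by
    funext ε
    simp [rad, coef]
  rw [h1, mult, coef_smult, coef_sum]
  simp only [coef_wal_smul]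
  by_cases ha : a.card = 1
  · obtain ⟨i, rfl⟩ := card_eq_one.1 ha
    simp
  · rw [if_neg ha, zero_smul]
    refine sum_eq_zero fun i _ => if_neg ?_
    rintro rfl
    simp at ha

theorem avg_dens_mul_wal (θ : ℝ) (a : Finset (Fin s)) :
    avg (fun d : Cube s => (∏ i, (1 + θ * sg (d i))) * wal a d) = θ ^ a.card := by
  simp only [wal_eq_prod_ite, ← prod_mul_distrib]
  rw [avg_pi_prod (fun i u => (1 + θ * sg u) * (if i ∈ a then sg u else 1))]
  have h : ∀ i, avg (fun u : ℤˣ => (1 + θ * sg u) * (if i ∈ a then sg u else 1)) =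
      if i ∈ a then θ else 1 := by
    intro i
    by_cases hi : i ∈ a
    · simp only [hi, if_true, add_mul, one_mul, mul_assoc, sg_mul_self, mul_one]
      rw [avg_add, avg_const]
      simp
    · simp only [hi, if_false, mul_one]
      rw [avg_add, avg_const, avg_const_mul]
      simp
  simp only [h]
  rw [prod_ite_mem, univ_inter, prod_const]

/-- The noise operator is an average of sign flips with a product density. -/
theorem mult_pow_eq (θ : ℝ) (f : Cube s → X) (ε : Cube s) :
    mult (fun k => θ ^ k) f ε = avg fun d : Cube s => (∏ i, (1 + θ * sg (d i))) • f (ε * d) := by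
  conv_rhs => rw [← smult_one f]
  simp only [mult, smult, one_mul, smul_sum, smul_smul, wal_mul]
  rw [avg_sum]
  refine sum_congr rfl fun a _ => ?_
  rw [avg_smul_const]
  congr 1
  simp only [mul_left_comm _ (wal a ε)]
  rw [avg_const_mul, avg_dens_mul_wal, mul_comm]

omit [NormedSpace ℝ X] in
theorem l2_comp_mul_right (f : Cube s → X) (d : Cube s) : l2 (fun ε => f (ε * d)) = l2 f := by
  unfold l2
  rw [avg_mul_right d (fun ε => ‖f ε‖ ^ 2)]

/-- The noise operator is a contraction. -/
theorem l2_mult_pow_le {θ : ℝ} (h0 : 0 ≤ θ) (h1 : θ ≤ 1) (f : Cube s → X) :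
    l2 (mult (fun k => θ ^ k) f) ≤ l2 f := by
  have h : mult (fun k => θ ^ k) f =
      fun ε => avg fun d : Cube s => (∏ i, (1 + θ * sg (d i))) • f (ε * d) :=
    funext (mult_pow_eq θ f)
  rw [h]
  refine (l2_avg_le (fun (d : Cube s) ε => (∏ i, (1 + θ * sg (d i))) • f (ε * d))).trans ?_
  have hp : ∀ d : Cube s, 0 ≤ ∏ i, (1 + θ * sg (d i)) := fun d => prod_nonneg fun i _ => by
    rcases sg_cases (d i) with h | h <;> rw [h] <;> linarith
  simp only [l2_smul, l2_comp_mul_right, abs_of_nonneg (hp _)]
  rw [avg_mul_const]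
  have := avg_dens_mul_wal (s := s) θ ∅
  simp only [wal_empty, mul_one, card_empty, pow_zero] at this
  rw [this, one_mul]

end Vale.Agent.P111
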