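import Vale.Agent.P111.Fiber
import Vale.Agent.P111.Comb
import Vale.Agent.P111.Mult

/-!
The a priori estimate: a finite Walsh constant is automatically bounded by `2^(S*S)`.
-/

namespace Vale.Agent.P111

open Finset

variable {E E' : Type*} [NormedAddCommGroup E] [NormedSpace ℝ E] [NormedAddCommGroup E']
  [NormedSpace ℝ E']

section Aux

variable {S : ℕ}

theorem rowOdd_subset {c : Finset (Fin S × Fin S)} {i : Fin S} (hc : ∀ p ∈ c, p.1 = i) :
    rowOdd c ⊆ {i} := by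
  intro k hk
  rw [rowOdd, mem_filter] at hk
  obtain ⟨p, hp⟩ := card_pos.1 hk.2.pos
  rw [mem_filter] at hp
  rw [mem_singleton, ← hp.2, hc p hp.1]

theorem colOdd_subset {c : Finset (Fin S × Fin S)} {l : Fin S} (hc : ∀ p ∈ c, p.2 = l) :
    colOdd c ⊆ {l} := by
  intro k hk
  rw [colOdd, mem_filter] at hk
  obtain ⟨p, hp⟩ := card_pos.1 hk.2.pos
  rw [mem_filter] at hp
  rw [mem_singleton, ← hp.2, hc p hp.1]

theorem coef_sg_eq {F : Cube S → E} {i : Fin S} {x : E} (h1 : coef F {i} = x) (h0 : coef F ∅ = 0)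
    {a : Finset (Fin S)} (ha : a ⊆ {i}) : coef (fun ε => sg (ε i) • x) a = coef F a := by
  have h := coef_wal_smul {i} x a
  simp only [wal_singleton] at h
  rw [h]
  rcases subset_singleton_iff.1 ha with rfl | rfl
  · rw [if_neg (singleton_ne_empty i).symm, h0]
  · rw [if_pos rfl, h1]

theorem prod_ite_eq_pow {α : Type*} (c : Finset α) (q : α → Prop) [DecidablePred q] (τ : ℝ) :
    (∏ p ∈ c, if q p then τ else 0) = if ∀ p ∈ c, q p then τ ^ c.card else 0 := by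
  split_ifs with h
  · rw [← prod_const]
    exact prod_congr rfl fun p hp => if_pos (h p hp)
  · push Not at h
    obtain ⟨p, hp, hq⟩ := h
    exact prod_eq_zero hp (if_neg hq)

omit [NormedSpace ℝ E] in
theorem lift_mean_sq {V Ω : Type} [Fintype Ω] (hS : 0 < S) {A : ℝ}
    (ft : V → Ω → E) (hft : ∀ x, (avg fun ω => ‖ft x ω‖ ^ 2) ≤ 1)
    (F : (Fin S → V) → Ω → Cube S → E) (hF : ∀ x ω, l2 (F x ω) ≤ A * l2 fun i => ft (x i) ω)
    (x : Fin S → V) : (avg fun ω => avg fun ε => ‖F x ω ε‖ ^ 2) ≤ A ^ 2 := by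
  have : Nonempty (Fin S) := ⟨⟨0, hS⟩⟩
  calc (avg fun ω => avg fun ε => ‖F x ω ε‖ ^ 2)
      ≤ avg fun ω => A ^ 2 * avg fun i => ‖ft (x i) ω‖ ^ 2 := avg_mono fun ω => by
        have := avg_sq_le_of_l2 (hF x ω)
        rwa [mul_pow, l2_sq] at this
    _ = A ^ 2 * avg fun i => avg fun ω => ‖ft (x i) ω‖ ^ 2 := by
        rw [avg_const_mul, avg_comm]
    _ ≤ A ^ 2 * 1 := mul_le_mul_of_nonneg_left (avg_le_const fun i => hft _) (sq_nonneg A)
    _ = A ^ 2 := mul_one _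

theorem final_numeric {S τ A Ψ D N a I R C : ℝ} (hS1 : 1 ≤ S) (hτ0 : 0 < τ) (hτ1 : τ ≤ 1)
    (hA0 : 0 ≤ A) (hA : 42 * A ≤ S * τ) (hΨ : 0 ≤ Ψ) (hD0 : 0 < D) (hδ : N * D ≤ 1)
    (h : S ^ 2 * τ * a ≤ I + R + C + N * (Ψ * D ^ 2 * A * A) + 8 * (Ψ * D * A * A))
    (hI : I ≤ 4 * Ψ * D * A * A) (hR : R ≤ S * (4 * Ψ * D * 1 * A))
    (hC : C ≤ S * (4 * Ψ * D * A * 1)) : a ≤ Ψ / 2 * D := by
  have hP : 0 ≤ Ψ * D := by positivity
  have h2 : N * (Ψ * D ^ 2 * A * A) ≤ Ψ * D * A * A := by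
    calc N * (Ψ * D ^ 2 * A * A) = (N * D) * (Ψ * D * A * A) := by ring
      _ ≤ 1 * (Ψ * D * A * A) := mul_le_mul_of_nonneg_right hδ (by positivity)
      _ = _ := one_mul _
  have hAS : A ≤ S := by nlinarith
  have h3 : S ^ 2 * τ * a ≤ Ψ * D * (21 * S * A) := by
    have h4 : Ψ * D * (A * A) ≤ Ψ * D * (S * A) :=
      mul_le_mul_of_nonneg_left (mul_le_mul_of_nonneg_right hAS hA0) hP
    linarith
  have h5 : Ψ * D * (21 * S * A) ≤ S ^ 2 * τ * (Ψ / 2 * D) := by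
    have h6 : 21 * S * A ≤ S ^ 2 * τ / 2 := by nlinarith
    have := mul_le_mul_of_nonneg_left h6 hP
    linarith
  exact le_of_mul_le_mul_left (h3.trans h5) (by positivity)

end Aux

theorem step {S j : ℕ} (hS : 0 < S) (hj : 0 < j) {τ A : ℝ} (hτ0 : 0 < τ) (hτ1 : τ ≤ 1)
    (hτ : S * τ ^ j ≤ 1) (hA0 : 0 ≤ A) (hA : 42 * A ≤ S * τ) (hE : LiftJ E S (2 * j) A)
    (hE' : LiftJ E' S (2 * j) A) (b : E →L[ℝ] E' →L[ℝ] ℝ) {Ψ : ℝ} (hΨ : 0 ≤ Ψ)
    (hb : WB b (1 / (2 * S)) Ψ) {V W : Type} [AddCommGroup V] [Fintype V] [AddCommGroup W]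
    [Fintype W] {χ : V → W → ℝ} (hχ : IsBi χ) (f : V → E) (g : W → E') (hf : l2 f ≤ 1)
    (hg : l2 g ≤ 1) (hδ : 2 ^ (S * S) * bias χ ^ (1 / (2 * S) : ℝ) ≤ 1) :
    |avg fun x => avg fun y => χ x y * b (f x) (g y)| ≤ Ψ / 2 * bias χ ^ (1 / (2 * S) : ℝ) := by
  classical
  set β : ℝ := 1 / (2 * S) with hβ
  set α : ℝ := avg fun x => avg fun y => χ x y * b (f x) (g y) with hα
  have hS1 : (1 : ℝ) ≤ S := by exact_mod_cast hS
  have hβ0 : 0 ≤ β := by positivity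
  have hβ1 : β ≤ 1 := by
    rw [hβ, div_le_one (by positivity)]; linarith
  have hβ4 : ((4 : ℝ) ^ S) ^ β ≤ 2 := by
    rw [← Real.rpow_natCast, ← Real.rpow_mul (by norm_num),
      show (S : ℝ) * β = 1 / 2 by rw [hβ]; field_simp, ← Real.sqrt_eq_rpow,
      show (4 : ℝ) = 2 ^ 2 by norm_num, Real.sqrt_sq (by norm_num)]
  have hδ0 := hχ.bias_pos
  have hδ1 := hχ.bias_le_one
  set D : ℝ := bias χ ^ β with hD
  have hD0 : 0 < D := Real.rpow_pos_of_pos hδ0 _
  have hδD : bias χ ≤ D := by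
    have := Real.rpow_le_rpow_of_exponent_ge hδ0 hδ1 hβ1
    rwa [Real.rpow_one] at this
  have hδ' : 2 ^ (S * S) * bias χ ≤ 1 :=
    le_trans (mul_le_mul_of_nonneg_left hδD (by positivity)) hδ
  -- symmetrisation
  let ft : V → V × W → E := fun x ω => χ x ω.2 • f (x + ω.1)
  let gt : W → V × W → E' := fun y ω => (χ ω.1 y * χ ω.1 ω.2) • g (y + ω.2)
  have hsym : ∀ x y, (avg fun ω => b (ft x ω) (gt y ω)) = χ x y * α := by
    intro x y
    have h1 : ∀ ω : V × W, b (ft x ω) (gt y ω) =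
        χ x y * (χ (x + ω.1) (y + ω.2) * b (f (x + ω.1)) (g (y + ω.2))) := by
      intro ω
      simp only [ft, gt, map_smul, smul_apply, smul_eq_mul, hχ.add_left,
        hχ.add_right]
      have := hχ.mul_self x y
      linear_combination (-(χ x ω.2 * χ ω.1 y * χ ω.1 ω.2 * b (f (x + ω.1)) (g (y + ω.2)))) * this
    simp only [h1]
    rw [avg_const_mul, avg_prod]
    congr 1
    rw [hα, ← avg_add_left x (fun x' => avg fun y' => χ x' y' * b (f x') (g y'))]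
    refine avg_congr fun a => ?_
    exact avg_add_left y (fun y' => χ (x + a) y' * b (f (x + a)) (g y'))
  have hft : ∀ x, (avg fun ω => ‖ft x ω‖ ^ 2) ≤ 1 := by
    intro x
    simp only [ft, norm_smul, Real.norm_eq_abs, hχ.abs_eq, one_mul]
    rw [avg_prod]
    simp only [avg_const]
    rw [avg_add_left x (fun a => ‖f a‖ ^ 2)]
    simpa using avg_sq_le_of_l2 hf
  have hgt : ∀ y, (avg fun ω => ‖gt y ω‖ ^ 2) ≤ 1 := by
    intro y
    simp only [gt, norm_smul, Real.norm_eq_abs, abs_mul, hχ.abs_eq, one_mul]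
    rw [avg_prod]
    simp only []
    rw [avg_const, avg_add_left y (fun a => ‖g a‖ ^ 2)]
    simpa using avg_sq_le_of_l2 hg
  -- lifts
  choose F hF1 hF0 hFo hFA using fun (x : Fin S → V) (ω : V × W) => hE fun i => ft (x i) ω
  choose G hG1 hG0 hGo hGA using fun (y : Fin S → W) (ω : V × W) => hE' fun l => gt (y l) ω
  have hF := lift_mean_sq hS ft hft F hFA
  have hG := lift_mean_sq hS gt hgt G hGA
  have hF00 : ∀ x ω, coef (F x ω) ∅ = 0 := fun x ω => hF0 x ω ∅ (by simp) (by simpa using hj)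
  have hG00 : ∀ y ω, coef (G y ω) ∅ = 0 := fun y ω => hG0 y ω ∅ (by simp) (by simpa using hj)
  have hk := kappa_bound hb hΨ hχ hA0 hA0 hF hG
  have hcomb := comb_ineq S j hτ0.le hτ1 hτ (kappa b χ F G) (α := α) (B₁ := Ψ * D * A * A)
    (B₂ := Ψ * D ^ 2 * A * A) ?_ ?_ (by positivity) (by positivity) ?_ ?_ ?_
  rotate_left
  · have : rowOdd (∅ : Finset (Fin S × Fin S)) = ∅ := by simp [rowOdd]
    simp [kappa, this, hF00]
  · rintro ⟨i, l⟩
    have h1 : rowOdd {(i, l)} = {i} := by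
      rw [← singleton_product_singleton, rowOdd_prod]; simp
    have h2 : colOdd {(i, l)} = {l} := by
      rw [← singleton_product_singleton, colOdd_prod]; simp
    simp only [kappa, h1, h2, hF1, hG1, pat, prod_singleton]
    rw [avg_comm]
    simp only [avg_comm (ι := V × W), avg_const_mul, hsym, ← mul_assoc, hχ.mul_self, one_mul,
      avg_const]
  · intro c hc
    refine (hk c).trans ?_
    have h1 : bias (pat χ c) ^ β ≤ D ^ 2 := by
      refine (Real.rpow_le_rpow (hχ.pat c).bias_pos.le (hχ.bias_pat_le_sq hc) hβ0).trans ?_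
      rw [hD, sq, sq, Real.mul_rpow hδ0.le hδ0.le]
    gcongr
  · intro a a' ha ha'
    refine (hk _).trans ?_
    have hne : (a ×ˢ a').Nonempty :=
      (card_pos.1 (by omega)).product (card_pos.1 (by omega))
    have h1 : bias (pat χ (a ×ˢ a')) ^ β ≤ D :=
      Real.rpow_le_rpow (hχ.pat _).bias_pos.le (hχ.bias_pat_le hne) hβ0
    gcongr
  · intro a a' ha ha' hlt
    by_cases h1 : Odd a'.card
    · by_cases h2 : Odd a.card
      · rcases hlt with hlt | hlt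
        · have : ∀ x ω, coef (F x ω) a = 0 := fun x ω => hF0 x ω a (by omega) hlt
          simp [kappa, rowOdd_prod, h1, this]
        · have : ∀ y ω, coef (G y ω) a' = 0 := fun y ω => hG0 y ω a' (by omega) hlt
          simp [kappa, colOdd_prod, h2, this]
      · simp [kappa, colOdd_prod, h2, hG00]
    · simp [kappa, rowOdd_prod, h1, hF00]
  -- the three kinds of sums
  have hall : |∑ c : Finset (Fin S × Fin S), τ ^ c.card * kappa b χ F G c| ≤ 4 * Ψ * D * A * A := by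
    have h := fiber_bound hb hΨ hβ0 hβ4 hχ (θ := fun _ => τ) (fun _ => ⟨hτ0.le, hτ1⟩) hδ' hA0 hA0
      hFo hF hG
    rwa [pairI_expand, sum_congr rfl fun c _ => by rw [prod_const]] at h
  have hrow : ∀ i : Fin S, |∑ c : Finset (Fin S × Fin S) with (∀ p ∈ c, p.1 = i),
      τ ^ c.card * kappa b χ F G c| ≤ 4 * Ψ * D * 1 * A := by
    intro i
    have h := fiber_bound hb hΨ hβ0 hβ4 hχ (θ := fun p => if p.1 = i then τ else 0)
      (fun p => by split_ifs <;> constructor <;> linarith) hδ' zero_le_one hA0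
      (F := fun x ω ε => sg (ε i) • ft (x i) ω) (fun x ω ε => by simp)
      (fun x => by simpa [norm_smul] using hft (x i)) hG
    rw [pairI_expand] at h
    convert h using 2
    rw [sum_filter]
    refine sum_congr rfl fun c _ => ?_
    rw [prod_ite_eq_pow]
    split_ifs with hc
    · congr 1
      simp only [kappa, coef_sg_eq (hF1 _ _ i) (hF00 _ _) (rowOdd_subset hc)]
    · rw [zero_mul]
  have hcol : ∀ l : Fin S, |∑ c : Finset (Fin S × Fin S) with (∀ p ∈ c, p.2 = l),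
      τ ^ c.card * kappa b χ F G c| ≤ 4 * Ψ * D * A * 1 := by
    intro l
    have h := fiber_bound hb hΨ hβ0 hβ4 hχ (θ := fun p => if p.2 = l then τ else 0)
      (fun p => by split_ifs <;> constructor <;> linarith) hδ' hA0 zero_le_one
      (G := fun y ω η => sg (η l) • gt (y l) ω) hFo hF
      (fun y => by simpa [norm_smul] using hgt (y l))
    rw [pairI_expand] at h
    convert h using 2
    rw [sum_filter]
    refine sum_congr rfl fun c _ => ?_
    rw [prod_ite_eq_pow]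
    split_ifs with hc
    · congr 1
      simp only [kappa, coef_sg_eq (hG1 _ _ l) (hG00 _ _) (colOdd_subset hc)]
    · rw [zero_mul]
  have hrow' := sum_le_sum fun i (_ : i ∈ univ) => hrow i
  have hcol' := sum_le_sum fun l (_ : l ∈ univ) => hcol l
  simp only [sum_const, card_univ, Fintype.card_fin, nsmul_eq_mul] at hrow' hcol'
  exact final_numeric hS1 hτ0 hτ1 hA0 hA hΨ hD0 hδ hcomb hall hrow' hcol'

theorem wb_triv {b : E →L[ℝ] E' →L[ℝ] ℝ} (hb : ∀ x y, |b x y| ≤ ‖x‖ * ‖y‖) {V W : Type}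
    [AddCommGroup V] [Fintype V] [AddCommGroup W] [Fintype W] {χ : V → W → ℝ} (hχ : IsBi χ)
    (f : V → E) (g : W → E') :
    |avg fun x => avg fun y => χ x y * b (f x) (g y)| ≤ l2 f * l2 g := by
  calc _ ≤ avg fun x => avg fun y => ‖f x‖ * ‖g y‖ := by
        refine (abs_avg_le _).trans (avg_mono fun x => (abs_avg_le _).trans (avg_mono fun y => ?_))
        rw [abs_mul, hχ.abs_eq, one_mul]
        exact hb _ _
    _ = (avg fun x => ‖f x‖) * avg fun y => ‖g y‖ := by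
        simp only [avg_const_mul, avg_mul_const]
    _ ≤ l2 f * l2 g := mul_le_mul (avg_norm_le_l2 f) (avg_norm_le_l2 g)
        (avg_nonneg fun _ => norm_nonneg _) (l2_nonneg _)

theorem WB.mono {b : E →L[ℝ] E' →L[ℝ] ℝ} {β Ψ Ψ' : ℝ} (h : WB b β Ψ) (hΨ : Ψ ≤ Ψ') :
    WB b β Ψ' := by
  intro V W _ _ _ _ χ hχ f g
  refine (h V W χ hχ f g).trans ?_
  have := Real.rpow_pos_of_pos hχ.bias_pos β
  have := l2_nonneg f
  have := l2_nonneg g
  gcongr

theorem wb_of_norm_le_one {b : E →L[ℝ] E' →L[ℝ] ℝ} {β Ψ : ℝ}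
    (h : ∀ (V W : Type) [AddCommGroup V] [Fintype V] [AddCommGroup W] [Fintype W]
      (χ : V → W → ℝ), IsBi χ → ∀ (f : V → E) (g : W → E'), l2 f ≤ 1 → l2 g ≤ 1 →
      |avg fun x => avg fun y => χ x y * b (f x) (g y)| ≤ Ψ * bias χ ^ β) : WB b β Ψ := by
  intro V W _ _ _ _ χ hχ f g
  rcases (l2_nonneg f).eq_or_lt with hf | hf
  · have : ∀ x, f x = 0 := eq_zero_of_l2_eq_zero hf.symm
    simp [this, ← hf]
  rcases (l2_nonneg g).eq_or_lt with hg | hg
  · have : ∀ y, g y = 0 := eq_zero_of_l2_eq_zero hg.symm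
    simp [this, ← hg]
  have h1 := h V W χ hχ (fun x => (l2 f)⁻¹ • f x) (fun y => (l2 g)⁻¹ • g y)
    (by rw [l2_smul, abs_of_pos (inv_pos.2 hf), inv_mul_cancel₀ hf.ne'])
    (by rw [l2_smul, abs_of_pos (inv_pos.2 hg), inv_mul_cancel₀ hg.ne'])
  have h2 : ∀ x y, χ x y * b ((l2 f)⁻¹ • f x) ((l2 g)⁻¹ • g y) =
      ((l2 f)⁻¹ * (l2 g)⁻¹) * (χ x y * b (f x) (g y)) := by
    intro x y
    simp only [map_smul, smul_apply, smul_eq_mul]
    ring
  simp only [h2, avg_const_mul] at h1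
  rw [abs_mul, abs_of_pos (by positivity), ← mul_inv, inv_mul_le_iff₀ (by positivity)] at h1
  linarith

theorem core {S j : ℕ} (hS : 0 < S) (hj : 0 < j) {τ A : ℝ} (hτ0 : 0 < τ) (hτ1 : τ ≤ 1)
    (hτ : S * τ ^ j ≤ 1) (hA0 : 0 ≤ A) (hA : 42 * A ≤ S * τ) (hE : LiftJ E S (2 * j) A)
    (hE' : LiftJ E' S (2 * j) A) (b : E →L[ℝ] E' →L[ℝ] ℝ) (hb : ∀ x y, |b x y| ≤ ‖x‖ * ‖y‖)
    (hΨ : ∃ Ψ, WB b (1 / (2 * S)) Ψ) : WB b (1 / (2 * S)) (2 ^ (S * S)) := by
  have hstep : ∀ Ψ : ℝ, 0 ≤ Ψ → WB b (1 / (2 * S)) Ψ →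
      WB b (1 / (2 * S)) (max (Ψ / 2) (2 ^ (S * S))) := by
    intro Ψ hΨ0 h
    refine wb_of_norm_le_one fun V W _ _ _ _ χ hχ f g hf hg => ?_
    have hD := Real.rpow_pos_of_pos hχ.bias_pos (1 / (2 * S) : ℝ)
    by_cases hδ : 2 ^ (S * S) * bias χ ^ (1 / (2 * S) : ℝ) ≤ 1
    · exact (step hS hj hτ0 hτ1 hτ hA0 hA hE hE' b hΨ0 h hχ f g hf hg hδ).trans
        (mul_le_mul_of_nonneg_right (le_max_left _ _) hD.le)
    · refine (wb_triv hb hχ f g).trans ?_
      have h1 : l2 f * l2 g ≤ 1 := mul_le_one₀ hf (l2_nonneg g) hg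
      exact h1.trans ((not_le.1 hδ).le.trans
        (mul_le_mul_of_nonneg_right (le_max_right _ _) hD.le))
  obtain ⟨Ψ, h⟩ := hΨ
  have h0 : WB b (1 / (2 * S)) (max Ψ 0) := h.mono (le_max_left _ _)
  have hn : ∀ n : ℕ, WB b (1 / (2 * S)) (max (max Ψ 0 / 2 ^ n) (2 ^ (S * S))) := by
    intro n
    induction n with
    | zero => exact h0.mono (by simp)
    | succ n ih =>
      refine (hstep _ (le_max_of_le_right (by positivity)) ih).mono ?_
      refine max_le ?_ (le_max_right _ _)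
      rw [div_le_iff₀ (by norm_num : (0 : ℝ) < 2)]
      refine max_le ?_ ?_
      · have := le_max_left (max Ψ 0 / 2 ^ (n + 1)) ((2 : ℝ) ^ (S * S))
        have e : max Ψ 0 / 2 ^ n = max Ψ 0 / 2 ^ (n + 1) * 2 := by field_simp; ring
        linarith
      · have := le_max_right (max Ψ 0 / 2 ^ (n + 1)) ((2 : ℝ) ^ (S * S))
        have : (0 : ℝ) < 2 ^ (S * S) := by positivity
        linarith
  obtain ⟨n, hn'⟩ := pow_unbounded_of_one_lt (max Ψ 0) (by norm_num : (1 : ℝ) < 2)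
  refine (hn n).mono (max_le ?_ le_rfl)
  rw [div_le_iff₀ (by positivity)]
  have : (1 : ℝ) ≤ 2 ^ (S * S) := one_le_pow₀ (by norm_num)
  have : (0 : ℝ) < 2 ^ n := by positivity
  nlinarith

end Vale.Agent.P111
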