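import Mathlib

/-!
Definitions for P111 (the cotype-cotype conjecture). All spaces are real.
-/

namespace Vale.Agent.P111

/-- The sign vectors `{-1,1}^s`. -/
abbrev Cube (s : ℕ) : Type := Fin s → ℤˣ

/-- A sign `u ∈ {-1,1}` as a real number. -/
def sg (u : ℤˣ) : ℝ := ((u : ℤ) : ℝ)

/-- The uniform average (expectation) of `f` over a finite index type. -/
noncomputable def avg {ι M : Type*} [Fintype ι] [AddCommMonoid M] [Module ℝ M] (f : ι → M) : M :=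
  (Fintype.card ι : ℝ)⁻¹ • ∑ i, f i

/-- The norm of `f` in `L_2(ι; X)` for the uniform probability on `ι`. -/
noncomputable def l2 {ι X : Type*} [Fintype ι] [NormedAddCommGroup X] (f : ι → X) : ℝ :=
  Real.sqrt (avg fun i => ‖f i‖ ^ 2)

/-- `C_q(Y) < ∞`: `(∑ ‖y_i‖^q)^(1/q) ≤ C (E ‖∑ ε_i y_i‖^2)^(1/2)` for all finite families. -/
def HasCotype (Y : Type*) [NormedAddCommGroup Y] [NormedSpace ℝ Y] (q : ℝ) : Prop :=
  ∃ C : ℝ, ∀ (s : ℕ) (y : Fin s → Y),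
    (∑ i, ‖y i‖ ^ q) ^ (1 / q) ≤ C * l2 fun ε : Cube s => ∑ i, sg (ε i) • y i

/-- The approximation property. -/
def HasAP (X : Type*) [NormedAddCommGroup X] [NormedSpace ℝ X] : Prop :=
  ∀ M : Set X, IsCompact M → ∀ δ : ℝ, 0 < δ → ∃ S : X →L[ℝ] X,
    FiniteDimensional ℝ (LinearMap.range (S : X →ₗ[ℝ] X)) ∧ ∀ x ∈ M, ‖S x - x‖ < δ

/-- The bounded approximation property. -/
def HasBAP (X : Type*) [NormedAddCommGroup X] [NormedSpace ℝ X] : Prop :=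
  ∃ lam : ℝ, ∀ M : Set X, IsCompact M → ∀ δ : ℝ, 0 < δ → ∃ S : X →L[ℝ] X,
    FiniteDimensional ℝ (LinearMap.range (S : X →ₗ[ℝ] X)) ∧ ‖S‖ ≤ lam ∧ ∀ x ∈ M, ‖S x - x‖ < δ

/-- The Rademacher projection `(Rad_s f)(ε) = ∑ i, ε_i E_η [η_i f(η)]`. -/
noncomputable def rad {X : Type*} [NormedAddCommGroup X] [NormedSpace ℝ X] {s : ℕ}
    (f : Cube s → X) : Cube s → X :=
  fun ε => ∑ i, sg (ε i) • avg fun η : Cube s => sg (η i) • f η

/-- `K(X) < ∞`: the Rademacher projections are uniformly bounded on `L_2({-1,1}^s; X)`. -/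
def KConvex (X : Type*) [NormedAddCommGroup X] [NormedSpace ℝ X] : Prop :=
  ∃ K : ℝ, ∀ (s : ℕ) (f : Cube s → X), l2 (rad f) ≤ K * l2 f

end Vale.Agent.P111
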