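import Vale.Agent.P111.Char

/-!
The Riesz product pairing and its expansion into patterns.

Plan. `prod_one_add` expands `theta`; `∏ p ∈ c, sg (ε p.1) = wal (rowOdd c) ε`
(`prod_fiberwise`, `sg u ^ n = if Odd n then sg u else 1`); then move the averages in `ε`, `η`
inside the bilinear map (`map_avg`). `kappa_bound`: apply `WB` to `pat χ c` for each `ω`, then
Cauchy-Schwarz in `ω` (`avg_mul_le_sqrt`), `norm_coef_le`, `avg_comm`.
-/

namespace Vale.Agent.P111

open Finset

variable {E E' : Type*} [NormedAddCommGroup E] [NormedSpace ℝ E] [NormedAddCommGroup E']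
  [NormedSpace ℝ E'] {V W Ω : Type} [AddCommGroup V] [Fintype V] [AddCommGroup W] [Fintype W]
  [Fintype Ω] {S : ℕ}

/-- The Riesz product of the matrix `ε_i η_l χ(x_i, y_l)`. -/
def theta {V W : Type} {S : ℕ} (θ : Fin S × Fin S → ℝ) (χ : V → W → ℝ) (x : Fin S → V)
    (y : Fin S → W) (ε η : Cube S) : ℝ :=
  ∏ p, (1 + θ p * (sg (ε p.1) * sg (η p.2) * χ (x p.1) (y p.2)))

/-- The pairing of `F` and `G` against the Riesz product. -/
noncomputable def pairI (b : E →L[ℝ] E' →L[ℝ] ℝ) (χ : V → W → ℝ) (θ : Fin S × Fin S → ℝ)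
    (F : (Fin S → V) → Ω → Cube S → E) (G : (Fin S → W) → Ω → Cube S → E') : ℝ :=
  avg fun ω => avg fun x => avg fun y => avg fun ε => avg fun η =>
    theta θ χ x y ε η * b (F x ω ε) (G y ω η)

/-- Rows meeting `c` an odd number of times. -/
def rowOdd (c : Finset (Fin S × Fin S)) : Finset (Fin S) :=
  univ.filter fun i => Odd (c.filter fun p => p.1 = i).card

/-- Columns meeting `c` an odd number of times. -/
def colOdd (c : Finset (Fin S × Fin S)) : Finset (Fin S) :=
  univ.filter fun l => Odd (c.filter fun p => p.2 = l).card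

/-- The coefficient of the pattern `c`. -/
noncomputable def kappa (b : E →L[ℝ] E' →L[ℝ] ℝ) (χ : V → W → ℝ)
    (F : (Fin S → V) → Ω → Cube S → E) (G : (Fin S → W) → Ω → Cube S → E')
    (c : Finset (Fin S × Fin S)) : ℝ :=
  avg fun ω => avg fun x => avg fun y =>
    pat χ c x y * b (coef (F x ω) (rowOdd c)) (coef (G y ω) (colOdd c))

theorem rowOdd_prod (a b : Finset (Fin S)) :
    rowOdd (a ×ˢ b) = if Odd b.card then a else ∅ := by
  ext i
  have h : ((a ×ˢ b).filter fun p => p.1 = i) = (a.filter fun j => j = i) ×ˢ b :=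
    filter_product_left (fun j => j = i)
  simp only [rowOdd, mem_filter, mem_univ, true_and, h, card_product, filter_eq']
  by_cases hi : i ∈ a <;> by_cases hb : Odd b.card <;> simp [hi, hb]

theorem colOdd_prod (a b : Finset (Fin S)) :
    colOdd (a ×ˢ b) = if Odd a.card then b else ∅ := by
  ext l
  have h : ((a ×ˢ b).filter fun p => p.2 = l) = a ×ˢ (b.filter fun j => j = l) :=
    filter_product_right (fun j => j = l)
  simp only [colOdd, mem_filter, mem_univ, true_and, h, card_product, filter_eq']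
  by_cases hl : l ∈ b <;> by_cases ha : Odd a.card <;> simp [hl, ha]

theorem expand_sg_pow (u : ℤˣ) (n : ℕ) : sg u ^ n = if Odd n then sg u else 1 := by
  split_ifs with h
  · obtain ⟨k, rfl⟩ := h
    rw [pow_succ, pow_mul, sg_sq, one_pow, one_mul]
  · obtain ⟨k, rfl⟩ := Nat.not_odd_iff_even.1 h
    rw [← two_mul, pow_mul, sg_sq, one_pow]

theorem expand_prod_sg (c : Finset (Fin S × Fin S)) (g : Fin S × Fin S → Fin S) (ε : Cube S) :
    ∏ p ∈ c, sg (ε (g p)) =
      wal (univ.filter fun i => Odd (c.filter fun p => g p = i).card) ε := by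
  rw [← prod_fiberwise c g, wal, prod_filter]
  refine prod_congr rfl fun i _ => ?_
  rw [← expand_sg_pow, ← prod_const]
  refine prod_congr rfl fun p hp => ?_
  rw [(mem_filter.1 hp).2]

theorem expand_coef_sq {α : Type} [Fintype α] [Nonempty α] {F : α → Ω → Cube S → E} {A : ℝ}
    (hA : 0 ≤ A) (hF : ∀ x, (avg fun ω => avg fun ε => ‖F x ω ε‖ ^ 2) ≤ A ^ 2)
    (r : Finset (Fin S)) : √(avg fun ω => l2 (fun x => coef (F x ω) r) ^ 2) ≤ A := by
  refine Real.sqrt_le_iff.2 ⟨hA, ?_⟩
  have h1 : (avg fun ω => l2 (fun x => coef (F x ω) r) ^ 2) ≤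
      avg fun ω => avg fun x => avg fun ε => ‖F x ω ε‖ ^ 2 := by
    refine avg_mono fun ω => ?_
    rw [l2_sq]
    exact avg_mono fun x => (pow_le_pow_left₀ (norm_nonneg _) (norm_coef_le _ r) 2).trans
      (le_of_eq (l2_sq _))
  refine h1.trans ?_
  rw [avg_comm]
  exact avg_le_const hF

omit [AddCommGroup V] [Fintype V] [AddCommGroup W] [Fintype W] in
theorem theta_expand (θ : Fin S × Fin S → ℝ) (χ : V → W → ℝ) (x : Fin S → V) (y : Fin S → W)
    (ε η : Cube S) : theta θ χ x y ε η =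
      ∑ c : Finset (Fin S × Fin S),
        (∏ p ∈ c, θ p) * (wal (rowOdd c) ε * wal (colOdd c) η * pat χ c x y) := by
  unfold theta
  rw [prod_one_add, powerset_univ]
  refine sum_congr rfl fun c _ => ?_
  rw [prod_mul_distrib, prod_mul_distrib, prod_mul_distrib, expand_prod_sg c Prod.fst,
    expand_prod_sg c Prod.snd]
  rfl

omit [AddCommGroup V] [AddCommGroup W] in
theorem pairI_expand (b : E →L[ℝ] E' →L[ℝ] ℝ) (χ : V → W → ℝ) (θ : Fin S × Fin S → ℝ)
    (F : (Fin S → V) → Ω → Cube S → E) (G : (Fin S → W) → Ω → Cube S → E') :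
    pairI b χ θ F G = ∑ c : Finset (Fin S × Fin S), (∏ p ∈ c, θ p) * kappa b χ F G c := by
  unfold pairI kappa
  simp only [theta_expand, sum_mul, avg_sum, ← avg_const_mul]
  refine sum_congr rfl fun c _ => avg_congr fun ω => avg_congr fun x => avg_congr fun y => ?_
  have h1 : b (coef (F x ω) (rowOdd c)) (coef (G y ω) (colOdd c)) =
      avg fun ε => avg fun η =>
        wal (rowOdd c) ε * wal (colOdd c) η * b (F x ω ε) (G y ω η) := by
    have h2 := map_avg (b.flip (coef (G y ω) (colOdd c)))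
      fun ε => wal (rowOdd c) ε • F x ω ε
    simp only [ContinuousLinearMap.flip_apply] at h2
    refine h2.trans (avg_congr fun ε => ?_)
    refine (map_avg (b (wal (rowOdd c) ε • F x ω ε))
      fun η => wal (colOdd c) η • G y ω η).trans (avg_congr fun η => ?_)
    simp only [map_smul, ContinuousLinearMap.smul_apply, smul_eq_mul]
    ring
  rw [h1, ← mul_assoc, ← avg_const_mul]
  refine avg_congr fun ε => ?_
  rw [← avg_const_mul]
  refine avg_congr fun η => ?_
  ring

theorem kappa_bound {b : E →L[ℝ] E' →L[ℝ] ℝ} {β Ψ : ℝ} (hb : WB b β Ψ) (hΨ : 0 ≤ Ψ)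
    {χ : V → W → ℝ} (hχ : IsBi χ) {F : (Fin S → V) → Ω → Cube S → E}
    {G : (Fin S → W) → Ω → Cube S → E'} {A A' : ℝ} (hA : 0 ≤ A) (hA' : 0 ≤ A')
    (hF : ∀ x, (avg fun ω => avg fun ε => ‖F x ω ε‖ ^ 2) ≤ A ^ 2)
    (hG : ∀ y, (avg fun ω => avg fun η => ‖G y ω η‖ ^ 2) ≤ A' ^ 2)
    (c : Finset (Fin S × Fin S)) :
    |kappa b χ F G c| ≤ Ψ * bias (pat χ c) ^ β * A * A' := by
  have hp := hχ.pat c
  have h0 : 0 ≤ Ψ * bias (pat χ c) ^ β := mul_nonneg hΨ (Real.rpow_nonneg hp.bias_pos.le _)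
  unfold kappa
  refine (abs_avg_le _).trans ?_
  refine (avg_mono (g := fun ω => Ψ * bias (pat χ c) ^ β *
    (l2 (fun x => coef (F x ω) (rowOdd c)) * l2 (fun y => coef (G y ω) (colOdd c))))
      fun ω => ?_).trans ?_
  · rw [← mul_assoc]
    exact hb _ _ (pat χ c) hp _ _
  · rw [avg_const_mul, mul_assoc _ A A']
    refine mul_le_mul_of_nonneg_left ((avg_mul_le_sqrt _ _).trans ?_) h0
    exact mul_le_mul (expand_coef_sq hA hF _) (expand_coef_sq hA' hG _) (Real.sqrt_nonneg _) hA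

end Vale.Agent.P111
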