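import Vale.Agent.P111.Weight
import Vale.Agent.P111.CharB

/-!
The fibre bound: the Riesz product pairing is controlled by Walsh pairings on annihilators.

Plan. Write `Θ(k) = ∏ p, (1 + θ p * k p) ≥ 0`, `k p = ε_i η_l χ(x_i, y_l)`,
`Θo k = (Θ k - Θ (-k)) / 2`, `Θe k = (Θ k + Θ (-k)) / 2`, `|Θo| ≤ Θe`, `Θo (-k) = -Θo k`,
`Θe (-k) = Θe k`.
1. `F` is odd in `ε`, so (`avg_neg_arg`) `pairI = avg Θo(k) * b (F x ω ε) (G y ω η)`.
2. Re-randomisation (prove it as a lemma `reavg`): for every `Φ : (Fin S → V) → (Fin S → W) → ℝ`,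
   `avg x y, Φ x y = avg a b, avg X0 Y0, avg (X : kerL hχ b) (Y : kerR hχ a),
      Φ (a + const (X0 + X)) (b + const (Y0 + Y))`
   (translation invariance: first `x = a + const X0'`, `y = b + const Y0'`, and then for fixed
   `a b`, `X0' = X0 + X`, `Y0' = Y0 + Y`).
   For `X ∈ kerL`, `Y ∈ kerR`:
   `χ (a i + (X0 + X)) (b l + (Y0 + Y)) = χ (a i + X0) (b l + Y0) * (χ X0 Y * χ X Y0 * χ X Y)`,
   so `Θo k = σ * Θo k0` and `Θe k = Θe k0` with `σ = χ X0 Y * χ X Y0 * χ X Y = ±1`, where `k0`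
   does not depend on `X, Y`.
3. For fixed `ω a b X0 Y0 ε η` apply `WB` to the restricted bicharacter (`IsBi.restrict`,
   `Fintype.ofFinite`) with `f X = χ X Y0 • F (a + const (X0 + X)) ω ε`,
   `g Y = χ X0 Y • G (b + const (Y0 + Y)) ω η`; `bias_restrict` and `(4^S)^β ≤ 2` bound the bias
   factor by `2 * bias χ ^ β`. Use `l2 f * l2 g ≤ (t * l2 f ^ 2 + l2 g ^ 2 / t) / 2` or
   Cauchy-Schwarz with the weight `Θe k0`, and undo the re-randomisation: it remains to bound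
   `avg Θe(k) * ‖F x ω ε‖^2 = avg Θ(k) * ‖F x ω ε‖^2` (substitute `η ↦ -η`) and the same for `G`
   (substitute `ε ↦ -ε`).
4. These two bounds are `weight_left` and `weight_right`.
-/

namespace Vale.Agent.P111

open Finset

variable {E E' : Type*} [NormedAddCommGroup E] [NormedSpace ℝ E] [NormedAddCommGroup E']
  [NormedSpace ℝ E'] {V W Ω : Type} [AddCommGroup V] [Fintype V] [AddCommGroup W] [Fintype W]
  [Fintype Ω] {S : ℕ}

theorem fib_shift1 {U : Type} [AddCommGroup U] [Fintype U] (L : AddSubgroup U) [Fintype L]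
    (Φ : U → ℝ) : avg Φ = avg fun X0 : U => avg fun X : L => Φ (X0 + X) := by
  rw [avg_comm, avg_congr fun X : L => avg_add_right (X : U) Φ, avg_const]

theorem fib_shift2 {U : Type} [AddCommGroup U] [Fintype U] (Φ : (Fin S → U) → ℝ) :
    avg Φ = avg fun a : Fin S → U => avg fun X0 : U => Φ (a + fun _ => X0) := by
  rw [avg_comm, avg_congr fun X0 : U => avg_add_right (fun _ : Fin S => X0) Φ, avg_const]

theorem reavg (L : (Fin S → W) → AddSubgroup V) (R : (Fin S → V) → AddSubgroup W)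
    [∀ b, Fintype (L b)] [∀ a, Fintype (R a)] (Φ : (Fin S → V) → (Fin S → W) → ℝ) :
    (avg fun x => avg fun y => Φ x y) =
      avg fun a => avg fun b => avg fun X0 : V => avg fun Y0 : W =>
        avg fun X : L b => avg fun Y : R a =>
          Φ (a + fun _ => X0 + X) (b + fun _ => Y0 + Y) := by
  rw [fib_shift2]
  refine avg_congr fun a => ?_
  rw [avg_congr fun X0 : V => fib_shift2 fun y => Φ (a + fun _ => X0) y, avg_comm]
  refine avg_congr fun b => ?_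
  rw [fib_shift1 (L b)]
  refine avg_congr fun X0 => ?_
  rw [avg_congr fun X : L b =>
    fib_shift1 (R a) fun Y0 : W => Φ (a + fun _ => X0 + X) (b + fun _ => Y0), avg_comm]

omit [Fintype V] [Fintype W] in
theorem fib_chi {χ : V → W → ℝ} (hχ : IsBi χ) (a : Fin S → V) (b : Fin S → W) (X0 : V) (Y0 : W)
    (X : kerL hχ b) (Y : kerR hχ a) (i l : Fin S) :
    χ (a i + (X0 + X)) (b l + (Y0 + Y)) =
      χ (a i + X0) (b l + Y0) * (χ X0 Y * χ X Y0 * χ X Y) := by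
  have h1 : χ X (b l) = 1 := X.2 l
  have h2 : χ (a i) Y = 1 := Y.2 i
  simp only [hχ.add_left, hχ.add_right, h1, h2]
  ring

omit [AddCommGroup V] [Fintype V] [AddCommGroup W] [Fintype W] in
theorem fib_theta_nonneg {χ : V → W → ℝ} (hχ : ∀ x y, |χ x y| = 1) {θ : Fin S × Fin S → ℝ}
    (hθ : ∀ p, 0 ≤ θ p ∧ θ p ≤ 1) (x : Fin S → V) (y : Fin S → W) (ε η : Cube S) :
    0 ≤ theta θ χ x y ε η := by
  refine prod_nonneg fun p _ => ?_
  have h1 : |sg (ε p.1) * sg (η p.2) * χ (x p.1) (y p.2)| = 1 := by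
    rw [abs_mul, abs_mul, abs_sg, abs_sg, hχ]; norm_num
  have h2 := neg_abs_le (sg (ε p.1) * sg (η p.2) * χ (x p.1) (y p.2))
  rw [h1] at h2
  nlinarith [(hθ p).1, (hθ p).2]

omit [AddCommGroup V] [Fintype V] [AddCommGroup W] [Fintype W] in
theorem fib_theta_neg (θ : Fin S × Fin S → ℝ) (χ : V → W → ℝ) (x : Fin S → V) (y : Fin S → W)
    (ε η : Cube S) : theta θ χ x y (-ε) η = theta θ χ x y ε (-η) := by
  simp only [theta, Pi.neg_apply, sg_neg, neg_mul, mul_neg]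

omit [AddCommGroup V] [Fintype V] [AddCommGroup W] [Fintype W] in
theorem fib_theta_sign (θ : Fin S × Fin S → ℝ) (χ : V → W → ℝ) {x x' : Fin S → V}
    {y y' : Fin S → W} {σ : ℝ} (hσ : σ = 1 ∨ σ = -1)
    (h : ∀ i l, χ (x i) (y l) = χ (x' i) (y' l) * σ) (ε η : Cube S) :
    theta θ χ x y ε η - theta θ χ x y (-ε) η =
      σ * (theta θ χ x' y' ε η - theta θ χ x' y' (-ε) η) ∧
    theta θ χ x y ε η + theta θ χ x y (-ε) η =
      theta θ χ x' y' ε η + theta θ χ x' y' (-ε) η := by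
  rcases hσ with rfl | rfl
  · simp only [theta, h, mul_one, one_mul, and_self]
  · simp only [theta, h, Pi.neg_apply, sg_neg, neg_mul, mul_neg, mul_one, neg_neg, one_mul]
    constructor <;> ring

theorem fib_amgm {I K A B : ℝ} (hK : 0 ≤ K) (hA : 0 ≤ A) (hB : 0 ≤ B)
    (h : ∀ t : ℝ, 0 < t → I ≤ K * (t * A ^ 2 + t⁻¹ * B ^ 2)) : I ≤ 2 * K * A * B := by
  have h1 : ∀ δ : ℝ, 0 < δ → I ≤ 2 * K * (A + δ) * (B + δ) := by
    intro δ hδ
    have hA' : 0 < A + δ := by linarith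
    have hB' : 0 < B + δ := by linarith
    refine (h ((B + δ) / (A + δ)) (by positivity)).trans ?_
    have e1 : (B + δ) / (A + δ) * A ^ 2 ≤ (A + δ) * (B + δ) := by
      rw [div_mul_eq_mul_div, div_le_iff₀ hA']
      have : A ^ 2 ≤ (A + δ) ^ 2 := pow_le_pow_left₀ hA (by linarith) 2
      nlinarith
    have e2 : ((B + δ) / (A + δ))⁻¹ * B ^ 2 ≤ (A + δ) * (B + δ) := by
      rw [inv_div, div_mul_eq_mul_div, div_le_iff₀ hB']
      have : B ^ 2 ≤ (B + δ) ^ 2 := pow_le_pow_left₀ hB (by linarith) 2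
      nlinarith
    nlinarith [mul_le_mul_of_nonneg_left (add_le_add e1 e2) hK]
  have h2 : Filter.Tendsto (fun δ : ℝ => 2 * K * (A + δ) * (B + δ)) (nhdsWithin 0 (Set.Ioi 0))
      (nhds (2 * K * (A + 0) * (B + 0))) :=
    (Continuous.tendsto (by fun_prop) 0).mono_left nhdsWithin_le_nhds
  rw [add_zero, add_zero] at h2
  exact ge_of_tendsto h2 (Filter.eventually_of_mem self_mem_nhdsWithin fun δ hδ => h1 δ hδ)

theorem fib_core {b : E →L[ℝ] E' →L[ℝ] ℝ} {β Ψ : ℝ} (hb : WB b β Ψ) (hΨ : 0 ≤ Ψ)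
    (hβ : 0 ≤ β) (hβ4 : ((4 : ℝ) ^ S) ^ β ≤ 2) {χ : V → W → ℝ} (hχ : IsBi χ)
    {θ : Fin S × Fin S → ℝ} (hθ : ∀ p, 0 ≤ θ p ∧ θ p ≤ 1) (ε η : Cube S)
    (f : (Fin S → V) → E) (g : (Fin S → W) → E') {t : ℝ} (ht : 0 < t) :
    |avg fun x => avg fun y => (theta θ χ x y ε η - theta θ χ x y (-ε) η) * b (f x) (g y)| ≤
      Ψ * bias χ ^ β * avg fun x => avg fun y =>
        (theta θ χ x y ε η + theta θ χ x y (-ε) η) * (t * ‖f x‖ ^ 2 + t⁻¹ * ‖g y‖ ^ 2) := by
  letI : ∀ c : Fin S → W, Fintype (kerL hχ c) := fun c => Fintype.ofFinite _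
  letI : ∀ a : Fin S → V, Fintype (kerR hχ a) := fun a => Fintype.ofFinite _
  rw [reavg (kerL hχ) (kerR hχ) fun x y =>
      (theta θ χ x y ε η - theta θ χ x y (-ε) η) * b (f x) (g y),
    reavg (kerL hχ) (kerR hχ) fun x y => (theta θ χ x y ε η + theta θ χ x y (-ε) η) *
      (t * ‖f x‖ ^ 2 + t⁻¹ * ‖g y‖ ^ 2), ← avg_const_mul]
  refine (abs_avg_le _).trans (avg_mono fun a => ?_)
  rw [← avg_const_mul]
  refine (abs_avg_le _).trans (avg_mono fun c => ?_)
  rw [← avg_const_mul]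
  refine (abs_avg_le _).trans (avg_mono fun X0 => ?_)
  rw [← avg_const_mul]
  refine (abs_avg_le _).trans (avg_mono fun Y0 => ?_)
  have hs : ∀ (X : kerL hχ c) (Y : kerR hχ a), _ := fun X Y =>
    fib_theta_sign θ χ (x := a + fun _ => X0 + X) (x' := a + fun _ => X0)
      (y := c + fun _ => Y0 + Y) (y' := c + fun _ => Y0) (σ := χ X0 Y * χ X Y0 * χ X Y)
      (by
        rcases hχ.cases X0 Y with h1 | h1 <;> rcases hχ.cases X Y0 with h2 | h2 <;>
          rcases hχ.cases X Y with h3 | h3 <;> simp [h1, h2, h3])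
      (fun i l => fib_chi hχ a c X0 Y0 X Y i l) ε η
  simp only [(hs _ _).1, (hs _ _).2]
  have hp := fib_theta_nonneg hχ.abs_eq hθ (a + fun _ => X0) (c + fun _ => Y0) ε η
  have hm := fib_theta_nonneg hχ.abs_eq hθ (a + fun _ => X0) (c + fun _ => Y0) (-ε) η
  generalize theta θ χ (a + fun _ => X0) (c + fun _ => Y0) ε η = P at hp
  generalize theta θ χ (a + fun _ => X0) (c + fun _ => Y0) (-ε) η = Q at hm
  let f' : kerL hχ c → E := fun X => χ X Y0 • f (a + fun _ => X0 + X)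
  let g' : kerR hχ a → E' := fun Y => χ X0 Y • g (c + fun _ => Y0 + Y)
  have h1 := hb (kerL hχ c) (kerR hχ a) _ (hχ.restrict _ _) f' g'
  have h2 : (avg fun X : kerL hχ c => avg fun Y : kerR hχ a =>
      χ X0 Y * χ X Y0 * χ X Y * (P - Q) *
        b (f (a + fun _ => X0 + X)) (g (c + fun _ => Y0 + Y))) =
      (P - Q) * avg fun X : kerL hχ c => avg fun Y : kerR hχ a => χ X Y * b (f' X) (g' Y) := by
    rw [← avg_const_mul]
    refine avg_congr fun X => ?_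
    rw [← avg_const_mul]
    refine avg_congr fun Y => ?_
    simp only [f', g', map_smul, ContinuousLinearMap.smul_apply, smul_eq_mul]
    ring
  have h3 : (avg fun X : kerL hχ c => avg fun Y : kerR hχ a =>
      (P + Q) * (t * ‖f (a + fun _ => X0 + X)‖ ^ 2 + t⁻¹ * ‖g (c + fun _ => Y0 + Y)‖ ^ 2)) =
      (P + Q) * (t * l2 f' ^ 2 + t⁻¹ * l2 g' ^ 2) := by
    simp only [avg_const_mul, avg_add, avg_const, l2_sq, f', g', norm_smul, Real.norm_eq_abs,
      hχ.abs_eq, one_mul]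
  rw [h2, h3, abs_mul]
  have h4 : bias (fun (X : kerL hχ c) (Y : kerR hχ a) => χ X Y) ^ β ≤ 2 * bias χ ^ β := by
    refine (Real.rpow_le_rpow (hχ.restrict _ _).bias_pos.le (hχ.bias_restrict a c) hβ).trans ?_
    rw [Real.mul_rpow (by positivity) hχ.bias_pos.le]
    exact mul_le_mul_of_nonneg_right hβ4 (Real.rpow_nonneg hχ.bias_pos.le β)
  have h5 : 2 * (l2 f' * l2 g') ≤ t * l2 f' ^ 2 + t⁻¹ * l2 g' ^ 2 := by
    have h6 : t * l2 f' ^ 2 + t⁻¹ * l2 g' ^ 2 - 2 * (l2 f' * l2 g') =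
        t⁻¹ * (t * l2 f' - l2 g') ^ 2 := by
      field_simp
      ring
    have : 0 ≤ t⁻¹ * (t * l2 f' - l2 g') ^ 2 := by positivity
    linarith
  have h7 : |P - Q| ≤ P + Q := abs_le.2 ⟨by linarith, by linarith⟩
  have hl : 0 ≤ l2 f' * l2 g' := mul_nonneg (l2_nonneg _) (l2_nonneg _)
  have hbp : 0 ≤ bias χ ^ β := Real.rpow_nonneg hχ.bias_pos.le β
  have h8 : |avg fun X : kerL hχ c => avg fun Y : kerR hχ a => χ X Y * b (f' X) (g' Y)| ≤
      Ψ * bias χ ^ β * (t * l2 f' ^ 2 + t⁻¹ * l2 g' ^ 2) := by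
    refine h1.trans ?_
    calc _ = Ψ * (bias (fun (X : kerL hχ c) (Y : kerR hχ a) => χ X Y) ^ β * (l2 f' * l2 g')) := by
          ring
      _ ≤ Ψ * (2 * bias χ ^ β * (l2 f' * l2 g')) :=
          mul_le_mul_of_nonneg_left (mul_le_mul_of_nonneg_right h4 hl) hΨ
      _ = Ψ * bias χ ^ β * (2 * (l2 f' * l2 g')) := by ring
      _ ≤ _ := mul_le_mul_of_nonneg_left h5 (mul_nonneg hΨ hbp)
  calc _ ≤ (P + Q) * (Ψ * bias χ ^ β * (t * l2 f' ^ 2 + t⁻¹ * l2 g' ^ 2)) :=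
        mul_le_mul h7 h8 (abs_nonneg _) (by linarith)
    _ = _ := by ring

theorem fiber_bound {b : E →L[ℝ] E' →L[ℝ] ℝ} {β Ψ : ℝ} (hb : WB b β Ψ) (hΨ : 0 ≤ Ψ)
    (hβ : 0 ≤ β) (hβ4 : ((4 : ℝ) ^ S) ^ β ≤ 2) {χ : V → W → ℝ} (hχ : IsBi χ)
    {θ : Fin S × Fin S → ℝ} (hθ : ∀ p, 0 ≤ θ p ∧ θ p ≤ 1) (hδ : 2 ^ (S * S) * bias χ ≤ 1)
    {F : (Fin S → V) → Ω → Cube S → E} {G : (Fin S → W) → Ω → Cube S → E'} {A A' : ℝ}
    (hA : 0 ≤ A) (hA' : 0 ≤ A') (hodd : ∀ x ω ε, F x ω (-ε) = -F x ω ε)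
    (hF : ∀ x, (avg fun ω => avg fun ε => ‖F x ω ε‖ ^ 2) ≤ A ^ 2)
    (hG : ∀ y, (avg fun ω => avg fun η => ‖G y ω η‖ ^ 2) ≤ A' ^ 2) :
    |pairI b χ θ F G| ≤ 4 * Ψ * bias χ ^ β * A * A' := by
  have hbp : 0 ≤ bias χ ^ β := Real.rpow_nonneg hχ.bias_pos.le β
  have hK : 0 ≤ 2 * (Ψ * bias χ ^ β) := by positivity
  have key := fib_amgm (I := |pairI b χ θ F G|) hK hA hA' fun t ht => ?_
  · linarith
  have e1 : 2 * pairI b χ θ F G = avg fun ω => avg fun ε => avg fun η =>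
      avg fun x => avg fun y =>
        (theta θ χ x y ε η - theta θ χ x y (-ε) η) * b (F x ω ε) (G y ω η) := by
    unfold pairI
    rw [← avg_const_mul]
    refine avg_congr fun ω => ?_
    have a1 : ∀ x y, 2 * (avg fun ε => avg fun η => theta θ χ x y ε η * b (F x ω ε) (G y ω η)) =
        avg fun ε => avg fun η =>
          (theta θ χ x y ε η - theta θ χ x y (-ε) η) * b (F x ω ε) (G y ω η) := by
      intro x y
      have a2 := avg_neg_arg fun ε : Cube S =>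
        avg fun η => theta θ χ x y ε η * b (F x ω ε) (G y ω η)
      simp only [hodd, map_neg, ContinuousLinearMap.neg_apply, mul_neg, avg_neg] at a2
      simp only [sub_mul, avg_sub]
      linarith
    simp only [← avg_const_mul (ι := Fin S → V), ← avg_const_mul (ι := Fin S → W), a1]
    rw [avg_congr fun x => avg_comm _, avg_comm]
    refine avg_congr fun ε => ?_
    rw [avg_congr fun x => avg_comm _, avg_comm]
  have e2 : ∀ H : Ω → (Fin S → V) → (Fin S → W) → Cube S → Cube S → ℝ,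
      (avg fun ω => avg fun ε => avg fun η => avg fun x => avg fun y => H ω x y ε η) =
      avg fun ω => avg fun x => avg fun y => avg fun ε => avg fun η => H ω x y ε η := by
    intro H
    refine avg_congr fun ω => ?_
    symm
    rw [avg_congr fun x => avg_comm _, avg_comm]
    refine avg_congr fun ε => ?_
    rw [avg_congr fun x => avg_comm _, avg_comm]
  have e3 : |2 * pairI b χ θ F G| ≤ Ψ * bias χ ^ β * avg fun ω => avg fun ε => avg fun η =>
      avg fun x => avg fun y => (theta θ χ x y ε η + theta θ χ x y (-ε) η) *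
        (t * ‖F x ω ε‖ ^ 2 + t⁻¹ * ‖G y ω η‖ ^ 2) := by
    rw [e1, ← avg_const_mul]
    refine (abs_avg_le _).trans (avg_mono fun ω => ?_)
    rw [← avg_const_mul]
    refine (abs_avg_le _).trans (avg_mono fun ε => ?_)
    rw [← avg_const_mul]
    refine (abs_avg_le _).trans (avg_mono fun η => ?_)
    exact fib_core hb hΨ hβ hβ4 hχ hθ ε η (fun x => F x ω ε) (fun y => G y ω η) ht
  have wl := weight_left hχ hθ hδ (fun x ω ε => ‖F x ω ε‖ ^ 2) (fun _ _ _ => sq_nonneg _) hF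
  have wr := weight_right hχ hθ hδ (fun y ω η => ‖G y ω η‖ ^ 2) (fun _ _ _ => sq_nonneg _) hG
  have e4 : (avg fun ω => avg fun ε => avg fun η =>
      avg fun x => avg fun y => (theta θ χ x y ε η + theta θ χ x y (-ε) η) *
        (t * ‖F x ω ε‖ ^ 2 + t⁻¹ * ‖G y ω η‖ ^ 2)) =
      2 * t * (avg fun ω => avg fun x => avg fun y => avg fun ε => avg fun η =>
        theta θ χ x y ε η * ‖F x ω ε‖ ^ 2) +
      2 * t⁻¹ * (avg fun ω => avg fun x => avg fun y => avg fun ε => avg fun η =>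
        theta θ χ x y ε η * ‖G y ω η‖ ^ 2) := by
    rw [e2]
    simp only [← avg_const_mul (ι := Fin S → V), ← avg_const_mul (ι := Fin S → W),
      ← avg_const_mul (ι := Ω), ← avg_add (ι := Fin S → V), ← avg_add (ι := Fin S → W),
      ← avg_add (ι := Ω)]
    refine avg_congr fun ω => avg_congr fun x => avg_congr fun y => ?_
    have a1 : (avg fun ε => avg fun η => theta θ χ x y (-ε) η * ‖F x ω ε‖ ^ 2) =
        avg fun ε => avg fun η => theta θ χ x y ε η * ‖F x ω ε‖ ^ 2 := by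
      refine avg_congr fun ε => ?_
      simp only [fib_theta_neg]
      exact avg_neg_arg fun η : Cube S => theta θ χ x y ε η * ‖F x ω ε‖ ^ 2
    have a2 : (avg fun ε => avg fun η => theta θ χ x y (-ε) η * ‖G y ω η‖ ^ 2) =
        avg fun ε => avg fun η => theta θ χ x y ε η * ‖G y ω η‖ ^ 2 :=
      avg_neg_arg fun ε : Cube S => avg fun η => theta θ χ x y ε η * ‖G y ω η‖ ^ 2
    have a3 : ∀ ε η, (theta θ χ x y ε η + theta θ χ x y (-ε) η) *
        (t * ‖F x ω ε‖ ^ 2 + t⁻¹ * ‖G y ω η‖ ^ 2) =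
        t * (theta θ χ x y ε η * ‖F x ω ε‖ ^ 2) + t * (theta θ χ x y (-ε) η * ‖F x ω ε‖ ^ 2) +
        t⁻¹ * (theta θ χ x y ε η * ‖G y ω η‖ ^ 2) +
          t⁻¹ * (theta θ χ x y (-ε) η * ‖G y ω η‖ ^ 2) := fun ε η => by ring
    simp only [a3, avg_add, avg_const_mul, a1, a2]
    ring
  rw [e4, abs_mul, abs_two] at e3
  have hti : 0 < t⁻¹ := inv_pos.2 ht
  have e5 := mul_le_mul_of_nonneg_left (add_le_add
    (mul_le_mul_of_nonneg_left wl (by positivity : (0 : ℝ) ≤ 2 * t))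
    (mul_le_mul_of_nonneg_left wr (by positivity : (0 : ℝ) ≤ 2 * t⁻¹))) (mul_nonneg hΨ hbp)
  linarith

end Vale.Agent.P111
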