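import Vale.Agent.P111.Mult

/-!
Killing the Walsh degrees `0, 2, …, J - 1` of a lift at a cost depending only on `J`.

Plan. Nodes `θ j = j / J`, `j : Fin J`, are distinct points of `[0,1]`; invertibility of the
Vandermonde matrix (`Matrix.det_vandermonde_ne_zero_iff`) gives `w : Fin J → ℝ` with
`∑ j, w j * θ j ^ h = if h = 1 then 1 else 0` for all `h < J`. Put `c = ∑ j, |w j|`,
`F' ε = ∑ j, w j • mult (θ j ^ ·) F ε` (`coef_smult`, `l2_mult_pow_le`, `l2_sum_le`, `l2_smul`),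
`F'' ε = (1/2) • (F' ε - F' (-ε))`; `coef (fun ε => F' (-ε)) a = (-1)^a.card • coef F' a`
by `avg_neg_arg` and `wal_neg`.
-/

namespace Vale.Agent.P111

open Finset

universe u

theorem exists_filter (J : ℕ) (hJ : 2 ≤ J) : ∃ c : ℝ, 0 ≤ c ∧
    ∀ (E : Type u) [NormedAddCommGroup E] [NormedSpace ℝ E] (S : ℕ) (A : ℝ),
      Lift E S A → LiftJ E S J (c * A) := by
  have hJ0 : (0 : ℝ) < J := Nat.cast_pos.2 (by omega)
  let θ : Fin J → ℝ := fun j => (j : ℝ) / J
  have hinj : Function.Injective θ := fun i j h => by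
    have := (div_left_inj' hJ0.ne').1 h
    exact Fin.ext (by exact_mod_cast this)
  have hU : IsUnit (Matrix.vandermonde θ) := (Matrix.isUnit_iff_isUnit_det _).2
    (Matrix.det_vandermonde_ne_zero_iff.2 hinj).isUnit
  obtain ⟨w, hw⟩ := Matrix.vecMul_surjective_iff_isUnit.2 hU
    fun k => if (k : ℕ) = 1 then 1 else 0
  have hw' : ∀ k < J, ∑ j, w j * θ j ^ k = if k = 1 then 1 else 0 := fun k hk =>
    congrFun hw ⟨k, hk⟩
  refine ⟨∑ j, |w j|, sum_nonneg fun _ _ => abs_nonneg _, fun E _ _ S A hL x => ?_⟩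
  obtain ⟨F, h1, h2⟩ := hL x
  set F' : Cube S → E := fun ε => ∑ j, w j • mult (fun k => θ j ^ k) F ε with hF'
  have h3 : ∀ a, coef F' a = (∑ j, w j * θ j ^ a.card) • coef F a := fun a => by
    rw [hF', coef_sum, sum_smul]
    exact sum_congr rfl fun j _ => by rw [coef_smul, mult, coef_smult, smul_smul]
  have h4 : l2 F' ≤ (∑ j, |w j|) * l2 F := by
    refine (l2_sum_le _ fun j ε => w j • mult (fun k => θ j ^ k) F ε).trans ?_
    rw [sum_mul]
    refine sum_le_sum fun j _ => ?_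
    rw [l2_smul]
    refine mul_le_mul_of_nonneg_left (l2_mult_pow_le (by positivity) ?_ F) (abs_nonneg _)
    rw [div_le_one hJ0]
    exact_mod_cast j.2.le
  have h5 : ∀ a, coef (fun ε => F' (-ε)) a = (-1 : ℝ) ^ a.card • coef F' a := fun a => by
    rw [coef, coef, ← avg_smul, ← avg_neg_arg]
    exact avg_congr fun ε => by rw [neg_neg, wal_neg, mul_smul]
  have h6 : ∀ a, coef (fun ε => (1 / 2 : ℝ) • F' ε + (-(1 / 2) : ℝ) • F' (-ε)) a =
      ((1 - (-1) ^ a.card) / 2 * ∑ j, w j * θ j ^ a.card) • coef F a := fun a => by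
    rw [coef_add, coef_smul, coef_smul, h5, h3, smul_smul, smul_smul, smul_smul, ← add_smul]
    congr 1
    ring
  refine ⟨fun ε => (1 / 2 : ℝ) • F' ε + (-(1 / 2) : ℝ) • F' (-ε), fun i => ?_, fun a ha ha' => ?_,
    fun ε => ?_, (l2_add_le _ _).trans ?_⟩
  · rw [h6, card_singleton, hw' 1 (by omega), h1]
    norm_num
  · rw [h6, hw' _ ha', if_neg ha, mul_zero, zero_smul]
  · simp only [neg_neg, neg_smul]
    abel
  · have h7 : l2 (fun ε => F' (-ε)) = l2 F' := by
      unfold l2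
      rw [avg_neg_arg fun ε => ‖F' ε‖ ^ 2]
    rw [l2_smul, l2_smul, h7, abs_neg, abs_of_pos (by norm_num : (0 : ℝ) < 1 / 2), mul_assoc]
    have := mul_le_mul_of_nonneg_left h2 (sum_nonneg fun j (_ : j ∈ univ) => abs_nonneg (w j))
    linarith

end Vale.Agent.P111
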