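import Vale.Agent.P111.CharB

/-!
Finite rank operators satisfy an a priori Walsh bound.

`wb_finite_rank`: write `u = ∑ n, λ n ⊗ e n` (basis of the finite dimensional range, continuous
coordinate functionals composed with `u`), so `φ (u x) = ∑ n, λ n x * φ (e n)`; apply
`IsBi.scalar_bound` to each term, `l2_mono`, `l2_smul`, and `√δ = δ^(1/2) ≤ δ^β` for `0 < δ ≤ 1`.
-/

namespace Vale.Agent.P111

open Finset

variable {X : Type*} [NormedAddCommGroup X] [NormedSpace ℝ X]

/-- The bilinear form `(x, φ) ↦ φ (u x)`. -/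
noncomputable def evalForm (u : X →L[ℝ] X) : X →L[ℝ] StrongDual ℝ X →L[ℝ] ℝ :=
  (NormedSpace.inclusionInDoubleDual ℝ X).comp u

@[simp] theorem evalForm_apply (u : X →L[ℝ] X) (x : X) (φ : StrongDual ℝ X) :
    evalForm u x φ = φ (u x) := rfl

theorem finrank_decomp (u : X →L[ℝ] X)
    (hu : FiniteDimensional ℝ (LinearMap.range (u : X →ₗ[ℝ] X))) :
    ∃ (n : ℕ) (l : Fin n → X →L[ℝ] ℝ) (e : Fin n → X), ∀ x, u x = ∑ i, l i x • e i := by
  let R := LinearMap.range (u : X →ₗ[ℝ] X)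
  let B := Module.finBasis ℝ R
  let u' : X →L[ℝ] R := u.codRestrict R fun x => LinearMap.mem_range_self _ x
  refine ⟨Module.finrank ℝ R, fun i => (LinearMap.toContinuousLinearMap (B.coord i)).comp u',
    fun i => (B i : X), fun x => ?_⟩
  have h := congrArg Subtype.val (B.sum_repr (u' x))
  rw [Submodule.coe_sum] at h
  exact h.symm

theorem wb_finite_rank {β : ℝ} (hβ : β ≤ 1 / 2) (u : X →L[ℝ] X)
    (hu : FiniteDimensional ℝ (LinearMap.range (u : X →ₗ[ℝ] X))) :
    ∃ Ψ : ℝ, WB (evalForm u) β Ψ := by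
  obtain ⟨n, l, e, h⟩ := finrank_decomp u hu
  refine ⟨∑ i, ‖l i‖ * ‖e i‖, fun V W _ _ _ _ χ hχ f g => ?_⟩
  have h1 : (avg fun x => avg fun y => χ x y * evalForm u (f x) (g y)) =
      ∑ i, avg fun x => avg fun y => χ x y * (l i (f x) * g y (e i)) := by
    rw [← avg_sum]
    refine avg_congr fun x => ?_
    rw [← avg_sum]
    refine avg_congr fun y => ?_
    rw [evalForm_apply, h, map_sum, mul_sum]
    refine sum_congr rfl fun i _ => ?_
    rw [map_smul, smul_eq_mul]
  have hs : √(bias χ) ≤ bias χ ^ β := by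
    rw [Real.sqrt_eq_rpow]
    exact Real.rpow_le_rpow_of_exponent_ge hχ.bias_pos hχ.bias_le_one hβ
  have hb : 0 ≤ bias χ ^ β := Real.rpow_nonneg hχ.bias_pos.le _
  rw [h1, sum_mul, sum_mul, sum_mul]
  refine (abs_sum_le_sum_abs _ _).trans (sum_le_sum fun i _ => ?_)
  refine (hχ.scalar_bound _ _).trans ?_
  have h2 : l2 (fun x => l i (f x)) ≤ ‖l i‖ * l2 f := by
    have h3 := l2_smul ‖l i‖ f
    rw [abs_norm] at h3
    rw [← h3]
    refine l2_mono fun x => ?_
    rw [norm_smul, norm_norm]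
    exact (l i).le_opNorm _
  have h4 : l2 (fun y => g y (e i)) ≤ ‖e i‖ * l2 g := by
    have h3 := l2_smul ‖e i‖ g
    rw [abs_norm] at h3
    rw [← h3]
    refine l2_mono fun y => ?_
    rw [norm_smul, norm_norm, mul_comm]
    exact (g y).le_opNorm _
  calc √(bias χ) * l2 (fun x => l i (f x)) * l2 (fun y => g y (e i))
      ≤ bias χ ^ β * (‖l i‖ * l2 f) * (‖e i‖ * l2 g) :=
        mul_le_mul (mul_le_mul hs h2 (l2_nonneg _) hb) h4 (l2_nonneg _)
          (mul_nonneg hb (mul_nonneg (norm_nonneg _) (l2_nonneg _)))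
    _ = _ := by ring

end Vale.Agent.P111
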