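import Mathlib

/-!
A Fourier inversion identity.

Plan. `inversion`: `g x = (max x 0)^2 * exp (-c * max x 0)` is continuous and integrable, its
Fourier transform is `2 / (c + 2π i w)^3` (`Complex.integral_cpow_mul_exp_neg_mul_Ioi` with
`a = 3`), which is integrable (`‖·‖ ≤ const / (1 + w^2)`); Fourier inversion
(`Continuous.fourier_inversion` / `MeasureTheory.Integrable.fourier_inversion`) at `x = t`.
-/

namespace Vale.Agent.P111

open MeasureTheory Filter Set
open scoped FourierTransform Topology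

theorem inv_norm (z : ℂ) (n : ℕ) {x : ℝ} (hx : 0 ≤ x) :
    ‖(x : ℂ) ^ n * Complex.exp (-(z * x))‖ = x ^ (n : ℝ) * Real.exp (-z.re * x) := by
  rw [norm_mul, norm_pow, Complex.norm_real, Real.norm_of_nonneg hx, Complex.norm_exp,
    Real.rpow_natCast]
  simp

theorem inv_tendsto {z : ℂ} (hz : 0 < z.re) (n : ℕ) :
    Tendsto (fun x : ℝ => (x : ℂ) ^ n * Complex.exp (-(z * x))) atTop (𝓝 0) := by
  rw [tendsto_zero_iff_norm_tendsto_zero]
  refine (tendsto_rpow_mul_exp_neg_mul_atTop_nhds_zero n z.re hz).congr' ?_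
  filter_upwards [eventually_ge_atTop 0] with x hx
  exact (inv_norm z n hx).symm

theorem inv_int {z : ℂ} (hz : 0 < z.re) :
    IntegrableOn (fun x : ℝ => (x : ℂ) ^ 2 * Complex.exp (-(z * x))) (Ioi 0) := by
  refine Integrable.mono' (integrableOn_rpow_mul_exp_neg_mul_rpow (s := (2 : ℕ)) (p := 1)
    (by norm_num) one_pos hz) (Continuous.aestronglyMeasurable (by fun_prop)) ?_
  filter_upwards [ae_restrict_mem measurableSet_Ioi] with x hx
  rw [inv_norm z 2 (le_of_lt hx), Real.rpow_one]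

theorem inv_val {z : ℂ} (hz : 0 < z.re) :
    ∫ x in Ioi (0 : ℝ), (x : ℂ) ^ 2 * Complex.exp (-(z * x)) = 2 * z⁻¹ ^ 3 := by
  have hz0 : z ≠ 0 := fun h => by simp [h] at hz
  have hd : ∀ x ∈ Ici (0 : ℝ), HasDerivAt (fun x : ℝ =>
      -(z⁻¹ * ((x : ℂ) ^ 2 * Complex.exp (-(z * x))) +
        2 * z⁻¹ ^ 2 * ((x : ℂ) ^ 1 * Complex.exp (-(z * x))) +
        2 * z⁻¹ ^ 3 * ((x : ℂ) ^ 0 * Complex.exp (-(z * x)))))
      ((x : ℂ) ^ 2 * Complex.exp (-(z * x))) x := by
    intro x _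
    have h1 : HasDerivAt (fun w : ℂ => Complex.exp (-(z * w))) (Complex.exp (-(z * x)) * -(z * 1))
        (x : ℂ) := ((hasDerivAt_id (x : ℂ)).const_mul z).neg.cexp
    have h2 := fun n : ℕ => (hasDerivAt_pow n (x : ℂ)).mul h1
    have h3 := ((((h2 2).const_mul z⁻¹).add ((h2 1).const_mul (2 * z⁻¹ ^ 2))).add
      ((h2 0).const_mul (2 * z⁻¹ ^ 3))).neg.comp_ofReal
    refine h3.congr_deriv ?_
    simp only [Nat.cast_ofNat, Nat.cast_one, Nat.cast_zero]
    field_simp
    ring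
  have ht := ((((inv_tendsto hz 2).const_mul z⁻¹).add
    ((inv_tendsto hz 1).const_mul (2 * z⁻¹ ^ 2))).add
      ((inv_tendsto hz 0).const_mul (2 * z⁻¹ ^ 3))).neg
  rw [integral_Ioi_of_hasDerivAt_of_tendsto' hd (inv_int hz) ht]
  simp

theorem inv_hat {c : ℝ} (hc : 0 < c) :
    Integrable fun w : ℝ => 2 * (((c : ℂ) + (2 * Real.pi * w : ℝ) * Complex.I)⁻¹) ^ 3 := by
  have hne : ∀ w : ℝ, (c : ℂ) + (2 * Real.pi * w : ℝ) * Complex.I ≠ 0 := fun w h =>
    hc.ne' (by simpa using congrArg Complex.re h)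
  have hm : 0 < min (c ^ 2) 1 := lt_min (by positivity) one_pos
  refine (Integrable.mono' (integrable_inv_one_add_sq.const_mul (c * min (c ^ 2) 1)⁻¹)
    (Continuous.aestronglyMeasurable ((Continuous.inv₀ (by fun_prop) hne).pow 3))
    (Eventually.of_forall fun w => ?_)).const_mul 2
  have h1 : ‖(c : ℂ) + (2 * Real.pi * w : ℝ) * Complex.I‖ ^ 2 = c ^ 2 + (2 * Real.pi * w) ^ 2 := by
    rw [← Complex.normSq_eq_norm_sq, Complex.normSq_add_mul_I]
  have h2 : c ≤ ‖(c : ℂ) + (2 * Real.pi * w : ℝ) * Complex.I‖ :=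
    abs_le_of_sq_le_sq' (by rw [h1]; nlinarith [sq_nonneg (2 * Real.pi * w)]) (norm_nonneg _) |>.2
  have h3 : min (c ^ 2) 1 * (1 + w ^ 2) ≤ ‖(c : ℂ) + (2 * Real.pi * w : ℝ) * Complex.I‖ ^ 2 := by
    have h4 : 1 ≤ (2 * Real.pi) ^ 2 := one_le_pow₀ (by linarith [Real.pi_gt_three])
    rw [h1, mul_add, mul_one, mul_pow]
    exact add_le_add (min_le_left _ _)
      (mul_le_mul_of_nonneg_right ((min_le_right _ _).trans h4) (sq_nonneg w))
  rw [Pi.pow_apply, Pi.inv_apply, norm_pow, norm_inv, inv_pow, ← mul_inv]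
  refine inv_anti₀ (by positivity) ?_
  rw [pow_succ' _ 2, mul_assoc]
  exact mul_le_mul h2 h3 (by positivity) (norm_nonneg _)

theorem inversion {c t : ℝ} (hc : 0 < c) (ht : 0 < t) :
    MeasureTheory.Integrable (fun w : ℝ => Complex.exp (2 * Real.pi * w * t * Complex.I) *
      (2 * (((c : ℂ) + (2 * Real.pi * w : ℝ) * Complex.I)⁻¹) ^ 3)) ∧
    ∫ w : ℝ, Complex.exp (2 * Real.pi * w * t * Complex.I) *
      (2 * (((c : ℂ) + (2 * Real.pi * w : ℝ) * Complex.I)⁻¹) ^ 3) =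
      ((t ^ 2 * Real.exp (-(c * t)) : ℝ) : ℂ) := by
  refine ⟨(inv_hat hc).bdd_mul (c := 1) (Continuous.aestronglyMeasurable (by fun_prop))
    (Eventually.of_forall fun w => ?_), ?_⟩
  · rw [show (2 * Real.pi * w * t * Complex.I : ℂ) = ((2 * Real.pi * w * t : ℝ) : ℂ) * Complex.I by
      push_cast; ring, Complex.norm_exp_ofReal_mul_I]
  have hg : Integrable ((Ioi (0 : ℝ)).indicator
      fun x : ℝ => (x : ℂ) ^ 2 * Complex.exp (-((c : ℂ) * x))) :=
    (integrable_indicator_iff measurableSet_Ioi).2 (inv_int (by simpa using hc))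
  have hF : 𝓕 ((Ioi (0 : ℝ)).indicator fun x : ℝ => (x : ℂ) ^ 2 * Complex.exp (-((c : ℂ) * x))) =
      fun w : ℝ => 2 * (((c : ℂ) + (2 * Real.pi * w : ℝ) * Complex.I)⁻¹) ^ 3 := by
    funext w
    rw [Real.fourier_real_eq_integral_exp_smul, ← inv_val (by simpa using hc),
      ← integral_indicator measurableSet_Ioi]
    congr 1
    funext x
    by_cases hx : x ∈ Ioi (0 : ℝ)
    · rw [indicator_of_mem hx, indicator_of_mem hx, smul_eq_mul, mul_left_comm, ← Complex.exp_add]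
      congr 2
      push_cast
      ring
    · rw [indicator_of_notMem hx, indicator_of_notMem hx, smul_zero]
  have hC : ContinuousAt ((Ioi (0 : ℝ)).indicator
      fun x : ℝ => (x : ℂ) ^ 2 * Complex.exp (-((c : ℂ) * x))) t := by
    refine ContinuousAt.congr (f := fun x : ℝ => (x : ℂ) ^ 2 * Complex.exp (-((c : ℂ) * x)))
      (Continuous.continuousAt (by fun_prop)) ?_
    filter_upwards [Ioi_mem_nhds ht] with x hx
    rw [indicator_of_mem hx]
  have h := hg.fourierInv_fourier_eq (by rw [hF]; exact inv_hat hc) hC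
  rw [hF, Real.fourierInv_eq', indicator_of_mem (mem_Ioi.2 ht)] at h
  refine Eq.trans ?_ (h.trans (by push_cast; rfl))
  congr 1
  funext w
  rw [smul_eq_mul]
  congr 2
  simp
  ring

end Vale.Agent.P111
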