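import Vale.Agent.P111.Alg
import Vale.Agent.P111.Inversion

/-!
From the resolvent estimate to `‖Δ T_t‖ ≤ C / t`.

Plan. `kato_deriv`: `σ = 1/t`, `c = k + σ`, `m_w k = (k + σ + 2π w i)⁻¹`; multiply `inversion` by `k` and
take real parts: `t^2 exp (-1) * (k * exp (-t k)) = ∫ w, re (2 exp (2π i w t) * (k m_w k) * m_w k ^ 2)`.
`k m = 1 - (σ + iξ) m` gives `cN (k m) ≤ 1 + D`, so the `fc`-norm of the integrand is at most
`4 (1 + D) D^2 / (σ + |2π w|)^2 ≤ 4 (1 + D) D^2 / (σ^2 + w^2) = 4 (1+D) D^2 t^2 / (1 + (t w)^2)`,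
whose integral is `4 (1+D) D^2 π t` (`integral_univ_inv_one_add_sq`, `Measure.integral_comp_mul_left`).
`fc` commutes with the integral (finite sum, `integral_smul_const`, `integral_finset_sum`);
use `norm_integral_le_of_norm_le`.
-/

namespace Vale.Agent.P111

universe u

theorem kato_deriv {D : ℝ} (hD : 0 ≤ D) : ∃ C₁ : ℝ, 0 ≤ C₁ ∧
    ∀ (𝔸 : Type u) [NormedRing 𝔸] [NormedAlgebra ℝ 𝔸] [CompleteSpace 𝔸] (P : ℕ → 𝔸) (s : ℕ),
      Idem P → ‖fc P s fun _ => 1‖ ≤ 1 →
      (∀ σ ξ : ℝ, 0 < σ → cN P s (fun k => ((k : ℂ) + σ + ξ * Complex.I)⁻¹) ≤ D / (σ + |ξ|)) →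
      ∀ t : ℝ, 0 < t → ‖fc P s fun k => k * Real.exp (-(t * k))‖ ≤ C₁ / t := by
  refine ⟨Real.exp 1 * (4 * (1 + D) * D ^ 2 * Real.pi), by positivity,
    fun 𝔸 _ _ _ P s hP h1 h2 t ht => ?_⟩
  set m : ℝ → ℕ → ℂ := fun w k => ((k : ℂ) + (t⁻¹ : ℝ) + (2 * Real.pi * w : ℝ) * Complex.I)⁻¹ with hm
  set g : ℝ → ℕ → ℂ := fun w k => (2 * Complex.exp (2 * Real.pi * w * t * Complex.I)) *
    ((k * m w k) * (m w k * m w k)) with hg
  have hk : ∀ k : ℕ, MeasureTheory.Integrable (fun w => (g w k).re) ∧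
      ∫ w, (g w k).re = t ^ 2 * Real.exp (-1) * (k * Real.exp (-(t * k))) := by
    intro k
    obtain ⟨a, b⟩ := inversion (c := k + t⁻¹) (by positivity) ht
    have e : (fun w => g w k) = fun w : ℝ => (k : ℂ) * (Complex.exp (2 * Real.pi * w * t * Complex.I) *
        (2 * (((((k : ℝ) + t⁻¹ : ℝ) : ℂ) + (2 * Real.pi * w : ℝ) * Complex.I)⁻¹) ^ 3)) := by
      funext w
      simp only [hg, hm, Complex.ofReal_add, Complex.ofReal_natCast]
      ring
    have a' : MeasureTheory.Integrable fun w => g w k := by rw [e]; exact a.const_mul _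
    refine ⟨a'.re, ?_⟩
    have c := integral_re a'
    simp only [RCLike.re_to_complex] at c
    rw [c, e, MeasureTheory.integral_const_mul, b, ← Complex.ofReal_natCast, ← Complex.ofReal_mul,
      Complex.ofReal_re, show -((k + t⁻¹) * t) = -1 + -(t * k) by field_simp; ring, Real.exp_add]
    ring
  have hb : ∀ w, ‖fc P s fun k => (g w k).re‖ ≤ 4 * (1 + D) * D ^ 2 * t ^ 2 * (1 + (t * w) ^ 2)⁻¹ := by
    intro w
    have ht' : 0 < t⁻¹ := by positivity
    have a1 : cN P s (m w) ≤ D / (t⁻¹ + |2 * Real.pi * w|) := h2 _ _ ht'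
    have a2 : cN P s (fun k => k * m w k) ≤ 1 + D := by
      have e : (fun k : ℕ => k * m w k) = fun k : ℕ => ((1 : ℝ) : ℂ) +
          -((t⁻¹ : ℝ) + (2 * Real.pi * w : ℝ) * Complex.I) * m w k := by
        funext k
        have : (k : ℂ) + (t⁻¹ : ℝ) + (2 * Real.pi * w : ℝ) * Complex.I ≠ 0 := by
          intro h
          have := congrArg Complex.re h
          simp only [Complex.add_re, Complex.natCast_re, Complex.ofReal_re, Complex.mul_re,
            Complex.I_re, Complex.ofReal_im, Complex.I_im, mul_zero, zero_mul, sub_zero, add_zero,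
            Complex.zero_re] at this
          linarith [Nat.cast_nonneg (α := ℝ) k]
        rw [Complex.ofReal_one, ← mul_inv_cancel₀ this, hm]
        ring
      rw [e]
      refine (cN_add_le _ _).trans (add_le_add ?_ ((cN_const_mul_le _ _).trans ?_))
      · rw [cN_ofReal]; exact h1
      · simp only [Complex.neg_re, Complex.neg_im, Complex.add_re, Complex.add_im,
          Complex.ofReal_re, Complex.mul_re, Complex.mul_im, Complex.I_re, Complex.ofReal_im,
          Complex.I_im, mul_zero, mul_one, sub_zero, add_zero, zero_add, abs_neg, abs_of_pos ht']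
        rw [le_div_iff₀ (by positivity), mul_comm] at a1
        exact a1
    have a3 : cN P s (m w) * cN P s (m w) ≤ D ^ 2 * t ^ 2 * (1 + (t * w) ^ 2)⁻¹ := by
      refine (mul_le_mul a1 a1 (cN_nonneg _) (by positivity)).trans ?_
      rw [← sq, div_pow, mul_assoc (D ^ 2), div_eq_mul_inv]
      refine mul_le_mul_of_nonneg_left ?_ (sq_nonneg D)
      rw [← div_eq_mul_inv, ← inv_div]
      refine inv_anti₀ (by positivity) ?_
      have b1 : (1 + (t * w) ^ 2) / t ^ 2 = t⁻¹ ^ 2 + w ^ 2 := by field_simp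
      have b2 : w ^ 2 ≤ |2 * Real.pi * w| ^ 2 := by
        rw [sq_abs, mul_pow]
        exact le_mul_of_one_le_left (sq_nonneg w) (one_le_pow₀ (by linarith [Real.pi_gt_three]))
      rw [b1]
      nlinarith [abs_nonneg (2 * Real.pi * w)]
    have a4 : |(2 * Complex.exp (2 * Real.pi * w * t * Complex.I)).re| +
        |(2 * Complex.exp (2 * Real.pi * w * t * Complex.I)).im| ≤ 4 := by
      have : ‖2 * Complex.exp (2 * Real.pi * w * t * Complex.I)‖ = 2 := by
        rw [norm_mul, show (2 * Real.pi * w * t * Complex.I : ℂ) =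
          ((2 * Real.pi * w * t : ℝ) : ℂ) * Complex.I by push_cast; ring,
          Complex.norm_exp_ofReal_mul_I]
        simp
      linarith [Complex.abs_re_le_norm (2 * Complex.exp (2 * Real.pi * w * t * Complex.I)),
        Complex.abs_im_le_norm (2 * Complex.exp (2 * Real.pi * w * t * Complex.I))]
    have a5 := (cN_mul_le hP (fun k => k * m w k) fun k => m w k * m w k).trans
      (mul_le_mul a2 ((cN_mul_le hP _ _).trans a3) (cN_nonneg _) (by positivity))
    calc _ ≤ cN P s (g w) := le_add_of_nonneg_right (norm_nonneg _)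
      _ ≤ 4 * ((1 + D) * (D ^ 2 * t ^ 2 * (1 + (t * w) ^ 2)⁻¹)) :=
          (cN_const_mul_le _ _).trans (mul_le_mul a4 a5 (cN_nonneg _) (by norm_num))
      _ = _ := by ring
  have e : (t ^ 2 * Real.exp (-1)) • fc P s (fun k => k * Real.exp (-(t * k))) =
      ∫ w, fc P s fun k => (g w k).re := by
    rw [← fc_smul]
    simp only [fc]
    rw [MeasureTheory.integral_finsetSum _ fun k _ => (hk k).1.smul_const _]
    exact Finset.sum_congr rfl fun k _ => by rw [integral_smul_const, (hk k).2]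
  have hn := MeasureTheory.norm_integral_le_of_norm_le
    ((integrable_inv_one_add_sq.comp_mul_left' ht.ne').const_mul (4 * (1 + D) * D ^ 2 * t ^ 2))
    (Filter.Eventually.of_forall hb)
  rw [← e, MeasureTheory.integral_const_mul,
    MeasureTheory.Measure.integral_comp_mul_left (fun x : ℝ => (1 + x ^ 2)⁻¹),
    integral_univ_inv_one_add_sq, norm_smul, Real.norm_of_nonneg (by positivity),
    abs_of_pos (inv_pos.2 ht), smul_eq_mul, ← le_div_iff₀' (by positivity)] at hn
  refine hn.trans (le_of_eq ?_)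
  rw [Real.exp_neg]
  field_simp
end Vale.Agent.P111
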