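import Vale.Agent.P111.Alg

/-!
From `‖Δ T_t‖ ≤ C / t` to the boundedness of the degree one projection.

Plan. `‖fc ((k - 1) exp (-t k))‖ ≤ C₁ / t + 1`, so with `t = a / j`,
`‖fc ((k - 1)^j exp (-a k))‖ ≤ (C₁ j / a + 1)^j ≤ exp(...)`: use
`(x + 1)^j ≤ (2x)^j + 2^j` and `j^j ≤ e^j j!` (`Real.pow_div_factorial_le_exp`), with
`a = 4 π e (C₁ + 1)`. For every natural `k` (`Real.hasSum_sin`, `Real.sin_int_mul_pi`):
`HasSum (fun n => (-1)^n π^(2n) / (2n+1)! * (k - 1)^(2n) * exp (-a k)) (if k = 1 then exp (-a) else 0)`.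
`fc` of the sum is the sum of `fc` (finite sum of `HasSum.smul_const`), and the norms are bounded
by the summable sequence `(1/2)^(2n) + (2π)^(2n) / (2n)!`; `HasSum.norm_le_of_bounded` /
`tsum_of_norm_bounded`.
-/

namespace Vale.Agent.P111

universe u

theorem hasSum_sinc_kp (k : ℕ) : HasSum (fun n : ℕ => (-1) ^ n * Real.pi ^ (2 * n) /
    ((2 * n + 1).factorial : ℝ) * ((k : ℝ) - 1) ^ (2 * n)) (if k = 1 then 1 else 0) := by
  split_ifs with h
  · subst h
    have := hasSum_single (f := fun n : ℕ => (-1) ^ n * Real.pi ^ (2 * n) /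
      ((2 * n + 1).factorial : ℝ) * (((1 : ℕ) : ℝ) - 1) ^ (2 * n)) 0 fun n hn => by simp [hn]
    simpa using this
  · have hk : (k : ℝ) - 1 ≠ 0 := sub_ne_zero.2 (by exact_mod_cast h)
    have h1 := (Real.hasSum_sin (((k : ℝ) - 1) * Real.pi)).div_const (((k : ℝ) - 1) * Real.pi)
    have h2 := Real.sin_int_mul_pi ((k : ℤ) - 1)
    push_cast at h2
    rw [h2, zero_div] at h1
    refine (congrArg (HasSum · 0) (funext fun n => ?_)).mp h1
    have := Real.pi_pos.ne'
    rw [pow_succ, mul_pow]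
    field_simp

theorem norm_fc_pow_kp {𝔸 : Type*} [NormedRing 𝔸] [NormedAlgebra ℝ 𝔸] {P : ℕ → 𝔸} {s : ℕ}
    (hP : Idem P) (m : ℕ → ℝ) (j : ℕ) : ‖fc P s fun k => m k ^ (j + 1)‖ ≤ ‖fc P s m‖ ^ (j + 1) := by
  induction j with
  | zero => simp
  | succ j ih =>
    simp only [pow_succ _ (j + 1)]
    exact (norm_fc_mul_le hP _ _).trans (mul_le_mul_of_nonneg_right ih (norm_nonneg _))


theorem kato_proj {C₁ : ℝ} (hC₁ : 0 ≤ C₁) : ∃ K : ℝ,
    ∀ (𝔸 : Type u) [NormedRing 𝔸] [NormedAlgebra ℝ 𝔸] (P : ℕ → 𝔸) (s : ℕ),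
      Idem P → (∀ θ : ℝ, 0 ≤ θ → θ ≤ 1 → ‖fc P s fun k => θ ^ k‖ ≤ 1) →
      (∀ t : ℝ, 0 < t → ‖fc P s fun k => k * Real.exp (-(t * k))‖ ≤ C₁ / t) →
      ‖fc P s fun k => if k = 1 then 1 else 0‖ ≤ K := by
  set b := 2 * Real.pi * Real.exp 1 with hb
  have hb0 : 0 < b := by positivity
  set a := b * (C₁ + 1) with ha
  have ha0 : 0 < a := by positivity
  refine ⟨Real.exp a * (Real.exp b * 2), fun 𝔸 _ _ P s hP h1 h2 => ?_⟩
  have he : ∀ t : ℝ, 0 ≤ t → ‖fc P s fun k => Real.exp (-(t * k))‖ ≤ 1 := fun t ht => by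
    have := h1 (Real.exp (-t)) (Real.exp_pos _).le (Real.exp_le_one_iff.2 (by linarith))
    simpa only [← Real.exp_nat_mul, mul_neg, mul_comm t] using this
  have hj : ∀ j : ℕ, ‖fc P s fun k => ((k : ℝ) - 1) ^ j * Real.exp (-(a * k))‖ ≤
      j.factorial * Real.exp b * (1 / (2 * Real.pi)) ^ j := by
    intro j
    rcases j with _ | j
    · simpa using (he a ha0.le).trans (Real.one_le_exp hb0.le)
    set J : ℝ := ((j + 1 : ℕ) : ℝ) with hJ
    have hJ0 : 0 < J := by positivity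
    have e1 : (fun k : ℕ => ((k : ℝ) - 1) ^ (j + 1) * Real.exp (-(a * k))) = fun k : ℕ =>
        (k * Real.exp (-(a / J * k)) - Real.exp (-(a / J * k))) ^ (j + 1) := by
      funext k
      rw [← sub_one_mul, mul_pow, ← Real.exp_nat_mul, ← hJ]
      congr 2
      field_simp
    have e2 : ‖fc P s fun k : ℕ => k * Real.exp (-(a / J * k)) - Real.exp (-(a / J * k))‖ ≤
        (J + b) / b := by
      rw [fc_sub]
      refine (norm_sub_le _ _).trans ((add_le_add (h2 _ (by positivity))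
        (he _ (by positivity))).trans ?_)
      rw [add_div, div_self hb0.ne', div_div_eq_mul_div, add_le_add_iff_right,
        div_le_div_iff₀ ha0 hb0, ha]
      nlinarith [mul_pos hJ0 hb0]
    have e3 := Real.pow_div_factorial_le_exp (J + b) (by positivity) (j + 1)
    rw [div_le_iff₀ (by positivity)] at e3
    rw [e1]
    refine (norm_fc_pow_kp hP _ j).trans ((pow_le_pow_left₀ (norm_nonneg _) e2 _).trans ?_)
    rw [div_pow, div_le_iff₀ (by positivity)]
    refine e3.trans (le_of_eq ?_)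
    rw [mul_assoc _ (_ ^ (j + 1)), ← mul_pow, hb, show 1 / (2 * Real.pi) * (2 * Real.pi * Real.exp 1) =
      Real.exp 1 by field_simp, ← Real.exp_nat_mul, mul_one, Real.exp_add]
    ring
  have hs : HasSum (fun n : ℕ => ((-1) ^ n * Real.pi ^ (2 * n) / ((2 * n + 1).factorial : ℝ)) •
      fc P s fun k => ((k : ℝ) - 1) ^ (2 * n) * Real.exp (-(a * k)))
      (Real.exp (-a) • fc P s fun k => if k = 1 then 1 else 0) := by
    simp only [← fc_smul]
    refine hasSum_sum fun k _ => HasSum.smul_const ?_ _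
    have := (hasSum_sinc_kp k).mul_right (Real.exp (-(a * k)))
    simp only [mul_assoc _ (_ ^ (2 * _)) (Real.exp _)] at this
    by_cases h : k = 1
    · subst h
      simpa using this
    · simpa [h] using this
  have hn := hs.norm_le_of_bounded (hasSum_geometric_two.mul_left (Real.exp b)) fun n => by
    rw [norm_smul]
    refine (mul_le_mul_of_nonneg_left (hj _) (norm_nonneg _)).trans ?_
    have f1 : ((2 * n).factorial : ℝ) ≤ (2 * n + 1).factorial := by
      exact_mod_cast Nat.factorial_le (Nat.le_succ _)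
    have f2 : (Real.pi * (1 / (2 * Real.pi))) ^ (2 * n) ≤ (1 / 2) ^ n := by
      rw [show Real.pi * (1 / (2 * Real.pi)) = 1 / 2 by field_simp]
      exact pow_le_pow_of_le_one (by norm_num) (by norm_num) (by omega)
    rw [norm_div, norm_mul, norm_pow, norm_pow, norm_neg, norm_one, one_pow, one_mul,
      Real.norm_of_nonneg Real.pi_pos.le, Real.norm_natCast]
    calc _ = ((2 * n).factorial / (2 * n + 1).factorial : ℝ) *
          (Real.exp b * (Real.pi * (1 / (2 * Real.pi))) ^ (2 * n)) := by rw [mul_pow]; ring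
      _ ≤ 1 * (Real.exp b * (1 / 2) ^ n) := by
          gcongr
          exact div_le_one_of_le₀ f1 (by positivity)
      _ = _ := one_mul _
  rw [norm_smul, Real.norm_of_nonneg (Real.exp_pos _).le, Real.exp_neg,
    inv_mul_le_iff₀ (Real.exp_pos _)] at hn
  exact hn
end Vale.Agent.P111
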