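import Vale.Agent.P111.Alg

/-!
Kato's resolvent estimate.

Plan. For `u > 0` and `c = k + σ + iξ`: `(1 - exp (-u c)) / c = ∫ t in 0..u, exp (-t c)`;
`exp (-t c) = exp (-t σ - i t ξ) * (exp (-t))^k`, so the real and the imaginary part of the
symbol each have `fc`-norm at most `1` (`contr` with `θ = exp (-t)`), and `fc` commutes with
the integral (finite sum, `intervalIntegral.integral_smul_const`, `integral_finset_sum`), hence
`cN ((1 - exp (-u c)) / c) ≤ 2 u` by `intervalIntegral.norm_integral_le_of_norm_le_const`.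
* `ξ ≠ 0`, `u = π / |ξ|`: `1 - exp (-u c) = 1 + μ θ^k` with `μ = exp (-u σ)`, `θ = exp (-u)`, so
  `cN (1 / c) ≤ C₀ * 2π / |ξ|`.
* `u = 1/σ`: `1/c = (1 - exp (-u c))/c + ζ θ^k (1/c)` with `|ζ| = exp (-1)`,
  `|ζ.re| + |ζ.im| ≤ 2 exp (-1) < 3/4`, so `cN (1/c) ≤ 2/σ + (3/4) cN (1/c)`, i.e. `≤ 8/σ`.
Combine: `σ + |ξ| ≤ 2 max σ |ξ|`.
-/

namespace Vale.Agent.P111

universe u

section

variable {𝔸 : Type*} [NormedRing 𝔸] [NormedAlgebra ℝ 𝔸] {P : ℕ → 𝔸} {s : ℕ} {C₀ : ℝ}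

theorem ne_kr (k : ℕ) {σ : ℝ} (hσ : 0 < σ) (ξ : ℝ) : (k : ℂ) + σ + ξ * Complex.I ≠ 0 := by
  intro h
  have := congrArg Complex.re h
  simp only [Complex.add_re, Complex.natCast_re, Complex.ofReal_re, Complex.mul_re,
    Complex.I_re, Complex.ofReal_im, Complex.I_im, mul_zero, Complex.zero_re] at this
  linarith [Nat.cast_nonneg (α := ℝ) k]

theorem exp_kr (k : ℕ) (σ ξ t : ℝ) : Complex.exp (-((k : ℂ) + σ + ξ * Complex.I) * t) =
    Complex.exp (-((σ : ℂ) + ξ * Complex.I) * t) * ((Real.exp (-t) ^ k : ℝ) : ℂ) := by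
  rw [← Real.exp_nat_mul, Complex.ofReal_exp, ← Complex.exp_add]
  congr 1; push_cast; ring

theorem norm_exp_kr (σ ξ t : ℝ) :
    ‖Complex.exp (-((σ : ℂ) + ξ * Complex.I) * t)‖ = Real.exp (-(σ * t)) := by
  rw [Complex.norm_exp]; simp

theorem int_kr [CompleteSpace 𝔸] (h : Semi P s C₀) {σ u : ℝ} (hσ : 0 < σ) (ξ : ℝ) (hu : 0 ≤ u) :
    cN P s (fun k => (1 - Complex.exp (-((k : ℂ) + σ + ξ * Complex.I) * u)) *
      ((k : ℂ) + σ + ξ * Complex.I)⁻¹) ≤ 2 * u := by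
  have key : ∀ L : ℂ →L[ℝ] ℝ, (∀ z, |L z| ≤ ‖z‖) →
      ‖fc P s fun k => L ((1 - Complex.exp (-((k : ℂ) + σ + ξ * Complex.I) * u)) *
        ((k : ℂ) + σ + ξ * Complex.I)⁻¹)‖ ≤ u := by
    intro L hL
    have hc : ∀ k : ℕ, Continuous fun t : ℝ => Complex.exp (-((k : ℂ) + σ + ξ * Complex.I) * t) :=
      fun k => by fun_prop
    have e : ∀ k : ℕ, L ((1 - Complex.exp (-((k : ℂ) + σ + ξ * Complex.I) * u)) *
        ((k : ℂ) + σ + ξ * Complex.I)⁻¹) =
        ∫ t in (0 : ℝ)..u, L (Complex.exp (-((k : ℂ) + σ + ξ * Complex.I) * t)) := by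
      intro k
      rw [L.intervalIntegral_comp_comm ((hc k).intervalIntegrable _ _),
        integral_exp_mul_complex (neg_ne_zero.2 (ne_kr k hσ ξ))]
      congr 1
      rw [div_neg, div_eq_mul_inv]
      simp only [Complex.ofReal_zero, mul_zero, Complex.exp_zero]
      ring
    have e2 : (fc P s fun k => ∫ t in (0 : ℝ)..u,
        L (Complex.exp (-((k : ℂ) + σ + ξ * Complex.I) * t))) = ∫ t in (0 : ℝ)..u,
        fc P s fun k => L (Complex.exp (-((k : ℂ) + σ + ξ * Complex.I) * t)) := by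
      simp only [fc]
      rw [intervalIntegral.integral_finsetSum]
      · exact Finset.sum_congr rfl fun k _ => (intervalIntegral.integral_smul_const _ _).symm
      · exact fun k _ => ((L.continuous.comp (hc k)).smul continuous_const).intervalIntegrable _ _
    simp only [e]
    rw [e2]
    refine (intervalIntegral.norm_integral_le_of_norm_le_const (C := 1) fun t ht => ?_).trans
      (by rw [sub_zero, one_mul, abs_of_nonneg hu])
    rw [Set.uIoc_of_le hu] at ht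
    have e3 : ∀ k : ℕ, L (Complex.exp (-((k : ℂ) + σ + ξ * Complex.I) * t)) =
        L (Complex.exp (-((σ : ℂ) + ξ * Complex.I) * t)) * Real.exp (-t) ^ k := fun k => by
      rw [exp_kr, mul_comm, ← Complex.real_smul, map_smul, smul_eq_mul, mul_comm]
    simp only [e3]
    rw [fc_smul, norm_smul]
    refine mul_le_one₀ ((hL _).trans ?_) (norm_nonneg _)
      (h.contr _ (Real.exp_pos _).le (Real.exp_le_one_iff.2 (by linarith [ht.1])))
    rw [norm_exp_kr]
    exact Real.exp_le_one_iff.2 (by nlinarith [ht.1])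
  have h1 := key Complex.reCLM Complex.abs_re_le_norm
  have h2 := key Complex.imCLM Complex.abs_im_le_norm
  rw [cN, two_mul]
  exact add_le_add h1 h2

end


theorem kato_resolvent {C₀ : ℝ} (hC₀ : 0 ≤ C₀) : ∃ D : ℝ, 0 ≤ D ∧
    ∀ (𝔸 : Type u) [NormedRing 𝔸] [NormedAlgebra ℝ 𝔸] [CompleteSpace 𝔸] (P : ℕ → 𝔸) (s : ℕ),
      Semi P s C₀ → ∀ σ ξ : ℝ, 0 < σ →
        cN P s (fun k => ((k : ℂ) + σ + ξ * Complex.I)⁻¹) ≤ D / (σ + |ξ|) := by
  refine ⟨16 + 4 * Real.pi * C₀, by positivity, fun 𝔸 _ _ _ P s h σ ξ hσ => ?_⟩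
  have hπ : 0 ≤ 4 * Real.pi * C₀ := by positivity
  set N := cN P s (fun k => ((k : ℂ) + σ + ξ * Complex.I)⁻¹) with hN
  have hN0 : 0 ≤ N := cN_nonneg _
  rw [le_div_iff₀ (by positivity)]
  rcases le_or_gt |ξ| σ with hξ | hξ
  · have e : (fun k : ℕ => ((k : ℂ) + σ + ξ * Complex.I)⁻¹) = fun k : ℕ =>
        (1 - Complex.exp (-((k : ℂ) + σ + ξ * Complex.I) * (σ⁻¹ : ℝ))) *
          ((k : ℂ) + σ + ξ * Complex.I)⁻¹ +
        Complex.exp (-((σ : ℂ) + ξ * Complex.I) * (σ⁻¹ : ℝ)) *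
          (((Real.exp (-σ⁻¹) ^ k : ℝ) : ℂ) * ((k : ℂ) + σ + ξ * Complex.I)⁻¹) := by
      funext k
      rw [exp_kr]; ring
    have a1 := int_kr h hσ ξ (inv_pos.2 hσ).le
    have a2 := cN_mul_le (s := s) h.idem (fun k => ((Real.exp (-σ⁻¹) ^ k : ℝ) : ℂ))
      fun k => ((k : ℂ) + σ + ξ * Complex.I)⁻¹
    rw [cN_ofReal, ← hN] at a2
    have a3 := a2.trans (mul_le_of_le_one_left hN0 (h.contr _ (Real.exp_pos _).le
      (Real.exp_le_one_iff.2 (neg_nonpos.2 (inv_pos.2 hσ).le))))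
    have a4 := norm_exp_kr σ ξ σ⁻¹
    rw [mul_inv_cancel₀ hσ.ne'] at a4
    have a5 : Real.exp (-1) ≤ 3 / 8 := by
      rw [Real.exp_neg, inv_le_comm₀ (Real.exp_pos _) (by norm_num)]
      linarith [Real.exp_one_gt_d9]
    have a6 : N ≤ 2 * σ⁻¹ + 3 / 4 * N := by
      refine le_trans (le_of_eq (by rw [hN, e])) ((cN_add_le _ _).trans
        (add_le_add a1 ((cN_const_mul_le _ _).trans (mul_le_mul ?_ a3 (cN_nonneg _) (by norm_num)))))
      linarith [Complex.abs_re_le_norm (Complex.exp (-((σ : ℂ) + ξ * Complex.I) * (σ⁻¹ : ℝ))),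
        Complex.abs_im_le_norm (Complex.exp (-((σ : ℂ) + ξ * Complex.I) * (σ⁻¹ : ℝ)))]
    have a7 : N * σ ≤ 8 := by
      have := mul_le_mul_of_nonneg_right (show N ≤ 8 * σ⁻¹ by linarith) hσ.le
      rwa [mul_assoc, inv_mul_cancel₀ hσ.ne', mul_one] at this
    nlinarith
  · have h0 : 0 < |ξ| := hσ.trans hξ
    set u := Real.pi / |ξ| with hu
    have hu0 : 0 < u := div_pos Real.pi_pos h0
    have e0 : Complex.exp (-((σ : ℂ) + ξ * Complex.I) * u) = -((Real.exp (-(σ * u)) : ℝ) : ℂ) := by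
      have : ξ * u = Real.pi ∨ ξ * u = -Real.pi := by
        rw [hu]
        rcases abs_cases ξ with h | h
        · left; rw [h.1] at h0 ⊢; field_simp
        · right; rw [h.1]; have := h.2.ne; field_simp
      rw [show -((σ : ℂ) + ξ * Complex.I) * u = (-(σ * u) : ℝ) + -((ξ * u : ℝ) * Complex.I) by
        push_cast; ring, Complex.exp_add, ← Complex.ofReal_exp, Complex.exp_neg]
      rcases this with h | h <;> rw [h]
      · rw [Complex.exp_pi_mul_I]; ring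
      · rw [Complex.ofReal_neg, neg_mul, Complex.exp_neg, inv_inv, Complex.exp_pi_mul_I]; ring
    have e : (fun k : ℕ => ((k : ℂ) + σ + ξ * Complex.I)⁻¹) = fun k : ℕ =>
        (((1 + Real.exp (-(σ * u)) * Real.exp (-u) ^ k)⁻¹ : ℝ) : ℂ) *
        ((1 - Complex.exp (-((k : ℂ) + σ + ξ * Complex.I) * u)) *
          ((k : ℂ) + σ + ξ * Complex.I)⁻¹) := by
      funext k
      rw [exp_kr, e0, neg_mul, sub_neg_eq_add, ← Complex.ofReal_mul, ← Complex.ofReal_one,
        ← Complex.ofReal_add, ← mul_assoc, ← Complex.ofReal_mul, inv_mul_cancel₀ (by positivity),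
        Complex.ofReal_one, one_mul]
    have a1 : N ≤ C₀ * (2 * u) := by
      rw [hN, e]
      refine (cN_mul_le h.idem _ _).trans (mul_le_mul ?_ (int_kr h hσ ξ hu0.le) (cN_nonneg _) hC₀)
      rw [cN_ofReal]
      exact h.inv _ _ (Real.exp_pos _).le (Real.exp_le_one_iff.2 (by linarith)) (Real.exp_pos _).le
        (Real.exp_le_one_iff.2 (by nlinarith))
    have a2 : N * |ξ| ≤ 2 * Real.pi * C₀ := by
      refine (mul_le_mul_of_nonneg_right a1 h0.le).trans (le_of_eq ?_)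
      rw [hu]; field_simp
    nlinarith
end Vale.Agent.P111
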