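import Vale.Agent.P111.Mult

/-!
The inverse of `1 + μ T_θ` is bounded on `L_2(Cube s; X)`, uniformly in `s, θ, μ`.

Plan. Put `g = mult ((1 + μ θ^·)⁻¹) f`, so `f = g + μ T g` (`smult_smult`, `smult_one`).
If `μ ≤ 1/2`, `l2 (f + μ T f) ≥ l2 f / 2`. If `μ ≥ 1/2`, with `U = 1 - θ^k`:
   `(1+μ)^n - μ^n U^n = (∑ j < n, (1+μ)^(n-1-j) (μ U)^j) * (1 + μ θ^k)`; the left side has lower
   bound `(1+μ)^n - μ^n (2^n - 1/2) ≥ μ^n / 2 ≥ 2^(-n-1)`, and each multiplier `U^j` has norm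
   at most `2^j`.
-/

namespace Vale.Agent.P111

open Finset

variable {X : Type*} [NormedAddCommGroup X] [NormedSpace ℝ X]

theorem pinv_pow {s : ℕ} {θ : ℝ} (h0 : 0 ≤ θ) (h1 : θ ≤ 1) (j : ℕ) (f : Cube s → X) :
    l2 (mult (fun k => (1 - θ ^ k) ^ j) f) ≤ 2 ^ j * l2 f := by
  induction j with
  | zero =>
    simp only [pow_zero, one_mul]
    exact (congrArg l2 (smult_one f)).le
  | succ j ih =>
    have e : mult (fun k => (1 - θ ^ k) ^ (j + 1)) f = fun ε =>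
        mult (fun k => (1 - θ ^ k) ^ j) f ε +
          (-1 : ℝ) • mult (fun k => θ ^ k) (mult (fun k => (1 - θ ^ k) ^ j) f) ε := by
      refine eq_of_coef_eq fun a => ?_
      rw [coef_add, coef_smul]
      simp only [mult, coef_smult, smul_smul, ← add_smul]
      congr 1
      ring
    rw [e]
    refine (l2_add_le _ _).trans ?_
    rw [l2_smul, abs_neg, abs_one, one_mul, pow_succ]
    have := l2_mult_pow_le h0 h1 (mult (fun k => (1 - θ ^ k) ^ j) f)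
    linarith

theorem l2_mult_inv_le {n : ℕ} (hn : 0 < n) (h : ∀ (s : ℕ) (θ : ℝ), 0 ≤ θ → θ ≤ 1 →
    ∀ f : Cube s → X, l2 (mult (fun k => (1 - θ ^ k) ^ n) f) ≤ (2 ^ n - 1 / 2) * l2 f) :
    ∃ C₀ : ℝ, 0 ≤ C₀ ∧ ∀ (s : ℕ) (θ μ : ℝ), 0 ≤ θ → θ ≤ 1 → 0 ≤ μ → μ ≤ 1 →
      ∀ f : Cube s → X, l2 (mult (fun k => (1 + μ * θ ^ k)⁻¹) f) ≤ C₀ * l2 f := by
  set C : ℝ := ∑ i ∈ range n, 2 ^ i * 2 ^ (n - 1 - i) with hC
  have hC0 : 0 ≤ C := sum_nonneg fun _ _ => by positivity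
  refine ⟨C / ((1 / 2) ^ n / 2), by positivity, fun s θ μ h0 h1 h2 h3 f => ?_⟩
  set g := mult (fun k => (1 + μ * θ ^ k)⁻¹) f with hg
  have e : (fun ε => (1 + μ) ^ n • g ε) = fun ε => μ ^ n • mult (fun k => (1 - θ ^ k) ^ n) g ε +
      ∑ i ∈ range n, ((1 + μ) ^ i * μ ^ (n - 1 - i)) •
        mult (fun k => (1 - θ ^ k) ^ (n - 1 - i)) f ε := by
    refine eq_of_coef_eq fun a => ?_
    rw [coef_add, coef_sum, coef_smul, coef_smul]
    simp only [coef_smul, hg, mult, coef_smult, smul_smul, ← sum_smul, ← add_smul]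
    congr 1
    have hp : 0 < 1 + μ * θ ^ a.card := by positivity
    have := geom_sum₂_mul (1 + μ) (μ * (1 - θ ^ a.card)) n
    simp only [mul_pow, ← mul_assoc] at this
    rw [show 1 + μ - μ * (1 - θ ^ a.card) = 1 + μ * θ ^ a.card by ring] at this
    rw [eq_div_of_mul_eq hp.ne' this]
    field_simp
    ring
  have h4 : l2 (fun ε => ∑ i ∈ range n, ((1 + μ) ^ i * μ ^ (n - 1 - i)) •
      mult (fun k => (1 - θ ^ k) ^ (n - 1 - i)) f ε) ≤ C * l2 f := by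
    refine (l2_sum_le _ fun i ε => ((1 + μ) ^ i * μ ^ (n - 1 - i)) •
      mult (fun k => (1 - θ ^ k) ^ (n - 1 - i)) f ε).trans ?_
    rw [hC, sum_mul]
    refine sum_le_sum fun i _ => ?_
    rw [l2_smul, abs_of_nonneg (by positivity), mul_assoc (2 ^ i)]
    refine mul_le_mul ?_ (pinv_pow h0 h1 _ f) (l2_nonneg _) (by positivity)
    exact (mul_le_of_le_one_right (by positivity) (pow_le_one₀ h2 h3)).trans
      (pow_le_pow_left₀ (by positivity) (by linarith) i)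
  have h5 := congrArg l2 e
  rw [l2_smul, abs_of_nonneg (by positivity)] at h5
  have h6 := h5.trans_le (l2_add_le _ _)
  rw [l2_smul, abs_of_nonneg (by positivity)] at h6
  have h7 := mul_le_mul_of_nonneg_left (h s θ h0 h1 g) (pow_nonneg h2 n)
  have h8 : (1 / 2) ^ n / 2 ≤ (1 + μ) ^ n - μ ^ n * (2 ^ n - 1 / 2) := by
    rcases le_total μ (1 / 2) with hμ | hμ
    · have k1 : 1 + μ ≤ (1 + μ) ^ n := le_self_pow₀ (by linarith) hn.ne'
      have k2 : (μ * 2) ^ n ≤ μ * 2 := pow_le_of_le_one (by positivity) (by linarith) hn.ne'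
      have k3 : (1 / 2 : ℝ) ^ n ≤ 1 := pow_le_one₀ (by norm_num) (by norm_num)
      rw [mul_pow] at k2
      nlinarith [pow_nonneg h2 n]
    · have k1 : (μ * 2) ^ n ≤ (1 + μ) ^ n := pow_le_pow_left₀ (by positivity) (by linarith) n
      have k2 : (1 / 2 : ℝ) ^ n ≤ μ ^ n := pow_le_pow_left₀ (by norm_num) hμ n
      rw [mul_pow] at k1
      nlinarith
  rw [div_mul_eq_mul_div, le_div_iff₀ (by positivity)]
  nlinarith [mul_le_mul_of_nonneg_left h8 (l2_nonneg g)]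

end Vale.Agent.P111
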