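import Vale.Agent.P111.Proj
import Vale.Agent.P111.ProjInv
import Vale.Agent.P111.KatoRes
import Vale.Agent.P111.KatoDeriv
import Vale.Agent.P111.KatoProj

/-!
Pisier's theorem in the form needed here: a contractive Walsh transform implies `K`-convexity.
The multipliers are realised in the Banach algebra of bounded operators on `L_2(Cube s; X)`.
-/

namespace Vale.Agent.P111

open Finset

universe u

variable {X : Type u} [NormedAddCommGroup X] [NormedSpace ℝ X] {s : ℕ}

/-- `L_2(Cube s; X)` with the counting measure. -/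
abbrev LY (s : ℕ) (X : Type u) : Type u := PiLp 2 (fun _ : Cube s => X)

omit [NormedSpace ℝ X] in
theorem norm_LY (F : LY s X) : ‖F‖ = √(Fintype.card (Cube s)) * l2 F.ofLp := by
  have hc : (0 : ℝ) < Fintype.card (Cube s) := by exact_mod_cast Fintype.card_pos
  rw [PiLp.norm_eq_of_L2, l2, ← Real.sqrt_mul hc.le, avg_def, smul_eq_mul,
    mul_inv_cancel_left₀ hc.ne']

/-- A multiplier as a linear map. -/
noncomputable def multL (m : ℕ → ℝ) : LY s X →ₗ[ℝ] LY s X where
  toFun F := WithLp.toLp 2 (mult m F.ofLp)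
  map_add' F G := by
    ext ε
    have h : (F + G).ofLp = fun ε => F.ofLp ε + G.ofLp ε := rfl
    simp only [h, mult, smult, coef_add, smul_add, sum_add_distrib, PiLp.add_apply]
  map_smul' c F := by
    ext ε
    have h : (c • F).ofLp = fun ε => c • F.ofLp ε := rfl
    simp only [h, mult, smult, coef_smul, PiLp.smul_apply, RingHom.id_apply, smul_sum,
      smul_comm c]

theorem l2_mult_le_sum (m : ℕ → ℝ) (f : Cube s → X) :
    l2 (mult m f) ≤ (∑ a : Finset (Fin s), |m a.card|) * l2 f := by
  refine (l2_sum_le univ fun a ε => (m a.card * wal a ε) • coef f a).trans ?_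
  rw [sum_mul]
  refine sum_le_sum fun a _ => l2_le_of_sq (mul_nonneg (abs_nonneg _) (l2_nonneg _)) ?_
  refine avg_le_const fun ε => pow_le_pow_left₀ (norm_nonneg _) ?_ 2
  rw [norm_smul, Real.norm_eq_abs, abs_mul, abs_wal, mul_one]
  exact mul_le_mul_of_nonneg_left (norm_coef_le f a) (abs_nonneg _)

theorem norm_multL_le {m : ℕ → ℝ} {C : ℝ} (h : ∀ f : Cube s → X, l2 (mult m f) ≤ C * l2 f)
    (F : LY s X) : ‖multL m F‖ ≤ C * ‖F‖ := by
  rw [norm_LY, norm_LY, mul_left_comm]
  exact mul_le_mul_of_nonneg_left (h _) (Real.sqrt_nonneg _)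

/-- A multiplier as a bounded operator. -/
noncomputable def multC (s : ℕ) (X : Type u) [NormedAddCommGroup X] [NormedSpace ℝ X]
    (m : ℕ → ℝ) : LY s X →L[ℝ] LY s X :=
  (multL (X := X) (s := s) m).mkContinuous (∑ a : Finset (Fin s), |m a.card|)
    fun F => norm_multL_le (fun f => l2_mult_le_sum m f) F

theorem multC_apply (m : ℕ → ℝ) (F : LY s X) : (multC s X m F).ofLp = mult m F.ofLp := rfl

theorem norm_multC_le {m : ℕ → ℝ} {C : ℝ} (hC : 0 ≤ C)
    (h : ∀ f : Cube s → X, l2 (mult m f) ≤ C * l2 f) : ‖multC s X m‖ ≤ C :=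
  ContinuousLinearMap.opNorm_le_bound _ hC (norm_multL_le h)

theorem l2_mult_le_norm (m : ℕ → ℝ) (f : Cube s → X) : l2 (mult m f) ≤ ‖multC s X m‖ * l2 f := by
  have hc : (0 : ℝ) < √(Fintype.card (Cube s)) :=
    Real.sqrt_pos.2 (by exact_mod_cast Fintype.card_pos)
  have h := (multC s X m).le_opNorm (WithLp.toLp 2 f)
  rw [norm_LY, norm_LY, mul_left_comm, multC_apply] at h
  exact le_of_mul_le_mul_left h hc

/-- The projection onto the Walsh functions of degree `k`. -/
noncomputable def degP (s : ℕ) (X : Type u) [NormedAddCommGroup X] [NormedSpace ℝ X] (k : ℕ) :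
    LY s X →L[ℝ] LY s X := multC s X fun j => if j = k then 1 else 0

theorem idem_degP : Idem (degP s X) := by
  intro j k
  ext F ε
  have h : ((degP s X j * degP s X k) F).ofLp =
      mult (fun i => if i = j then 1 else 0) (mult (fun i => if i = k then 1 else 0) F.ofLp) := rfl
  rw [h, mult, mult, smult_smult]
  split_ifs with hjk
  · subst hjk
    rw [degP, multC_apply, mult]
    congr 2
    funext a
    split_ifs <;> simp
  · have : (fun a : Finset (Fin s) => (if a.card = j then (1 : ℝ) else 0) *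
        if a.card = k then 1 else 0) = fun _ => 0 := by
      funext a
      split_ifs with h1 h2
      · exact absurd (h1.symm.trans h2) hjk
      all_goals simp
    rw [this]
    simp [smult]

theorem fc_degP (m : ℕ → ℝ) : fc (degP s X) s m = multC s X m := by
  ext F ε
  have h : ((fc (degP s X) s m) F).ofLp ε =
      ∑ k ∈ range (s + 1), m k • mult (fun j => if j = k then 1 else 0) F.ofLp ε := by
    simp only [fc, FunLike.coe_sum, Finset.sum_apply, WithLp.ofLp_sum]
    rfl
  rw [h, multC_apply]
  simp only [mult, ← smult_smul_symb]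
  rw [← smult_sum_symb]
  congr 1
  funext a
  have ha : a.card ∈ range (s + 1) := by
    rw [mem_range, Nat.lt_succ_iff]
    simpa using card_le_univ a
  simp only [mul_ite, mul_one, mul_zero]
  rw [sum_ite_eq, if_pos ha]

theorem kConvex_of_walshContr {X : Type u} [NormedAddCommGroup X] [NormedSpace ℝ X]
    [CompleteSpace X] (h : WalshContr X) : KConvex X := by
  obtain ⟨n, hn, h1⟩ := l2_mult_one_sub_pow_le h
  obtain ⟨C₀, hC₀, h2⟩ := l2_mult_inv_le hn h1
  obtain ⟨D, hD, h3⟩ := kato_resolvent.{u} hC₀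
  obtain ⟨C₁, hC₁, h4⟩ := kato_deriv.{u} hD
  obtain ⟨K, h5⟩ := kato_proj.{u} hC₁
  refine ⟨K, fun s f => ?_⟩
  have hS : Semi (degP s X) s C₀ :=
    { idem := idem_degP
      contr := fun θ h0 h1 => by
        rw [fc_degP]
        exact norm_multC_le zero_le_one fun f => by
          rw [one_mul]; exact l2_mult_pow_le h0 h1 f
      inv := fun θ μ a b c d => by
        rw [fc_degP]
        exact norm_multC_le hC₀ (h2 s θ μ a b c d) }
  have h6 := h5 _ _ s idem_degP hS.contr (h4 _ _ s idem_degP
    (by simpa using hS.contr 1 zero_le_one le_rfl) (h3 _ _ s hS))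
  rw [fc_degP] at h6
  rw [rad_eq_mult]
  exact (l2_mult_le_norm _ f).trans (mul_le_mul_of_nonneg_right h6 (l2_nonneg f))

end Vale.Agent.P111
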