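import Vale.Agent.P111.Mult

/-!
Cotype of `X` gives lifts in the dual of `X`.

Plan. `cotype_l2`: power mean inequality,
`l2 y ≤ (avg ‖y i‖^q)^(1/q) = S^(-1/q) (∑ ‖y i‖^q)^(1/q)` (e.g. `Real.inner_le_nnorm_mul_nnorm`-free:
`Real.rpow_arith_mean_le_arith_mean_rpow` with exponent `q/2 ≥ 1`); replace `C` by `max C 0`.
`lift_dual_of`: let `φ : Fin S → X*`. On `Y = Cube S → X` the function `N F = S * c * l2 φ * l2 F`
is sublinear (`l2_add_le`, `l2_smul`). The linear map `R x = fun ε => ∑ i, sg (ε i) • x i` is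
injective (by the hypothesis, or by `avg_wal_mul_wal`), and `Λ₀ (R x) = ∑ i, φ i (x i)
≤ S * l2 φ * l2 x ≤ N (R x)`. Extend by `exists_extension_of_le_sublinear` to `Λ ≤ N` on `Y`.
Put `G ε x = card (Cube S) * Λ (Pi.single ε x)` (continuous since dominated by `N`), so that
`Λ F = avg ε, G ε (F ε)`. Then `coef G {i} x = Λ (R (Pi.single i x)) = φ i x`, and
`l2 G ≤ S c l2 φ`: for `t < 1` choose `F ε` with `‖F ε‖ ≤ ‖G ε‖` and `G ε (F ε) ≥ t ‖G ε‖^2`,
get `t * l2 G ^ 2 ≤ S c l2 φ * l2 G`. The last step is `l2_dual_le` below (also used in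
`LiftPre`).
-/

namespace Vale.Agent.P111

open Finset

variable {X : Type*} [NormedAddCommGroup X] [NormedSpace ℝ X]

/-- Cotype in mean square form. -/
theorem cotype_l2 {q : ℝ} (hq : 2 ≤ q) (h : HasCotype X q) :
    ∃ C : ℝ, 0 ≤ C ∧ ∀ (S : ℕ), 0 < S → ∀ y : Fin S → X,
      l2 y ≤ C * (S : ℝ) ^ (-(1 / q)) * l2 fun ε : Cube S => ∑ i, sg (ε i) • y i := by
  obtain ⟨C, hC⟩ := h
  refine ⟨max C 0, le_max_right _ _, fun S hS y => ?_⟩
  have hS' : (0 : ℝ) < S := Nat.cast_pos.2 hS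
  have hq0 : 0 < q := by linarith
  have h1 := Real.rpow_arith_mean_le_arith_mean_rpow univ (fun _ : Fin S => (S : ℝ)⁻¹)
    (fun i => ‖y i‖ ^ 2) (fun _ _ => by positivity) (by simp [hS'.ne']) (fun _ _ => sq_nonneg _)
    (p := q / 2) (by linarith)
  have h2 : ∀ i, (‖y i‖ ^ 2) ^ (q / 2) = ‖y i‖ ^ q := fun i => by
    rw [← Real.rpow_two, ← Real.rpow_mul (norm_nonneg _)]
    congr 1
    ring
  have h3 : ∑ i, (S : ℝ)⁻¹ * ‖y i‖ ^ 2 = l2 y ^ 2 := by
    rw [l2_sq, avg_def, Fintype.card_fin, smul_eq_mul, mul_sum]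
  simp only [h2] at h1
  rw [h3, ← Real.rpow_two, ← Real.rpow_mul (l2_nonneg _), show 2 * (q / 2) = q by ring,
    ← mul_sum] at h1
  have h4 := Real.rpow_le_rpow (Real.rpow_nonneg (l2_nonneg _) _) h1 (one_div_nonneg.2 hq0.le)
  rw [← Real.rpow_mul (l2_nonneg _), mul_one_div_cancel hq0.ne', Real.rpow_one,
    Real.mul_rpow (by positivity) (sum_nonneg fun _ _ => by positivity),
    Real.inv_rpow hS'.le, ← Real.rpow_neg hS'.le] at h4
  refine h4.trans ?_
  rw [mul_comm (max C 0), mul_assoc]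
  exact mul_le_mul_of_nonneg_left ((hC S y).trans
    (mul_le_mul_of_nonneg_right (le_max_left _ _) (l2_nonneg _))) (by positivity)

/-- The `L_2(X*)` norm is the dual norm of `L_2(X)`. -/
theorem l2_dual_le {ι : Type*} [Fintype ι] (G : ι → StrongDual ℝ X) {B : ℝ} (hB : 0 ≤ B)
    (h : ∀ F : ι → X, (avg fun i => G i (F i)) ≤ B * l2 F) : l2 G ≤ B := by
  by_contra hc
  push Not at hc
  have h0 : 0 < l2 G := hB.trans_lt hc
  obtain ⟨t, ht1, ht2⟩ := exists_between ((div_lt_one h0).2 hc)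
  have key : ∀ i, ∃ x : X, ‖x‖ ≤ ‖G i‖ ∧ t * ‖G i‖ ^ 2 ≤ G i x := fun i => by
    by_cases hi : G i = 0
    · exact ⟨0, by simp, by simp [hi]⟩
    · have hp : 0 < ‖G i‖ := norm_pos_iff.2 hi
      obtain ⟨x, hx, hx'⟩ := (G i).exists_lt_apply_of_lt_opNorm (mul_lt_of_lt_one_left hp ht2)
      rw [Real.norm_eq_abs] at hx'
      rcases le_total 0 (G i x) with hs | hs
      · rw [abs_of_nonneg hs] at hx'
        refine ⟨‖G i‖ • x, ?_, ?_⟩
        · rw [norm_smul, norm_norm]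
          exact mul_le_of_le_one_right hp.le hx.le
        · rw [map_smul, smul_eq_mul]
          nlinarith
      · rw [abs_of_nonpos hs] at hx'
        refine ⟨-‖G i‖ • x, ?_, ?_⟩
        · rw [norm_smul, norm_neg, norm_norm]
          exact mul_le_of_le_one_right hp.le hx.le
        · rw [map_smul, smul_eq_mul]
          nlinarith
  choose F hF1 hF2 using key
  have h1 := (avg_mono hF2).trans (h F)
  rw [avg_const_mul, ← l2_sq] at h1
  have h2 : l2 F ≤ l2 G := l2_mono hF1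
  rw [div_lt_iff₀ h0] at ht1
  nlinarith [mul_le_mul_of_nonneg_left h2 hB]

/-- The Rademacher sum with given coefficients. -/
noncomputable def ldR {S : ℕ} : (Fin S → X) →ₗ[ℝ] (Cube S → X) where
  toFun x ε := ∑ i, sg (ε i) • x i
  map_add' x y := by funext ε; simp [sum_add_distrib]
  map_smul' c x := by funext ε; simp [smul_sum, smul_comm c]

/-- The linear coefficients. -/
noncomputable def ldT {S : ℕ} : (Cube S → X) →ₗ[ℝ] (Fin S → X) where
  toFun F i := coef F {i}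
  map_add' F G := funext fun _ => coef_add F G _
  map_smul' c F := funext fun _ => coef_smul c F _

theorem ldT_ldR {S : ℕ} (x : Fin S → X) : ldT (ldR x) = x := by
  funext i
  change coef (fun ε => ∑ j, sg (ε j) • x j) {i} = x i
  simp only [← wal_singleton]
  rw [coef_sum]
  simp [coef_wal_smul, -wal_singleton]

theorem ld_pair {S : ℕ} (φ : Fin S → StrongDual ℝ X) (x : Fin S → X) :
    ∑ i, φ i (x i) ≤ S * l2 φ * l2 x := by
  rcases Nat.eq_zero_or_pos S with rfl | hS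
  · simp
  have hS' : (0 : ℝ) < S := Nat.cast_pos.2 hS
  have h := avg_norm_mul_le φ x
  rw [avg_def, Fintype.card_fin, smul_eq_mul, inv_mul_le_iff₀ hS', ← mul_assoc] at h
  exact (sum_le_sum fun i _ => (le_abs_self _).trans ((φ i).le_opNorm (x i))).trans h

theorem lift_dual_of {S : ℕ} {c : ℝ} (hc : 0 ≤ c)
    (h : ∀ y : Fin S → X, l2 y ≤ c * l2 fun ε : Cube S => ∑ i, sg (ε i) • y i) :
    Lift (StrongDual ℝ X) S (S * c) := by
  intro φ
  set B := S * c * l2 φ with hB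
  have hB0 : 0 ≤ B := mul_nonneg (by positivity) (l2_nonneg _)
  let Λ₀ : (Cube S → X) →ₗ[ℝ] ℝ := ∑ i, (φ i : X →ₗ[ℝ] ℝ) ∘ₗ LinearMap.proj i ∘ₗ ldT
  have hΛ₀ : ∀ x, Λ₀ (ldR x) = ∑ i, φ i (x i) := fun x => by
    simp only [Λ₀, LinearMap.sum_apply, LinearMap.comp_apply, ldT_ldR, LinearMap.proj_apply,
      ContinuousLinearMap.coe_coe]
  obtain ⟨Λ, h1, h2⟩ := exists_extension_of_le_sublinear
    (⟨LinearMap.range ldR, Λ₀.domRestrict _⟩ : (Cube S → X) →ₗ.[ℝ] ℝ) (fun F => B * l2 F)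
    (fun t ht F => by
      rw [show l2 (t • F) = |t| * l2 F from l2_smul t F, abs_of_pos ht]; ring)
    (fun F F' => by rw [← mul_add]; exact mul_le_mul_of_nonneg_left (l2_add_le F F') hB0)
    (by
      rintro ⟨_, x, rfl⟩
      change Λ₀ (ldR x) ≤ B * l2 (ldR x)
      rw [hΛ₀]
      refine (ld_pair φ x).trans ?_
      have := mul_le_mul_of_nonneg_left (h x) (mul_nonneg (Nat.cast_nonneg S) (l2_nonneg φ))
      refine this.trans (le_of_eq ?_)
      rw [hB]
      change _ = _ * l2 fun ε : Cube S => ∑ i, sg (ε i) • x i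
      ring)
  have h3 : ∀ F, |Λ F| ≤ B * l2 F := fun F => by
    refine abs_le.2 ⟨?_, h2 F⟩
    have := h2 ((-1 : ℝ) • F)
    rw [show l2 ((-1 : ℝ) • F) = |(-1)| * l2 F from l2_smul (-1) F, map_smul] at this
    simp only [smul_eq_mul, abs_neg, abs_one, one_mul] at this
    linarith
  have h4 : ∀ (ε : Cube S) (x : X), l2 (Pi.single ε x : Cube S → X) ≤ ‖x‖ := fun ε x =>
    l2_le_of_sq (norm_nonneg _) (avg_le_const fun η => by
      by_cases hη : η = ε <;> simp [hη])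
  let G : Cube S → StrongDual ℝ X := fun ε => (Fintype.card (Cube S) : ℝ) •
    (Λ ∘ₗ LinearMap.single ℝ (fun _ => X) ε).mkContinuous B fun x =>
      (h3 _).trans (mul_le_mul_of_nonneg_left (h4 ε x) hB0)
  have h5 : ∀ F, (avg fun ε => G ε (F ε)) = Λ F := fun F => by
    have hc : (Fintype.card (Cube S) : ℝ) ≠ 0 := by exact_mod_cast Fintype.card_ne_zero
    change (avg fun ε => (Fintype.card (Cube S) : ℝ) * Λ (Pi.single ε (F ε))) = _
    rw [avg_const_mul, avg_def, smul_eq_mul, ← mul_assoc, mul_inv_cancel₀ hc, one_mul, ← map_sum,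
      univ_sum_single]
  refine ⟨G, fun i => ?_, l2_dual_le G hB0 fun F => (h5 F).trans_le (h2 F)⟩
  ext x
  have h6 : coef G {i} x = avg fun ε => G ε (sg (ε i) • x) := by
    have := map_avg (ContinuousLinearMap.apply ℝ ℝ x) fun ε => wal {i} ε • G ε
    simpa [coef] using this
  have h7 : (fun ε : Cube S => sg (ε i) • x) = ldR (Pi.single i x) := by
    funext ε
    change _ = ∑ j, sg (ε j) • (Pi.single i x : Fin S → X) j
    rw [sum_eq_single i (fun j _ hj => by simp [hj]) (by simp), Pi.single_eq_same]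
  rw [h6, h5, h7]
  refine (h1 ⟨_, _, rfl⟩).trans ((hΛ₀ _).trans ?_)
  rw [sum_eq_single i (fun j _ hj => by simp [hj]) (by simp), Pi.single_eq_same]

end Vale.Agent.P111
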