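import Vale.Agent.P111.LiftDual

/-!
Cotype of the dual of `X` gives lifts in `X`.

Plan. Fix `x : Fin S → X`; if `l2 x = 0` take `F = 0`. Let `ρ = S * c * l2 x` and
`K = {(coef F {i})_i | l2 F ≤ ρ} ⊆ (Fin S → X)` (sup norm), a convex set containing `0`.
Claim `x ∈ closure K`. Otherwise `geometric_hahn_banach_point_closed` gives a continuous functional
`Φ` and `u` with `Φ x < u < Φ k` for `k ∈ closure K`; with `φ i = -Φ ∘ single i` we get
`∑ i, φ i (coef F {i}) < -u < ∑ i, φ i (x i)` whenever `l2 F ≤ ρ`. Now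
`∑ i, φ i (coef F {i}) = avg ε, G ε (F ε)` for `G ε = ∑ i, sg (ε i) • φ i`, so by scaling and
`l2_dual_le`, `ρ * l2 G ≤ -u`, while `∑ i, φ i (x i) ≤ S * l2 φ * l2 x ≤ S * c * l2 G * l2 x`,
a contradiction. Finally take `F₀` with `l2 F₀ ≤ ρ`, `‖coef F₀ {i} - x i‖ ≤ c' ` tiny and correct:
`F ε = F₀ ε + ∑ i, sg (ε i) • (x i - coef F₀ {i})` (orthogonality `avg_wal_mul_wal`), which
costs at most `S * c' ≤ l2 x`.
-/

namespace Vale.Agent.P111

open Finset

variable {X : Type*} [NormedAddCommGroup X] [NormedSpace ℝ X]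

theorem lp_avg {S : ℕ} (ρ : ℝ) (φ : Fin S → StrongDual ℝ X) (F : Cube S → X) :
    (avg fun ε : Cube S => (ρ • ∑ i, sg (ε i) • φ i) (F ε)) = ρ * ∑ i, φ i (coef F {i}) := by
  simp only [coef, map_avg, ← avg_sum, ← avg_const_mul]
  refine avg_congr fun ε => ?_
  simp

theorem lift_pre_of {S : ℕ} {c : ℝ} (hc : 0 ≤ c)
    (h : ∀ y : Fin S → StrongDual ℝ X, l2 y ≤ c * l2 fun ε : Cube S => ∑ i, sg (ε i) • y i) :
    Lift X S (S * c + 1) := by
  intro x
  rcases (l2_nonneg x).eq_or_lt with h0 | h0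
  · refine ⟨0, fun i => ?_, ?_⟩
    · rw [eq_zero_of_l2_eq_zero h0.symm i]
      simp [coef]
    · rw [← h0, mul_zero]
      exact l2_zero.le
  set ρ := S * c * l2 x with hρ
  have hρ0 : 0 ≤ ρ := by positivity
  have hconv : Convex ℝ {F : Cube S → X | l2 F ≤ ρ} := by
    intro F hF F' hF' a b ha hb hab
    have h1 : l2 (a • F + b • F') ≤ l2 (a • F) + l2 (b • F') := l2_add_le _ _
    rw [show l2 (a • F) = |a| * l2 F from l2_smul a F,
      show l2 (b • F') = |b| * l2 F' from l2_smul b F', abs_of_nonneg ha, abs_of_nonneg hb] at h1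
    have h2 := mul_le_mul_of_nonneg_left (show l2 F ≤ ρ from hF) ha
    have h3 := mul_le_mul_of_nonneg_left (show l2 F' ≤ ρ from hF') hb
    change l2 (a • F + b • F') ≤ ρ
    have : a * ρ + b * ρ = ρ := by rw [← add_mul, hab, one_mul]
    linarith
  have hx : x ∈ closure (ldT '' {F : Cube S → X | l2 F ≤ ρ}) := by
    by_contra hx
    obtain ⟨Φ, u, h1, h2⟩ := geometric_hahn_banach_closed_point
      (hconv.linear_image ldT).closure isClosed_closure hx
    let φ : Fin S → StrongDual ℝ X := fun i =>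
      Φ.comp (ContinuousLinearMap.single ℝ (fun _ => X) i)
    have h3 : ∀ v, Φ v = ∑ i, φ i (v i) := fun v => by
      conv_lhs => rw [← univ_sum_single v, map_sum]
      rfl
    have h4 : ∀ F, l2 F ≤ ρ → Φ (ldT F) < u := fun F hF => h1 _ (subset_closure ⟨F, hF, rfl⟩)
    have hu : 0 ≤ u := by simpa using (h4 0 (l2_zero.le.trans hρ0)).le
    have h5 : ∀ F, (avg fun ε : Cube S => (ρ • ∑ i, sg (ε i) • φ i) (F ε)) = ρ * Φ (ldT F) := by
      intro F
      rw [h3, lp_avg]
      rfl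
    have h6 := l2_dual_le (fun ε : Cube S => ρ • ∑ i, sg (ε i) • φ i) hu fun F => by
      rw [h5]
      rcases (l2_nonneg F).eq_or_lt with hF | hF
      · rw [show F = 0 from funext (eq_zero_of_l2_eq_zero hF.symm)]
        simpa using mul_nonneg hu (l2_nonneg _)
      · have h7 := h4 ((ρ / l2 F) • F) (by
          rw [show l2 ((ρ / l2 F) • F) = |ρ / l2 F| * l2 F from l2_smul _ F,
            abs_of_nonneg (by positivity), div_mul_cancel₀ _ hF.ne'])
        rw [map_smul, map_smul, smul_eq_mul, div_mul_eq_mul_div, div_lt_iff₀ hF] at h7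
        exact h7.le
    rw [l2_smul, abs_of_nonneg hρ0] at h6
    have h7 := ld_pair φ x
    have h8 := mul_le_mul_of_nonneg_left (h φ) (mul_nonneg (Nat.cast_nonneg S) h0.le)
    rw [h3] at h2
    nlinarith
  obtain ⟨_, ⟨F, hF, rfl⟩, hd⟩ := Metric.mem_closure_iff.1 hx (l2 x / (S + 1)) (by positivity)
  refine ⟨F + ldR (x - ldT F), fun i => ?_, (l2_add_le _ _).trans ?_⟩
  · change ldT (F + ldR (x - ldT F)) i = x i
    rw [map_add, ldT_ldR, add_sub_cancel]
  · have h1 : l2 (ldR (x - ldT F)) ≤ S * (l2 x / (S + 1)) := by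
      refine l2_le_of_sq (by positivity) (avg_le_const fun ε => pow_le_pow_left₀ (norm_nonneg _) ?_ 2)
      refine (norm_sum_le univ fun i => sg (ε i) • (x - ldT F) i).trans
        ((sum_le_card_nsmul _ _ (l2 x / (S + 1)) fun i _ => ?_).trans (by simp))
      rw [norm_smul, Real.norm_eq_abs, abs_sg, one_mul]
      rw [dist_eq_norm] at hd
      exact (norm_le_pi_norm _ i).trans hd.le
    have h2 : S * (l2 x / (S + 1)) ≤ l2 x := by
      rw [mul_div_assoc', div_le_iff₀ (by positivity)]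
      nlinarith
    have h3 : l2 F ≤ ρ := hF
    change l2 F + l2 (ldR (x - ldT F)) ≤ _
    linarith

end Vale.Agent.P111
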