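import Vale.Agent.P111.Core
import Vale.Agent.P111.AP
import Vale.Agent.P111.LiftPre
import Vale.Agent.P111.Filter
import Vale.Agent.P111.KGlue

/-!
The cotype-cotype theorem under the approximation property.
-/

namespace Vale.Agent.P111

universe u

theorem Lift.mono {E : Type*} [NormedAddCommGroup E] [NormedSpace ℝ E] {S : ℕ} {A A' : ℝ}
    (h : Lift E S A) (hA : A ≤ A') : Lift E S A' := by
  intro x
  obtain ⟨F, h1, h2⟩ := h x
  exact ⟨F, h1, h2.trans (mul_le_mul_of_nonneg_right hA (l2_nonneg _))⟩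

theorem pow_rpow_le {n j : ℕ} (hn : 1 ≤ n) {q : ℝ} (hq : 0 < q) (hj : 2 * q ≤ j) :
    ((n ^ j : ℕ) : ℝ) ^ (-(1 / q)) ≤ ((n : ℝ) ^ 2)⁻¹ := by
  have hn1 : (1 : ℝ) ≤ n := by exact_mod_cast hn
  rw [Nat.cast_pow, ← Real.rpow_natCast (n : ℝ) j, ← Real.rpow_mul (by positivity),
    ← Real.rpow_natCast (n : ℝ) 2, ← Real.rpow_neg (by positivity)]
  refine Real.rpow_le_rpow_of_exponent_le hn1 ?_
  have : 2 ≤ (j : ℝ) * (1 / q) := by
    rw [mul_one_div, le_div_iff₀ hq]; exact hj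
  push_cast
  linarith

theorem wb_eval {X : Type u} [NormedAddCommGroup X] [NormedSpace ℝ X] (hAP : HasAP X) {q r : ℝ}
    (hq : 2 ≤ q) (hr : 2 ≤ r) (hX : HasCotype X q) (hX' : HasCotype (StrongDual ℝ X) r) :
    ∃ β C : ℝ, 0 < β ∧ WB (evalForm (ContinuousLinearMap.id ℝ X)) β C := by
  obtain ⟨C, hC, hCq⟩ := cotype_l2 hq hX
  obtain ⟨C', hC', hCr⟩ := cotype_l2 hr hX'
  obtain ⟨j, hj⟩ := exists_nat_ge (2 * max q r)
  have hjq : 2 * q ≤ j := le_trans (by gcongr; exact le_max_left _ _) hj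
  have hjr : 2 * r ≤ j := le_trans (by gcongr; exact le_max_right _ _) hj
  have hj2 : 2 ≤ j := by
    have : (2 : ℝ) ≤ j := by linarith
    exact_mod_cast this
  obtain ⟨c, hc, hfil⟩ := exists_filter.{u} (2 * j) (by omega)
  obtain ⟨n, hn⟩ := exists_nat_ge (42 * c * (C + C' + 1) + 1)
  have hL : 0 ≤ 42 * c * (C + C' + 1) := by positivity
  have hn1' : (1 : ℝ) ≤ n := by linarith
  have hn1 : 1 ≤ n := by exact_mod_cast hn1'
  set S : ℕ := n ^ j with hSdef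
  have hS : 0 < S := pow_pos hn1 j
  have hSr : (S : ℝ) = (n : ℝ) ^ j := by rw [hSdef, Nat.cast_pow]
  have hS0 : (0 : ℝ) < S := by exact_mod_cast hS
  have hn2 : (0 : ℝ) < (n : ℝ) ^ 2 := by positivity
  set B : ℝ := (C + C' + 1) * (S * ((n : ℝ) ^ 2)⁻¹) with hB
  have hSn : 1 ≤ S * ((n : ℝ) ^ 2)⁻¹ := by
    rw [← div_eq_mul_inv, le_div_iff₀ hn2, one_mul, hSr]
    exact pow_le_pow_right₀ hn1' hj2
  have h1 : Lift (StrongDual ℝ X) S B := by
    refine (lift_dual_of (by positivity) (hCq S hS)).mono ?_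
    have := mul_le_mul_of_nonneg_left (pow_rpow_le hn1 (by linarith : 0 < q) hjq)
      (mul_nonneg hS0.le hC)
    rw [← hSdef] at this
    nlinarith
  have h2 : Lift X S B := by
    refine (lift_pre_of (by positivity) (hCr S hS)).mono ?_
    have := mul_le_mul_of_nonneg_left (pow_rpow_le hn1 (by linarith : 0 < r) hjr)
      (mul_nonneg hS0.le hC')
    rw [← hSdef] at this
    nlinarith
  have hβ : (1 / (2 * S) : ℝ) ≤ 1 / 2 := by
    have : (1 : ℝ) ≤ S := by exact_mod_cast hS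
    gcongr
    linarith
  refine ⟨1 / (2 * S), 2 * (2 ^ (S * S) + 1), by positivity,
    wb_eval_of_AP hAP hβ (by positivity) fun b hb hΨ => ?_⟩
  refine core (j := j) (τ := (n : ℝ)⁻¹) (A := c * B) hS (by omega) (by positivity)
    (inv_le_one_of_one_le₀ hn1') ?_ (by positivity) ?_ (hfil X S B h2) (hfil _ S B h1) b hb hΨ
  · rw [hSr, ← mul_pow, mul_inv_cancel₀ (by positivity), one_pow]
  · have e : (S : ℝ) * (n : ℝ)⁻¹ = n * (S * ((n : ℝ) ^ 2)⁻¹) := by field_simp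
    rw [e, hB]
    nlinarith

theorem kConvex_of_AP {X : Type u} [NormedAddCommGroup X] [NormedSpace ℝ X] [CompleteSpace X]
    (hAP : HasAP X) {q r : ℝ} (hq : 2 ≤ q) (hr : 2 ≤ r) (hX : HasCotype X q)
    (hX' : HasCotype (StrongDual ℝ X) r) : KConvex X := by
  obtain ⟨β, C, hβ, h⟩ := wb_eval hAP hq hr hX hX'
  exact kConvex_of_walshContr (walshContr_of_wb hβ h)

theorem HasBAP.hasAP {X : Type*} [NormedAddCommGroup X] [NormedSpace ℝ X] (h : HasBAP X) :
    HasAP X := by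
  obtain ⟨lam, h⟩ := h
  intro M hM δ hδ
  obtain ⟨S, h1, -, h2⟩ := h M hM δ hδ
  exact ⟨S, h1, h2⟩

end Vale.Agent.P111
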