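import Vale.Agent.P111.Contr
import Vale.Agent.P111.Mult

/-!
Pisier's lemma: `(1 - T_θ)^n` has norm at most `2^n - 1/2` on `L_2(Cube s; X)`.

Plan. `ex A = smult (fun a => if Disjoint a A then 1 else 0)` is the conditional expectation
`ex A f ε = avg η, f (A.piecewise η ε)` (or `avg η, f (ε * A.piecewise η 1)`), a contraction for
`l2`; `ex A (ex B f) = ex (A ∪ B) f` (`smult_smult`).
1. For `A : Fin n → Finset (Fin s)` and `t : Finset (Fin n)` put `v t = ex (t.biUnion A) f`, so
   `l2 (v t) ≤ l2 f`. Symbol identity: `∏ x, (1 - 1[Disjoint a (A x)])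
   = ∑ t, (-1)^t.card * 1[Disjoint a (t.biUnion A)]`. Let `h y ε = avg x, χ x y • v {x} ε`.
   `WalshContr` applied for each `ε` and averaged gives `avg y, l2 (h y) ^ 2 ≤ (l2 f / 2)^2`,
   so some `y` has `l2 (h y) ≤ l2 f / 2` (`exists_le_avg`). With `t₀ = {x | χ x y = 1}`,
   `ex (t₀.biUnion A) (h y) = avg x, χ x y • v (insert x t₀) = (-1)^|t₀| ∑ t, (-1)^|t| w t • v t`
   with `w t = avg x, 1[insert x t₀ = t] ∈ [0,1]`, `∑ t, w t = 1`. Hence
   `l2 (∑ t, (-1)^|t| • v t) ≤ l2 (h y) + ∑ t, (1 - w t) * l2 f ≤ (2^n - 1/2) * l2 f`.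
2. `θ^|a| = ∑ A, ((1-θ)^|A| θ^(s-|A|)) 1[Disjoint a A]`, a convex combination; so
   `(1 - θ^|a|)^n = ∑ A : Fin n → Finset (Fin s), (∏ x, w (A x)) * ∏ x, (1 - 1[Disjoint a (A x)])`
   (`Finset.prod_univ_sum`), and `l2 (mult ((1 - θ^·)^n) f) ≤ (2^n - 1/2) * l2 f`.
-/

namespace Vale.Agent.P111

open Finset

variable {X : Type*} [NormedAddCommGroup X] [NormedSpace ℝ X]

/-- The symbol of the conditional expectation. -/
def projD {s : ℕ} (A a : Finset (Fin s)) : ℝ := if Disjoint a A then 1 else 0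

/-- The weights of the convex combination. -/
def projW {s : ℕ} (θ : ℝ) (A : Finset (Fin s)) : ℝ := (1 - θ) ^ A.card * θ ^ (univ \ A).card

theorem projD_eq {s : ℕ} (A a : Finset (Fin s)) :
    projD A a = ∏ i ∈ A, if i ∈ a then (0 : ℝ) else 1 := by
  unfold projD
  split_ifs with h
  · exact (prod_eq_one fun i hi => if_neg (disjoint_right.1 h hi)).symm
  · obtain ⟨i, h1, h2⟩ := not_disjoint_iff.1 h
    exact Eq.symm (prod_eq_zero h2 (by rw [if_pos h1]))

theorem projW_sum {s : ℕ} (θ : ℝ) (a : Finset (Fin s)) :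
    θ ^ a.card = ∑ A : Finset (Fin s), projW θ A * projD A a := by
  have h1 : θ ^ a.card = ∏ i, ((1 - θ) * (if i ∈ a then (0 : ℝ) else 1) + θ) := by
    have h2 : ∀ i, (1 - θ) * (if i ∈ a then (0 : ℝ) else 1) + θ = if i ∈ a then θ else 1 := by
      intro i
      split_ifs <;> ring
    simp only [h2]
    rw [prod_ite_mem, univ_inter, prod_const]
  rw [h1, prod_add, powerset_univ]
  refine sum_congr rfl fun A _ => ?_
  rw [prod_mul_distrib, prod_const, prod_const, projW, projD_eq]
  ring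

theorem proj_avg_wal {s : ℕ} (A a : Finset (Fin s)) :
    avg (fun η : Cube s => wal a fun i => if i ∈ A then η i else 1) = projD A a := by
  simp only [wal_eq_prod_ite]
  rw [avg_pi_prod (fun i u => if i ∈ a then sg (if i ∈ A then u else 1) else 1), projD_eq,
    ← univ_inter A, ← prod_ite_mem]
  refine prod_congr rfl fun i _ => ?_
  by_cases h1 : i ∈ a <;> by_cases h2 : i ∈ A <;> simp [h1, h2]

theorem l2_projD_le {s : ℕ} (A : Finset (Fin s)) (f : Cube s → X) :
    l2 (smult (projD A) f) ≤ l2 f := by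
  have h : smult (projD A) f =
      fun ε => avg fun η : Cube s => f (ε * fun i => if i ∈ A then η i else 1) := by
    funext ε
    conv_rhs => rw [← smult_one f]
    simp only [smult, one_mul, wal_mul]
    rw [avg_sum]
    refine sum_congr rfl fun a _ => ?_
    rw [avg_smul_const, avg_const_mul, proj_avg_wal, mul_comm]
  rw [h]
  refine (l2_avg_le (fun (η : Cube s) ε => f (ε * fun i => if i ∈ A then η i else 1))).trans ?_
  simp only [l2_comp_mul_right, avg_const, le_refl]

theorem l2_proj_prod_le {s n : ℕ} (A : Fin n → Finset (Fin s)) (t : Finset (Fin n))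
    (f : Cube s → X) : l2 (smult (fun a => ∏ x ∈ t, -projD (A x) a) f) ≤ l2 f := by
  induction t using Finset.induction_on with
  | empty => simp only [prod_empty, smult_one, le_refl]
  | insert x t hx ih =>
    have e : smult (fun a => ∏ x ∈ insert x t, -projD (A x) a) f = fun ε => (-1 : ℝ) •
        smult (projD (A x)) (smult (fun a => ∏ x ∈ t, -projD (A x) a) f) ε := by
      funext ε
      rw [smult_smult, ← smult_smul_symb]
      simp only [prod_insert hx, neg_mul, one_mul]
    rw [e, l2_smul, abs_neg, abs_one, one_mul]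
    exact (l2_projD_le _ _).trans ih

theorem proj_exists {s n m : ℕ} (hn : 0 < n) (hm : 0 < m) {χ : Fin n → Fin m → ℝ}
    (hc : ∀ f : Fin n → X, l2 (fun y => avg fun x => χ x y • f x) ≤ 1 / 2 * l2 f)
    (v : Fin n → Cube s → X) {c : ℝ} (h0 : 0 ≤ c) (hv : ∀ x, l2 (v x) ≤ c) :
    ∃ y, l2 (fun ε => avg fun x => χ x y • v x ε) ≤ 1 / 2 * c := by
  have : Nonempty (Fin n) := ⟨⟨0, hn⟩⟩
  have : Nonempty (Fin m) := ⟨⟨0, hm⟩⟩
  obtain ⟨y, hy⟩ := exists_le_avg fun y => avg fun ε => ‖avg fun x => χ x y • v x ε‖ ^ 2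
  refine ⟨y, l2_le_of_sq (by positivity) (hy.trans ?_)⟩
  rw [avg_comm]
  calc _ ≤ avg fun ε => (1 / 2) ^ 2 * avg fun x => ‖v x ε‖ ^ 2 := by
        refine avg_mono fun ε => (avg_sq_le_of_l2 (hc fun x => v x ε)).trans (le_of_eq ?_)
        rw [mul_pow, l2_sq]
    _ ≤ _ := by
        rw [avg_const_mul, avg_comm, mul_pow]
        exact mul_le_mul_of_nonneg_left (avg_le_const fun x => avg_sq_le_of_l2 (hv x))
          (by positivity)

theorem proj_core {s n m : ℕ} (hn : 0 < n) (hm : 0 < m) {χ : Fin n → Fin m → ℝ}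
    (hχ : ∀ x y, χ x y = 1 ∨ χ x y = -1)
    (hc : ∀ f : Fin n → X, l2 (fun y => avg fun x => χ x y • f x) ≤ 1 / 2 * l2 f)
    (A : Fin n → Finset (Fin s)) (f : Cube s → X) :
    l2 (smult (fun a => ∏ x, (1 - projD (A x) a)) f) ≤ (2 ^ n - 1 / 2) * l2 f := by
  classical
  have : Nonempty (Fin n) := ⟨⟨0, hn⟩⟩
  obtain ⟨y, hy⟩ := proj_exists hn hm hc (fun x => smult (projD (A x)) f) (l2_nonneg f)
    fun x => l2_projD_le (A x) f
  set t₀ := univ.filter fun x => χ x y = 1 with ht₀
  set u : Finset (Fin n) → Cube s → X := fun t => smult (fun a => ∏ x ∈ t, -projD (A x) a) f with hu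
  have e0 : ∀ x a, (∏ x ∈ t₀, -projD (A x) a) * (χ x y * projD (A x) a) =
      ∏ x ∈ insert x t₀, -projD (A x) a := by
    intro x a
    by_cases hx : x ∈ t₀
    · rw [insert_eq_of_mem hx, (mem_filter.1 hx).2, one_mul]
      by_cases hd : Disjoint a (A x)
      · rw [projD, if_pos hd, mul_one]
      · have hz : -projD (A x) a = 0 := by rw [projD, if_neg hd, neg_zero]
        rw [prod_eq_zero hx hz, zero_mul]
    · have h1 : χ x y = -1 := (hχ x y).resolve_left fun h => hx (mem_filter.2 ⟨mem_univ _, h⟩)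
      rw [prod_insert hx, h1]
      ring
  have e1 : smult (fun a => ∏ x ∈ t₀, -projD (A x) a)
      (fun ε => avg fun x => χ x y • smult (projD (A x)) f ε) =
      fun ε => avg fun x => u (insert x t₀) ε := by
    refine eq_of_coef_eq fun a => ?_
    simp only [hu, avg_def, coef_smult, coef_smul, coef_sum, ← e0, mul_smul, ← smul_sum]
    rw [smul_comm]
  have e2 : smult (fun a => ∏ x, (1 - projD (A x) a)) f = fun ε =>
      (avg fun x => u (insert x t₀) ε) + avg fun x => ∑ t ∈ univ.erase (insert x t₀), u t ε := by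
    funext ε
    rw [← avg_add]
    simp only [add_sum_erase univ (fun t => u t ε) (mem_univ _), avg_const, sub_eq_add_neg,
      prod_one_add, powerset_univ]
    rw [smult_sum_symb]
  have h1 : l2 (fun ε => avg fun x => u (insert x t₀) ε) ≤ 1 / 2 * l2 f := by
    rw [← e1]
    exact (l2_proj_prod_le A t₀ _).trans hy
  have h2 : l2 (fun ε => avg fun x => ∑ t ∈ univ.erase (insert x t₀), u t ε) ≤
      (2 ^ n - 1) * l2 f := by
    refine (l2_avg_le fun x ε => ∑ t ∈ univ.erase (insert x t₀), u t ε).trans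
      (avg_le_const fun x => (l2_sum_le _ _).trans ?_)
    refine (sum_le_sum fun t _ => l2_proj_prod_le A t f).trans (le_of_eq ?_)
    rw [sum_const, card_erase_of_mem (mem_univ _), card_univ, Fintype.card_finset, Fintype.card_fin,
      nsmul_eq_mul, Nat.cast_sub Nat.one_le_two_pow]
    push_cast
    ring
  rw [e2]
  refine (l2_add_le _ _).trans ?_
  linarith

theorem l2_mult_one_sub_pow_le (h : WalshContr X) : ∃ n : ℕ, 0 < n ∧ ∀ (s : ℕ) (θ : ℝ),
    0 ≤ θ → θ ≤ 1 → ∀ f : Cube s → X,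
      l2 (mult (fun k => (1 - θ ^ k) ^ n) f) ≤ (2 ^ n - 1 / 2) * l2 f := by
  obtain ⟨n, m, χ, hn, hm, hχ, hc⟩ := h
  refine ⟨n, hn, fun s θ h0 h1 f => ?_⟩
  have hw : ∀ A : Finset (Fin s), 0 ≤ projW θ A := fun A =>
    mul_nonneg (pow_nonneg (sub_nonneg.2 h1) _) (pow_nonneg h0 _)
  have hw1 : ∑ A : Finset (Fin s), projW θ A = 1 := by
    simpa [projD] using (projW_sum θ (∅ : Finset (Fin s))).symm
  have e : ∀ a : Finset (Fin s), (1 - θ ^ a.card) ^ n = ∑ A : Fin n → Finset (Fin s),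
      (∏ x, projW θ (A x)) * ∏ x, (1 - projD (A x) a) := by
    intro a
    have e1 : 1 - θ ^ a.card = ∑ A : Finset (Fin s), projW θ A * (1 - projD A a) := by
      simp only [mul_sub, mul_one, sum_sub_distrib, hw1, projW_sum]
    simp only [← prod_mul_distrib]
    rw [← Fintype.piFinset_univ, ← prod_univ_sum (fun _ : Fin n => univ)
      fun _ (A : Finset (Fin s)) => projW θ A * (1 - projD A a), ← e1, prod_const, card_univ,
      Fintype.card_fin]
  have e2 : mult (fun k => (1 - θ ^ k) ^ n) f = fun ε => ∑ A : Fin n → Finset (Fin s),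
      (∏ x, projW θ (A x)) • smult (fun a => ∏ x, (1 - projD (A x) a)) f ε := by
    funext ε
    simp only [mult, e]
    rw [smult_sum_symb]
    simp only [smult_smul_symb]
  have hs : ∑ A : Fin n → Finset (Fin s), ∏ x, projW θ (A x) = 1 := by
    rw [← Fintype.piFinset_univ, ← prod_univ_sum (fun _ : Fin n => univ)
      fun _ (A : Finset (Fin s)) => projW θ A, hw1, prod_const_one]
  rw [e2]
  refine (l2_sum_le _ _).trans ?_
  calc _ ≤ ∑ A : Fin n → Finset (Fin s), (∏ x, projW θ (A x)) * ((2 ^ n - 1 / 2) * l2 f) := by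
        refine sum_le_sum fun A _ => ?_
        have hp : 0 ≤ ∏ x, projW θ (A x) := prod_nonneg fun x _ => hw _
        rw [l2_smul, abs_of_nonneg hp]
        exact mul_le_mul_of_nonneg_left (proj_core hn hm hχ hc A f) hp
    _ = _ := by rw [← sum_mul, hs, one_mul]

end Vale.Agent.P111
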