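import Vale.Agent.P111.Expand

/-!
Weighted mean squares against the Riesz product.

Plan. `weight_left`: by `theta_expand`, for fixed `x, ε`,
   `avg y η, theta ≤ 1 + ∑ c ≠ ∅, avg y, pat χ c x y` (each `avg y, pat χ c x y ≥ 0` by
   `avg_right_nonneg`), so with `bias_pat_le` and `2^(S*S) * bias χ ≤ 1` the weighted mean square
   is at most `2 * A^2`. `weight_right` is symmetric (use `IsBi.swap` of `pat χ c`, `bias_swap`).
-/

namespace Vale.Agent.P111

open Finset

variable {V W Ω : Type} [AddCommGroup V] [Fintype V] [AddCommGroup W] [Fintype W]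
  [Fintype Ω] {S : ℕ}

theorem weight_wal_le (a : Finset (Fin S)) (ε : Cube S) : |wal a ε| = 1 := by
  rcases mul_self_eq_one_iff.1 (wal_mul_self a ε) with h | h <;> simp [h]

omit [Fintype V] in
theorem weight_theta_le {χ : V → W → ℝ} (hχ : IsBi χ) {θ : Fin S × Fin S → ℝ}
    (hθ : ∀ p, 0 ≤ θ p ∧ θ p ≤ 1) (x : Fin S → V) (ε η : Cube S) :
    (avg fun y => theta θ χ x y ε η) ≤ ∑ c : Finset (Fin S × Fin S), avg (pat χ c x) := by
  simp only [theta_expand]
  rw [avg_sum]
  refine sum_le_sum fun c _ => ?_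
  simp only [← mul_assoc]
  rw [avg_const_mul]
  refine mul_le_of_le_one_left ((hχ.pat c).avg_right_nonneg x) ((le_abs_self _).trans ?_)
  rw [abs_mul, abs_mul, weight_wal_le, weight_wal_le, mul_one, mul_one,
    abs_of_nonneg (prod_nonneg fun p _ => (hθ p).1)]
  exact prod_le_one (fun p _ => (hθ p).1) fun p _ => (hθ p).2

theorem weight_sum_le {χ : V → W → ℝ} (hχ : IsBi χ) (hδ : 2 ^ (S * S) * bias χ ≤ 1) :
    ∑ c : Finset (Fin S × Fin S), bias (pat χ c) ≤ 2 := by
  have h1 : ∀ c : Finset (Fin S × Fin S),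
      bias (pat χ c) ≤ (if c = ∅ then 1 else 0) + bias χ := by
    intro c
    split_ifs with hc
    · exact (hχ.pat c).bias_le_one.trans (le_add_of_nonneg_right hχ.bias_pos.le)
    · rw [zero_add]
      exact hχ.bias_pat_le (nonempty_iff_ne_empty.2 hc)
  refine (sum_le_sum fun c _ => h1 c).trans ?_
  rw [sum_add_distrib, sum_ite_eq', sum_const, card_univ, Fintype.card_finset, Fintype.card_prod,
    Fintype.card_fin, if_pos (mem_univ _), nsmul_eq_mul]
  push_cast
  linarith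

theorem weight_left {χ : V → W → ℝ} (hχ : IsBi χ) {θ : Fin S × Fin S → ℝ}
    (hθ : ∀ p, 0 ≤ θ p ∧ θ p ≤ 1) (hδ : 2 ^ (S * S) * bias χ ≤ 1)
    (u : (Fin S → V) → Ω → Cube S → ℝ) (hu0 : ∀ x ω ε, 0 ≤ u x ω ε) {B : ℝ}
    (hu : ∀ x, (avg fun ω => avg fun ε => u x ω ε) ≤ B) :
    (avg fun ω => avg fun x => avg fun y => avg fun ε => avg fun η =>
      theta θ χ x y ε η * u x ω ε) ≤ 2 * B := by
  have hB : 0 ≤ B := (avg_nonneg fun ω => avg_nonneg fun ε => hu0 0 ω ε).trans (hu 0)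
  have hm : ∀ x, 0 ≤ ∑ c : Finset (Fin S × Fin S), avg (pat χ c x) := fun x =>
    sum_nonneg fun c _ => (hχ.pat c).avg_right_nonneg x
  have h1 : ∀ ω x, (avg fun y => avg fun ε => avg fun η => theta θ χ x y ε η * u x ω ε)
      ≤ (∑ c : Finset (Fin S × Fin S), avg (pat χ c x)) * avg fun ε => u x ω ε := by
    intro ω x
    rw [avg_comm, ← avg_const_mul]
    refine avg_mono fun ε => ?_
    rw [avg_comm]
    refine avg_le_const fun η => ?_
    rw [avg_mul_const]
    exact mul_le_mul_of_nonneg_right (weight_theta_le hχ hθ x ε η) (hu0 x ω ε)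
  refine (avg_mono fun ω => avg_mono fun x => h1 ω x).trans ?_
  rw [avg_comm]
  have h2 : ∀ x, (avg fun ω => (∑ c : Finset (Fin S × Fin S), avg (pat χ c x)) *
      avg fun ε => u x ω ε) ≤ (∑ c : Finset (Fin S × Fin S), avg (pat χ c x)) * B := by
    intro x
    rw [avg_const_mul]
    exact mul_le_mul_of_nonneg_left (hu x) (hm x)
  refine (avg_mono h2).trans ?_
  rw [avg_mul_const, avg_sum]
  exact mul_le_mul_of_nonneg_right (weight_sum_le hχ hδ) hB

theorem weight_right {χ : V → W → ℝ} (hχ : IsBi χ) {θ : Fin S × Fin S → ℝ}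
    (hθ : ∀ p, 0 ≤ θ p ∧ θ p ≤ 1) (hδ : 2 ^ (S * S) * bias χ ≤ 1)
    (v : (Fin S → W) → Ω → Cube S → ℝ) (hv0 : ∀ y ω η, 0 ≤ v y ω η) {B : ℝ}
    (hv : ∀ y, (avg fun ω => avg fun η => v y ω η) ≤ B) :
    (avg fun ω => avg fun x => avg fun y => avg fun ε => avg fun η =>
      theta θ χ x y ε η * v y ω η) ≤ 2 * B := by
  have h := weight_left hχ.swap (θ := fun p => θ p.swap) (fun p => hθ _)
    (by rwa [bias_swap]) v hv0 hv
  refine le_trans (le_of_eq (avg_congr fun ω => ?_)) h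
  rw [avg_comm]
  refine avg_congr fun y => avg_congr fun x => ?_
  rw [avg_comm]
  refine avg_congr fun η => avg_congr fun ε => ?_
  congr 1
  refine Fintype.prod_equiv (Equiv.prodComm _ _) _ _ fun p => ?_
  simp only [Equiv.prodComm_apply, Prod.swap_swap, Prod.fst_swap, Prod.snd_swap]
  ring

end Vale.Agent.P111
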